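import Vale.Agent.P082.Bar

/-! Job Amp: amplification of a cocycle to matrices. -/

namespace Vale.Agent.P082

open Finset

variable {A : Type*} [CStarAlgebra A] [PartialOrder A] [StarOrderedRing A] {n : Type} [Fintype n]
  [DecidableEq n]

namespace Amp

/-- Additivity in the slots up to `m`. -/
def Ad {B : Type*} [Add B] (m : ℕ) (F : Fn B) : Prop :=
  ∀ i ≤ m, ∀ a a' a'' : ℕ → B, (∀ j ≠ i, a' j = a j) → (∀ j ≠ i, a'' j = a j) →
    a i = a' i + a'' i → F a = F a' + F a''

lemma Ad.comp_mg {B : Type*} [Ring B] {m : ℕ} {F : Fn B} (h : Ad m F) {i : ℕ} (hi : i ≤ m) :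
    Ad (m + 1) fun a => F (mg i a) := by
  intro j hj a a' a'' e1 e2 e3
  have e : ∀ a' : ℕ → B, (∀ l ≠ j, a' l = a l) → ∀ l ≠ (if j ≤ i then j else j - 1),
      mg i a' l = mg i a l := fun a' e l hl => by
    unfold mg
    split_ifs at hl ⊢ <;> simp (disch := omega) [e]
  refine h (if j ≤ i then j else j - 1) (by split_ifs <;> omega) _ _ _ (e _ e1) (e _ e2) ?_
  unfold mg
  split_ifs with h1 h2 h3 h4 h5
  · exact e3
  · subst h3; simp [e3, e1, e2, add_mul]
  · omega
  · omega
  · obtain rfl : j = i + 1 := by omega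
    simp [e3, e1, e2, mul_add]
  · rwa [Nat.sub_add_cancel (by omega)]

omit [Fintype n] in
lemma E_apply (p q : n) (a : A) (r s : n) : E p q a r s = if p = r ∧ q = s then a else 0 := rfl

omit [Fintype n] in
lemma E_zero (p q : n) : E p q (0 : A) = 0 := by ext r s; simp [E_apply]

omit [Fintype n] in
lemma E_add (p q : n) (a b : A) : E p q (a + b) = E p q a + E p q b := by
  ext r s; simp only [E_apply, CStarMatrix.add_apply]; split_ifs <;> simp

omit [Fintype n] in
lemma E_smul (p q : n) (c : ℂ) (a : A) : E p q (c • a) = c • E p q a := by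
  ext r s; simp only [E_apply, CStarMatrix.smul_apply]; split_ifs <;> simp

lemma E_mul (p q p' q' : n) (a b : A) :
    E p q a * E p' q' b = if q = p' then E p q' (a * b) else 0 := by
  ext r s
  rw [CStarMatrix.mul_apply, sum_eq_single q (fun l _ hl => by simp [E_apply, hl.symm]) (by simp)]
  split_ifs with h
  · subst h; simp only [E_apply]; by_cases h1 : p = r <;> by_cases h2 : q' = s <;> simp [h1, h2]
  · simp [E_apply, Ne.symm h]

omit [PartialOrder A] [StarOrderedRing A] [Fintype n] [DecidableEq n] in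
lemma sum_apply' {ι : Type*} (s : Finset ι) (x : ι → CStarMatrix n n A) (r t : n) :
    (∑ i ∈ s, x i) r t = ∑ i ∈ s, x i r t := by
  classical
  induction s using Finset.induction_on with
  | empty => simp
  | insert i s hi ih => simp [sum_insert hi, ih]

lemma sum_E (x : CStarMatrix n n A) : ∑ l : n × n, E l.1 l.2 (x l.1 l.2) = x := by
  ext r s
  rw [sum_apply', sum_eq_single (r, s) (fun l _ hl => by
    rw [E_apply, if_neg fun h => hl (Prod.ext h.1 h.2)]) (by simp)]
  simp [E_apply]

lemma norm_E (p q : n) (a : A) : ‖E p q a‖ ≤ ‖a‖ := by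
  refine CStarMatrix.norm_le_of_forall_inner_le (C := ‖a‖₊) fun v w => ?_
  have key : ∀ x : CStarMatrix n n A, inner A w (CStarMatrix.toCLM x v) =
      ∑ j, ∑ i, v i * x i j * star (w j) := fun x => by
    simp only [WithCStarModule.pi_inner, WithCStarModule.inner_def, ← Finset.sum_mul]
    rfl
  rw [key, sum_eq_single q (fun l _ hl => by simp [E_apply, hl.symm]) (by simp),
    sum_eq_single p (fun l _ hl => by simp [E_apply, hl.symm]) (by simp)]
  simp only [E_apply, and_self, if_true, coe_nnnorm]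
  refine (norm_mul_le_of_le (norm_mul_le_of_le (WithCStarModule.norm_apply_le_norm v p) le_rfl)
    ((norm_star _).trans_le (WithCStarModule.norm_apply_le_norm w q))).trans (le_of_eq ?_)
  ring

lemma ext_E {m : ℕ} {F : Fn (CStarMatrix n n A)} (h : Ad m F)
    (h0 : ∀ (p q : ℕ → n) (a : ℕ → A) (x : ℕ → CStarMatrix n n A),
      (∀ i ≤ m, x i = E (p i) (q i) (a i)) → F x = 0) (x : ℕ → CStarMatrix n n A) : F x = 0 := by
  have key : ∀ j, ∀ x : ℕ → CStarMatrix n n A,
      (∀ i, j ≤ i → i ≤ m → ∃ p q a, x i = E p q a) → F x = 0 := by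
    intro j
    induction j with
    | zero =>
      intro x hx
      choose p q a e using fun i : ℕ => hx (min i m) (Nat.zero_le _) (min_le_right _ _)
      exact h0 p q a x fun i hi => by have := e i; rwa [min_eq_left hi] at this
    | succ j ih =>
      intro x hx
      by_cases hj : j ≤ m
      · let L : CStarMatrix n n A →+ CStarMatrix n n A :=
          AddMonoidHom.mk' (fun y => F (Function.update x j y)) fun y z =>
            h j hj _ _ _ (by simp +contextual) (by simp +contextual) (by simp)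
        have : F x = L (∑ l : n × n, E l.1 l.2 (x j l.1 l.2)) := by simp [sum_E, L]
        rw [this, map_sum]
        refine sum_eq_zero fun l _ => ih _ fun i h1 h2 => ?_
        by_cases hi : i = j
        · subst hi; exact ⟨_, _, _, Function.update_self _ _ _⟩
        · rw [Function.update_of_ne hi]; exact hx i (by omega) h2
      · exact ih x fun i h1 h2 => by omega
  exact key (m + 1) x fun i h1 h2 => by omega

/-- The entries along an index path. -/
def ent (k : ℕ) (J : Fin (k + 2) → n × n) (x : ℕ → CStarMatrix n n A) : ℕ → A :=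
  fun i => if hi : i < k + 2 then x i (J ⟨i, hi⟩).1 (J ⟨i, hi⟩).2 else 0

/-- The amplified cochain. -/
noncomputable def amp (k : ℕ) (φ : Fn A) : Fn (CStarMatrix n n A) := fun x =>
  ∑ J : Fin (k + 2) → n × n, if ∀ i : Fin (k + 1), (J i.castSucc).2 = (J i.succ).1 then
    E (J 0).1 (J (Fin.last _)).2 (φ (ent k J x)) else 0

variable {k : ℕ} {c : ℝ} {φ : Fn A}

lemma amp_lin (hφ : Co k c φ) (i : ℕ) (hi : i ≤ k + 1) (a a' a'' : ℕ → CStarMatrix n n A) (c : ℂ)
    (e1 : ∀ j ≠ i, a' j = a j) (e2 : ∀ j ≠ i, a'' j = a j) (e3 : a i = a' i + c • a'' i) :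
    amp k φ a = amp k φ a' + c • amp k φ a'' := by
  unfold amp
  rw [smul_sum, ← sum_add_distrib]
  refine sum_congr rfl fun J _ => ?_
  split_ifs
  · rw [hφ.lin i hi (ent k J a) (ent k J a') (ent k J a'') c
      (fun j hj => by simp [ent, e1 j hj]) (fun j hj => by simp [ent, e2 j hj])
      (by simp [ent, e3, show i < k + 2 by omega]), E_add, E_smul]
  · simp

lemma amp_ad (hφ : Co k c φ) : Ad (k + 1) (amp (n := n) k φ) := fun i hi a a' a'' e1 e2 e3 => by
  simpa using amp_lin hφ i hi a a' a'' 1 e1 e2 (by simpa using e3)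

lemma amp_E (hφ : Co k c φ) (p q : ℕ → n) (a : ℕ → A) (x : ℕ → CStarMatrix n n A)
    (hx : ∀ i ≤ k + 1, x i = E (p i) (q i) (a i)) :
    amp k φ x = if ∀ i ≤ k, q i = p (i + 1) then E (p 0) (q (k + 1)) (φ a) else 0 := by
  unfold amp
  rw [sum_eq_single (fun i : Fin (k + 2) => (p i, q i)) _ (by simp)]
  · have : φ (ent k (fun i : Fin (k + 2) => (p i, q i)) x) = φ a := hφ.dep _ _ fun i hi => by
      simp [ent, show i < k + 2 by omega, hx i hi, E_apply]
    rw [this]
    refine if_congr ⟨fun h i hi => h ⟨i, by omega⟩, fun h i => h i (by have := i.2; omega)⟩ rfl rfl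
  · intro J _ hJ
    obtain ⟨i, hi⟩ := Function.ne_iff.1 hJ
    have : φ (ent k J x) = 0 := hφ.slot_zero (i := i) (by have := i.2; omega) (by
      simp only [ent, i.2, dif_pos, hx i (by have := i.2; omega), E_apply]
      exact if_neg fun h => hi (Prod.ext h.1.symm h.2.symm))
    simp [this, E_zero]

lemma amp_zero (hφ : Co k c φ) {x : ℕ → CStarMatrix n n A} {i : ℕ} (hi : i ≤ k + 1)
    (hx : x i = 0) : amp k φ x = 0 := by
  simpa using amp_ad hφ i hi x x x (fun _ _ => rfl) (fun _ _ => rfl) (by simp [hx])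

lemma amp_mg (hφ : Co k c φ) (p q : ℕ → n) (a : ℕ → A) (x : ℕ → CStarMatrix n n A)
    (hx : ∀ i ≤ k + 2, x i = E (p i) (q i) (a i)) {i : ℕ} (hi : i ≤ k + 1) :
    amp k φ (mg i x) =
      if ∀ j ≤ k + 1, q j = p (j + 1) then E (p 0) (q (k + 2)) (φ (mg i a)) else 0 := by
  by_cases h : q i = p (i + 1)
  · rw [amp_E hφ (fun j => if j ≤ i then p j else p (j + 1))
      (fun j => if j < i then q j else q (j + 1)) (mg i a) (mg i x) fun j hj => by
        unfold mg
        split_ifs <;> first | omega | (subst_vars; simp (disch := omega) [hx, E_mul, h])]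
    refine if_congr ⟨fun h' j hj => ?_, fun h' j hj => ?_⟩ (by simp [hi.not_gt]) rfl
    · rcases lt_trichotomy j i with h1 | rfl | h1
      · simpa [h1, show j + 1 ≤ i by omega] using h' j (by omega)
      · exact h
      · obtain ⟨j, rfl⟩ : ∃ l, j = l + 1 := ⟨j - 1, by omega⟩
        simpa [show ¬j < i by omega, show ¬j + 1 ≤ i by omega] using h' j (by omega)
    · split_ifs <;> first | omega | exact h' _ (by omega)
  · rw [if_neg fun h' => h (h' i hi)]
    exact amp_zero hφ hi (by simp (disch := omega) [mg, hx, E_mul, h])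

lemma amp_dep (x x' : ℕ → CStarMatrix n n A) (e : ∀ i ≤ k + 1, x i = x' i) :
    amp k φ x = amp k φ x' := by
  have : ∀ J, ent k J x = ent k J x' := fun J => funext fun i => by
    unfold ent
    split_ifs
    · rw [e i (by omega)]
    · rfl
  simp only [amp, this]

lemma amp_left (hφ : Co k c φ) (y : ℕ → CStarMatrix n n A) :
    amp k φ (mg 0 y) - y 0 * amp k φ (fun j => y (j + 1)) = 0 := by
  refine ext_E (m := k + 2)
    (F := fun y => amp k φ (mg 0 y) - y 0 * amp k φ (fun j => y (j + 1))) ?_ ?_ y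
  · intro i hi a a' a'' e1 e2 e3
    have t1 := (amp_ad hφ).comp_mg (Nat.zero_le _) i hi a a' a'' e1 e2 e3
    simp only at t1 ⊢
    rw [t1]
    rcases i with _ | i
    · simp only [e1 _ (Nat.succ_ne_zero _), e2 _ (Nat.succ_ne_zero _), e3, add_mul]; abel
    · rw [amp_ad hφ i (by omega) (fun j => a (j + 1)) (fun j => a' (j + 1)) (fun j => a'' (j + 1))
        (fun j hj => e1 _ (by omega)) (fun j hj => e2 _ (by omega)) e3, e1 0 (by omega),
        e2 0 (by omega), mul_add]
      abel
  · intro p q a x hx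
    rw [amp_mg hφ p q a x hx (Nat.zero_le _), amp_E hφ (fun j => p (j + 1)) (fun j => q (j + 1))
      (fun j => a (j + 1)) _ fun i hi => hx _ (by omega), hx 0 (by omega),
      hφ.left (mg 0 a) (fun j => a (j + 1)) (a 0) (fun j hj => by simp [mg, hj]) (by simp [mg])]
    split_ifs with h1 h2 h2
    · simp [E_mul, h1 0 (by omega)]
    · exact absurd (fun i hi => h1 _ (by omega)) h2
    · rw [E_mul, if_neg, sub_zero]
      refine fun h => h1 fun j hj => ?_
      rcases j with _ | j
      exacts [h, h2 j (by omega)]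
    · simp

lemma amp_right (hφ : Co k c φ) (y : ℕ → CStarMatrix n n A) :
    amp k φ (mg (k + 1) y) - amp k φ y * y (k + 2) = 0 := by
  refine ext_E (m := k + 2)
    (F := fun y => amp k φ (mg (k + 1) y) - amp k φ y * y (k + 2)) ?_ ?_ y
  · intro i hi a a' a'' e1 e2 e3
    have t1 := (amp_ad hφ).comp_mg le_rfl i hi a a' a'' e1 e2 e3
    simp only at t1 ⊢
    rw [t1]
    rcases eq_or_lt_of_le hi with rfl | h
    · rw [amp_dep a' a fun j hj => e1 _ (by omega), amp_dep a'' a fun j hj => e2 _ (by omega), e3,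
        mul_add]
      abel
    · rw [amp_ad hφ i (by omega) a a' a'' e1 e2 e3, e1 (k + 2) (by omega), e2 (k + 2) (by omega),
        add_mul]
      abel
  · intro p q a x hx
    rw [amp_mg hφ p q a x hx le_rfl, amp_E hφ p q a x fun i hi => hx _ (by omega),
      hx (k + 2) le_rfl, hφ.dep (mg (k + 1) a) (Function.update a (k + 1) (a (k + 1) * a (k + 2)))
        (fun j hj => by
          rcases eq_or_lt_of_le hj with rfl | h
          · simp [mg]
          · simp [mg, h, h.ne]),
      hφ.right _ a (a (k + 2)) (fun j hj => by simp [hj]) (by simp)]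
    split_ifs with h1 h2 h2
    · simp [E_mul, h1 (k + 1) le_rfl]
    · exact absurd (fun i hi => h1 _ (by omega)) h2
    · rw [E_mul, if_neg, sub_zero]
      refine fun h => h1 fun j hj => ?_
      rcases eq_or_lt_of_le hj with rfl | h'
      exacts [h, h2 j (by omega)]
    · simp

lemma amp_co (hφ : Co k c φ) :
    Co k (∑ _J : Fin (k + 2) → n × n, c) (amp (n := n) k φ) where
  dep := amp_dep
  lin := amp_lin hφ
  left a a' b e1 e2 := by
    have := amp_left hφ (fun j => if j = 0 then b else a' (j - 1))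
    rw [sub_eq_zero] at this
    simp only [if_true, Nat.succ_ne_zero, if_false, Nat.add_sub_cancel] at this
    rw [← this]
    refine amp_dep _ _ fun i _ => ?_
    rcases i with _ | i
    · simp [mg, e2]
    · simp [mg, e1]
  right a a' b e1 e2 := by
    have := amp_right hφ (Function.update a' (k + 2) b)
    rw [sub_eq_zero, amp_dep (Function.update a' (k + 2) b) a'
      (fun i hi => Function.update_of_ne (by omega) _ _), Function.update_self] at this
    rw [← this]
    refine amp_dep _ _ fun i hi => ?_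
    rcases eq_or_lt_of_le hi with rfl | h
    · simp [mg, e2]
    · simp [mg, h, e1 i h.ne, show i ≠ k + 2 by omega]
  bd a ha := by
    refine norm_sum_le_of_le _ fun J _ => ?_
    split_ifs
    · refine (norm_E _ _ _).trans (hφ.bd _ fun i hi => ?_)
      simp only [ent, show i < k + 2 by omega, dif_pos]
      exact CStarMatrix.norm_entry_le_norm.trans (ha i hi)
    · simpa using hφ.nonneg

lemma amp_dd (hφ : Co k c φ) (hd : dd k φ = 0) : dd k (amp (n := n) k φ) = 0 := by
  ext1 y
  refine ext_E (m := k + 2) (F := dd k (amp k φ)) (fun i hi a a' a'' e1 e2 e3 => by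
    simpa using (amp_co hφ).dd.lin i hi a a' a'' 1 e1 e2 (by simpa using e3)) ?_ y
  intro p q a x hx
  unfold dd
  rw [sum_congr rfl fun i hi => by
    rw [amp_mg hφ p q a x hx (i := i) (by simpa [Nat.lt_succ_iff] using hi)]]
  split_ifs
  · let L : A →+ CStarMatrix n n A := AddMonoidHom.mk' (E (p 0) (q (k + 2))) (E_add _ _)
    have := congrArg L (congrFun hd a)
    simpa [dd, map_sum, L, E_smul, E_zero] using this
  · simp

end Amp

theorem exists_amp {k : ℕ} {c : ℝ} {φ : Fn A} (hφ : Co k c φ) (hd : dd k φ = 0) :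
    ∃ (c' : ℝ) (φ' : Fn (CStarMatrix n n A)), Co k c' φ' ∧ dd k φ' = 0 ∧
      ∀ (p q : ℕ → n) (a : ℕ → A), φ' (fun i => E (p i) (q i) (a i)) =
        if ∀ i ≤ k, q i = p (i + 1) then E (p 0) (q (k + 1)) (φ a) else 0 :=
  ⟨_, _, Amp.amp_co hφ, Amp.amp_dd hφ hd, fun p q a => Amp.amp_E hφ p q a _ fun _ _ => rfl⟩

/-- Entries of a matrix that no trace sees are seen by no trace. -/
theorem Null.entry {x : CStarMatrix n n A} (h : Null x) (p q : n) : Null (x p q) := by
  intro τ hτ
  have hs : ∀ {B : Type _} [CStarAlgebra B] [PartialOrder B] [StarOrderedRing B] (y : B),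
      0 ≤ y → ∃ b, y = star b * b := fun y hy => CStarAlgebra.nonneg_iff_eq_star_mul_self.1 hy
  let g : CStarMatrix n n A → ℝ := fun y => ∑ r, τ (y r r)
  have e : ∀ y : CStarMatrix n n A, g (star y * y) = ∑ r, ∑ s, τ (star (y s r) * y s r) :=
    fun y => by simp [g, CStarMatrix.mul_apply, CStarMatrix.star_apply]
  have hp : ∀ a : A, 0 ≤ τ (star a * a) := fun a => hτ.pos _ (star_mul_self_nonneg a)
  have g1 : ∀ y : CStarMatrix n n A, 0 ≤ y → 0 ≤ g y := fun y hy => by
    obtain ⟨b, hb⟩ := hs y hy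
    have : g y = g (star b * b) := congrArg g hb
    rw [this, e]
    exact sum_nonneg fun _ _ => sum_nonneg fun _ _ => hp _
  have g2 : ∀ y : CStarMatrix n n A, g (star y) = g y := fun y => by
    simp [g, CStarMatrix.star_apply, hτ.star]
  have g3 : ∀ y z : CStarMatrix n n A, g (y * z) = g (z * y) := fun y z => by
    simp only [g, CStarMatrix.mul_apply, map_sum]
    rw [sum_comm]
    exact sum_congr rfl fun _ _ => sum_congr rfl fun _ _ => hτ.comm _ _
  have g4 : ∀ y z : CStarMatrix n n A, g (y + z) = g y + g z := fun y z => by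
    simp [g, sum_add_distrib]
  have g5 : ∀ (r : ℝ) (y : CStarMatrix n n A), g ((r : ℂ) • y) = r • g y := fun r y => by
    simp only [g, smul_sum, CStarMatrix.smul_apply]
    exact sum_congr rfl fun i _ => by rw [Complex.coe_smul, map_smul]
  have : g (star x * x) = 0 := h ⟨⟨g, g4⟩, g5⟩ ⟨g1, g2, g3⟩
  rw [e, sum_eq_zero_iff_of_nonneg fun _ _ => sum_nonneg fun _ _ => hp _] at this
  exact (sum_eq_zero_iff_of_nonneg fun _ _ => hp _).1 (this q (mem_univ _)) p (mem_univ _)

end Vale.Agent.P082
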