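import Vale.Agent.P082.Bar
import Mathlib.Analysis.Normed.Module.Multilinear.Basic

/-! Job Conv: from the bar form to continuous multilinear maps. -/

namespace Vale.Agent.P082

open Finset

variable {A : Type*} [CStarAlgebra A]

namespace Conv

/-- The bar form of a function of `m` variables. -/
def bar {m : ℕ} (g : (Fin m → A) → A) : Fn A :=
  fun a => a 0 * g (fun j => a (j.1 + 1)) * a (m + 1)

lemma dd_bar {m : ℕ} (g : (Fin m → A) → A) (a : ℕ → A) (b : Fin (m + 1) → A)
    (hb : ∀ l, b l = a (l.1 + 1)) :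
    dd m (bar g) a = a 0 * (b 0 * g (Fin.tail b) +
      ∑ j : Fin m, (-1 : ℂ) ^ (j.val + 1) • g (Fin.contractNth j.castSucc (· * ·) b) +
      (-1 : ℂ) ^ (m + 1) • (g (Fin.init b) * b (Fin.last m))) * a (m + 2) := by
  unfold dd
  rw [sum_range_succ, sum_range_succ', ← Fin.sum_univ_eq_sum_range
    (fun i => (-1 : ℂ) ^ (i + 1) • bar g (mg (i + 1) a))]
  have e0 : bar g (mg 0 a) = a 0 * (b 0 * g (Fin.tail b)) * a (m + 2) := by
    have : (fun j : Fin m => mg 0 a (j.1 + 1)) = Fin.tail b := by
      ext j; simp [mg, Fin.tail, hb]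
    simp only [bar, this]
    simp [mg, hb, mul_assoc]
  have e1 : ∀ j : Fin m, bar g (mg (j.1 + 1) a) =
      a 0 * g (Fin.contractNth j.castSucc (· * ·) b) * a (m + 2) := by
    intro j
    have : (fun l : Fin m => mg (j.1 + 1) a (l.1 + 1)) =
        Fin.contractNth j.castSucc (· * ·) b := by
      ext l
      simp only [mg, Fin.contractNth, hb, Fin.val_castSucc, Fin.val_succ]
      split_ifs <;> first | rfl | omega | simp_all
    have h2 : mg (j.1 + 1) a (m + 1) = a (m + 2) := by
      have := j.2
      unfold mg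
      rw [if_neg (by omega), if_neg (by omega)]
    have h3 : mg (j.1 + 1) a 0 = a 0 := by simp [mg]
    simp only [bar, this, h2, h3]
  have e2 : bar g (mg (m + 1) a) = a 0 * (g (Fin.init b) * b (Fin.last m)) * a (m + 2) := by
    have : (fun j : Fin m => mg (m + 1) a (j.1 + 1)) = Fin.init b := by
      ext j; simp [mg, Fin.init, hb]
    simp only [bar, this]
    simp [mg, hb, mul_assoc]
  simp only [e0, e1, e2, mul_add, add_mul, mul_sum, sum_mul, mul_smul_comm, smul_mul_assoc,
    pow_zero, one_smul]
  abel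

lemma bar_co {m : ℕ} (f : ContinuousMultilinearMap ℂ (fun _ : Fin m => A) A) :
    Co m ‖f‖ (bar f) where
  dep a a' e := by
    have : (fun j : Fin m => a (j.1 + 1)) = fun j => a' (j.1 + 1) :=
      funext fun j => e _ (by have := j.2; omega)
    simp only [bar, this, e 0 (by omega), e (m + 1) le_rfl]
  lin i hi a a' a'' c e1 e2 e3 := by
    rcases Nat.eq_zero_or_pos i with rfl | h0
    · simp [bar, e1, e2, e3, add_mul]
    rcases eq_or_lt_of_le hi with rfl | h1
    · have t1 : (fun j : Fin m => a' (j.1 + 1)) = fun j => a (j.1 + 1) :=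
        funext fun j => e1 _ (by have := j.2; omega)
      have t2 : (fun j : Fin m => a'' (j.1 + 1)) = fun j => a (j.1 + 1) :=
        funext fun j => e2 _ (by have := j.2; omega)
      simp [bar, t1, t2, e1 0 (by omega), e2 0 (by omega), e3, mul_add]
    · let j0 : Fin m := ⟨i - 1, by omega⟩
      have hj : j0.1 + 1 = i := by simp only [j0]; omega
      have t : ∀ a' : ℕ → A, (∀ j ≠ i, a' j = a j) → (fun j : Fin m => a' (j.1 + 1)) =
          Function.update (fun j : Fin m => a (j.1 + 1)) j0 (a' i) := by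
        intro a' e
        ext j
        by_cases h : j = j0
        · subst h; simp [hj]
        · rw [Function.update_of_ne h]
          exact e _ fun h' => h (Fin.ext (by omega))
      simp only [bar]
      rw [t a fun _ _ => rfl, t a' e1, t a'' e2, e3, f.map_update_add, f.map_update_smul,
        e1 0 (by omega), e2 0 (by omega), e1 (m + 1) (by omega), e2 (m + 1) (by omega)]
      simp [mul_add, add_mul]
  left a a' b e1 e2 := by simp [bar, e1, e2, mul_assoc]
  right a a' b e1 e2 := by
    have t1 : (fun j : Fin m => a' (j.1 + 1)) = fun j => a (j.1 + 1) :=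
      funext fun j => e1 _ (by have := j.2; omega)
    simp [bar, t1, e1 0 (by omega), e2, mul_assoc]
  bd a ha := by
    have : ‖f fun j : Fin m => a (j.1 + 1)‖ ≤ ‖f‖ :=
      f.unit_le_opNorm (by
        rw [pi_norm_le_iff_of_nonneg zero_le_one]
        exact fun j => ha _ (by have := j.2; omega))
    simpa [bar] using norm_mul_le_of_le (norm_mul_le_of_le (ha 0 (by omega)) this) (ha (m + 1) le_rfl)

/-- Pad a tuple with ones. -/
def pad {m : ℕ} (v : Fin m → A) : ℕ → A :=
  fun i => if h : 1 ≤ i ∧ i ≤ m then v ⟨i - 1, by omega⟩ else 1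

lemma pad_update {m : ℕ} (v : Fin m → A) (j : Fin m) (x : A) :
    pad (Function.update v j x) = Function.update (pad v) (j.1 + 1) x := by
  ext i
  by_cases h : i = j.1 + 1
  · subst h
    have := j.2
    simp [pad, show j.1 + 1 ≤ m by omega]
  · rw [Function.update_of_ne h]
    unfold pad
    split_ifs with h'
    · rw [Function.update_of_ne fun e => h (by have := congrArg Fin.val e; simp at this; omega)]
    · rfl

lemma exists_ml {m : ℕ} {c : ℝ} {G : Fn A} (hG : Co m c G) :
    ∃ g : ContinuousMultilinearMap ℂ (fun _ : Fin m => A) A, G = bar g := by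
  let g0 : MultilinearMap ℂ (fun _ : Fin m => A) A := .mk' (fun v => G (pad v))
    (fun v j x y => by
      simp only [pad_update]; exact hG.upd_add _ (by have := j.2; omega) x y)
    (fun v j c x => by
      simp only [pad_update]; exact hG.upd_smul _ (by have := j.2; omega) c x)
  have hb : ∀ v, ‖g0 v‖ ≤ c * ∏ i, ‖v i‖ := by
    intro v
    refine (hG.norm_le (pad v)).trans (mul_le_mul_of_nonneg_left ?_ hG.nonneg)
    rw [prod_range_succ, prod_range_succ', ← Fin.prod_univ_eq_prod_range
      (fun i => ‖pad v (i + 1)‖)]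
    have e : ∀ j : Fin m, pad v (j.1 + 1) = v j := fun j => by
      have := j.2
      simp [pad, show j.1 + 1 ≤ m by omega]
    have e0 : ‖pad v 0‖ ≤ 1 := by simpa [pad] using norm_one_le
    have e1 : ‖pad v (m + 1)‖ ≤ 1 := by simpa [pad] using norm_one_le
    simp only [e]
    have : 0 ≤ ∏ i, ‖v i‖ := by positivity
    calc _ ≤ (∏ i, ‖v i‖) * 1 * 1 := by gcongr
      _ = _ := by ring
  refine ⟨g0.mkContinuous c hb, funext fun a => ?_⟩
  show G a = a 0 * G (pad fun j : Fin m => a (j.1 + 1)) * a (m + 1)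
  rw [hG.right a (Function.update a (m + 1) 1) (a (m + 1)) (by simp +contextual) (by simp),
    hG.left (Function.update a (m + 1) 1) (Function.update (Function.update a (m + 1) 1) 0 1)
      (a 0) (by simp +contextual) (by simp)]
  congr 2
  refine hG.dep _ _ fun i hi => ?_
  unfold pad
  split_ifs with h
  · rw [Function.update_of_ne (by omega), Function.update_of_ne (by omega)]
    congr 1
    simp only
    omega
  · by_cases h0 : i = 0
    · simp [h0]
    · obtain rfl : i = m + 1 := by omega
      simp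

end Conv

theorem conv {n : ℕ}
    (h : ∀ (c : ℝ) (φ : Fn A), Co (n + 1) c φ → dd (n + 1) φ = 0 → ∃ c' G, Co n c' G ∧ dd n G = φ)
    (f : ContinuousMultilinearMap ℂ (fun _ : Fin (n + 1) => A) A)
    (hf : ∀ a : Fin (n + 2) → A, a 0 * f (Fin.tail a) +
      ∑ j : Fin (n + 1), (-1 : ℂ) ^ (j.val + 1) • f (Fin.contractNth j.castSucc (· * ·) a) +
      (-1 : ℂ) ^ (n + 2) • (f (Fin.init a) * a (Fin.last (n + 1))) = 0) :
    ∃ g : ContinuousMultilinearMap ℂ (fun _ : Fin n => A) A, ∀ a : Fin (n + 1) → A,
      f a = a 0 * g (Fin.tail a) +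
        ∑ j : Fin n, (-1 : ℂ) ^ (j.val + 1) • g (Fin.contractNth j.castSucc (· * ·) a) +
        (-1 : ℂ) ^ (n + 1) • (g (Fin.init a) * a (Fin.last n)) := by
  obtain ⟨c', G, hG, hd⟩ := h _ _ (Conv.bar_co f) (funext fun a => by
    have := hf (fun l => a (l.1 + 1))
    rw [Conv.dd_bar f a (fun l => a (l.1 + 1)) fun _ => rfl]
    erw [this]; simp)
  obtain ⟨g, rfl⟩ := Conv.exists_ml hG
  refine ⟨g, fun a => ?_⟩
  have e : ∀ l : Fin (n + 1), a l = Conv.pad a (l.1 + 1) := fun l => by
    have := l.2
    simp [Conv.pad, show l.1 ≤ n by omega]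
  have := congrFun hd (Conv.pad a)
  rw [Conv.dd_bar g _ a e] at this
  simp only [Conv.bar, ← e] at this
  simpa [Conv.pad] using this.symm

end Vale.Agent.P082
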