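import Vale.Agent.P082.EM
import Mathlib.Algebra.MvPolynomial.Funext
import Mathlib.Algebra.MvPolynomial.Eval

/-! Extraction of the multilinear coefficient. -/

namespace Vale.Agent.P082

open Finset

lemma coeff_extract {V ι σ : Type*} [AddCommGroup V] [Module ℂ V] [Fintype ι] [Fintype σ]
    [DecidableEq σ] (c : ι → V) (m : ι → σ → ℕ) (h : ∀ t : σ → ℂ, ∑ i, (∏ j, t j ^ m i j) • c i = 0)
    (μ : σ → ℕ) : ∑ i with m i = μ, c i = 0 := by
  refine (Module.forall_dual_apply_eq_zero_iff ℂ _).1 fun f => ?_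
  have h1 : ∑ i, MvPolynomial.monomial (Finsupp.equivFunOnFinite.symm (m i)) (f (c i)) = 0 :=
    MvPolynomial.funext fun t => by
      simpa [MvPolynomial.eval_monomial, Finsupp.prod_fintype, mul_comm] using congrArg f (h t)
  simpa [MvPolynomial.coeff_sum, MvPolynomial.coeff_monomial, sum_filter, apply_ite f] using
    congrArg (MvPolynomial.coeff (Finsupp.equivFunOnFinite.symm μ)) h1

lemma pr_succ' {A : Type*} [Monoid A] (a : ℕ → A) (n : ℕ) :
    pr a (n + 1) = a 0 * pr (fun i => a (i + 1)) n := by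
  induction n with
  | zero => simp [pr]
  | succ n ih => rw [pr, ih, pr, mul_assoc]

variable {A : Type*} [CStarAlgebra A] [PartialOrder A] [StarOrderedRing A] {k : ℕ}

/-- The product of the slots after p up to q. -/
def iv (a : ℕ → A) (p q : ℕ) : A := pr (fun i => a (p + 1 + i)) (q - p)

/-- Coefficients of the alternating tuple. -/
def cf (k s p q : ℕ) : ℂ :=
  if s = 0 then (if p = 0 ∧ q = 0 then 1 else 0) else if s = k + 1 then
    (if p = k ∧ q = k then 1 else 0) else if Odd s then (if q = p ∨ q = p + 1 then 1 else 0)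
  else if p ≤ q then (-1) ^ (q - p) else 0

/-- The two triangular matrices. -/
def tri (k s : ℕ) (a : ℕ → A) : CStarMatrix (Fin (k + 1)) (Fin (k + 1)) A :=
  CStarMatrix.ofMatrix (Matrix.of fun p q => cf (s + 1) s p q • iv a p q)

/-- Entries of the elementary tuples. -/
def ent (k : ℕ) (a : ℕ → A) (s p q : ℕ) : A :=
  if s = 0 then a 0 else if s = k + 1 then a (k + 1) else iv a p q

omit [PartialOrder A] [StarOrderedRing A] in
lemma iv_smul (t : ℕ → ℂ) (a : ℕ → A) (p q : ℕ) :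
    iv (fun i => t i • a i) p q = (∏ j ∈ Ioc p q, t j) • iv a p q := by
  have : ∀ n, pr (fun i => t (p + 1 + i) • a (p + 1 + i)) n =
      (∏ j ∈ range n, t (p + 1 + j)) • pr (fun i => a (p + 1 + i)) n := fun n => by
    induction n with
    | zero => simp [pr]
    | succ n ih => simp [pr, ih, prod_range_succ, smul_smul, mul_comm]
  rw [iv, this, ← Finset.Ico_add_one_add_one_eq_Ioc, prod_Ico_eq_prod_range, Nat.add_sub_add_right, iv]

lemma tri_apply_one (a : ℕ → A) (p q : Fin (k + 1)) :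
    tri k 1 a p q = (if p = q then 1 else 0) + if q.1 = p + 1 then a q else 0 := by
  change cf 2 1 p q • iv a p q = _
  simp only [cf, Fin.ext_iff]
  split_ifs <;> first | omega | simp_all [iv, pr]

lemma tri_apply_two (a : ℕ → A) (p q : Fin (k + 1)) :
    tri k 2 a p q = if p.1 ≤ q then (-1 : ℂ) ^ (q.1 - p) • iv a p q else 0 := by
  change cf 3 2 p q • iv a p q = _
  simp [cf, ite_smul, Nat.odd_iff]

lemma tri_mul (a : ℕ → A) : tri k 1 a * tri k 2 a = 1 := by
  ext p q
  simp only [CStarMatrix.mul_apply, tri_apply_one, add_mul, sum_add_distrib, ite_mul, one_mul,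
    zero_mul, sum_ite_eq, mem_univ, if_true, CStarMatrix.one_apply, tri_apply_two]
  by_cases h : p.1 < q
  · rw [sum_eq_single ⟨p + 1, by omega⟩ (fun r _ hr => if_neg fun e => hr (Fin.ext e)) (by simp)]
    obtain ⟨n, hn⟩ := Nat.exists_eq_add_of_lt h
    simp [h.le, Nat.succ_le_of_lt h, Fin.ext_iff, h.ne, iv, show q.1 - p = n + 1 by omega,
      show q.1 - (p + 1) = n by omega, pr_succ', pow_succ, add_assoc, add_comm 1,
      add_comm 2]
  · rw [sum_eq_zero fun r _ => by split_ifs <;> first | omega | simp]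
    simp only [Fin.ext_iff]
    split_ifs <;> first | omega | simp [*, iv, pr]

lemma tri_mul' (a : ℕ → A) : tri k 2 a * tri k 1 a = 1 := by
  ext p q
  simp only [CStarMatrix.mul_apply, tri_apply_one, mul_add, sum_add_distrib, mul_ite, mul_one,
    mul_zero, sum_ite_eq', mem_univ, if_true, CStarMatrix.one_apply, tri_apply_two]
  by_cases h : p.1 < q
  · rw [sum_eq_single ⟨q - 1, by omega⟩ (fun r _ hr => if_neg fun e => hr (Fin.ext (by
      simp; omega))) (by simp)]
    obtain ⟨n, hn⟩ := Nat.exists_eq_add_of_lt h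
    simp [Fin.ext_iff, iv, hn, pr, pow_succ, add_assoc, add_comm 1 n]
  · rw [sum_eq_zero fun r _ => by split_ifs <;> first | omega | simp]
    simp only [Fin.ext_iff]
    split_ifs <;> first | omega | simp [*, iv, pr]

/-- Elementary tuples. -/
def Z (p q : ℕ → Fin (k + 1)) (a : ℕ → A) : ℕ → CStarMatrix (Fin (k + 1)) (Fin (k + 1)) A :=
  fun s => E (p s) (q s) (ent k a s (p s) (q s))

/-- Extension of index choices. -/
def xt (I : Fin (k + 2) → Fin (k + 1) × Fin (k + 1)) (s : ℕ) : Fin (k + 1) × Fin (k + 1) :=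
  if h : s < k + 2 then I ⟨s, h⟩ else 0

/-- Multiplicities. -/
def mlt (I : Fin (k + 2) → Fin (k + 1) × Fin (k + 1)) (j : Fin (k + 1)) : ℕ :=
  #{s | (I s).1 < j ∧ j ≤ (I s).2}

lemma expand {C : ℝ} {Ψ : Fn (CStarMatrix (Fin (k + 1)) (Fin (k + 1)) A)} (h : Co k C Ψ)
    (a : ℕ → A) (t : Fin (k + 1) → ℂ) :
    let b := fun i => (if h : i < k + 1 then t ⟨i, h⟩ else 0) • a i
    E 0 0 (a 0) * Ψ (alt k (tri k 1 b) (tri k 2 b)) * E (Fin.last k) (Fin.last k) (a (k + 1)) =
      ∑ I, (∏ j, t j ^ mlt I j) • (∏ s, cf k s.1 (I s).1 (I s).2) •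
        Ψ (Z (fun s => (xt I s).1) (fun s => (xt I s).2) a) := by
  intro b
  let y : ℕ → Fin (k + 1) × Fin (k + 1) → CStarMatrix (Fin (k + 1)) (Fin (k + 1)) A := fun s P =>
    ((∏ j ∈ Ioc P.1 P.2, t j) * cf k s P.1 P.2) • E P.1 P.2 (ent k a s P.1 P.2)
  have e0 : ∑ P, y 0 P = E 0 0 (a 0) := by
    rw [sum_eq_single 0 (fun P _ hP => by
      simp only [Ne, Prod.ext_iff, Fin.ext_iff] at hP
      simp_all [y, cf]) (by simp)]
    simp [y, cf, ent]
  have e1 : ∑ P, y (k + 1) P = E (Fin.last k) (Fin.last k) (a (k + 1)) := by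
    rw [sum_eq_single (Fin.last k, Fin.last k) (fun P _ hP => by
      simp only [Ne, Prod.ext_iff, Fin.ext_iff] at hP
      simp_all [y, cf]) (by simp)]
    simp [y, cf, ent]
  have e2 : ∀ s, s ≠ 0 → s ≤ k → ∑ P, y s P = alt k (tri k 1 b) (tri k 2 b) s := fun s h0 hs => by
    rw [← sum_E (alt _ _ _ s)]
    refine sum_congr rfl fun P _ => ?_
    have : ∏ j ∈ Ioc P.1.1 P.2.1, (if h : j < k + 1 then t ⟨j, h⟩ else 0) = ∏ j ∈ Ioc P.1 P.2, t j := by
      rw [← Fin.map_valEmbedding_Ioc, prod_map]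
      simp [Fin.is_le]
    simp only [y, alt, ent, if_neg h0, ← E_smul, if_neg (by omega : ¬(s = 0 ∨ k < s)),
      if_neg (by omega : s ≠ k + 1)]
    congr 1
    have hb : iv b P.1 P.2 = _ := this ▸ iv_smul _ a P.1 P.2
    have hk : s ≠ k + 1 := by omega
    split_ifs with ho <;> simp [tri, hb, smul_smul, mul_comm, cf, h0, ho, hk]
  rw [← h.left (Function.update (alt k (tri k 1 b) (tri k 2 b)) 0 (E 0 0 (a 0))) _ _
    (by simp +contextual) (by simp [alt]), ← h.right (fun s => if s ≤ k + 1 then ∑ P, y s P else 1)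
      _ _ (fun s hs => ?_) (by simp [e1, alt]),
    h.dep _ (fun s => ∑ P, y s P) fun s hs => if_pos hs, h.map_sum]
  · refine sum_congr rfl fun I _ => ?_
    rw [h.dep _ (fun s => ((∏ j ∈ Ioc (xt I s).1 (xt I s).2, t j) * cf k s (xt I s).1 (xt I s).2) •
      Z (fun s => (xt I s).1) (fun s => (xt I s).2) a s) fun s hs => by
        simp [xt, Z, y, Nat.lt_succ_of_le hs], h.map_smul, smul_smul, prod_mul_distrib,
      prod_range, prod_range]
    congr 2
    · simp only [xt, Fin.is_lt, dif_pos, mlt, ← prod_const, prod_filter]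
      rw [prod_comm]
      exact prod_congr rfl fun s _ => by rw [← prod_filter]; congr 1; ext; simp
    · simp [xt]
  · rcases eq_or_ne s 0 with rfl | h0
    · simp [e0]
    · by_cases h1 : s ≤ k
      · simp [h0, e2 s h0 h1, Nat.le_succ_of_le h1]
      · simp (disch := omega) [h0, if_neg, alt, if_pos]

/-- Index choices whose intervals partition `[1, k]`. -/
structure Good (p q : ℕ → Fin (k + 1)) : Prop where
  p0 : (p 0).1 = 0
  q0 : (q 0).1 = 0
  pk : (p (k + 1)).1 = k
  qk : (q (k + 1)).1 = k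
  uniq : ∀ s ≤ k + 1, ∀ s' ≤ k + 1, ∀ j : ℕ, p s < j → j ≤ q s → p s' < j → j ≤ q s' → s = s'
  cov : ∀ j, 1 ≤ j → j ≤ k → ∃ s ≤ k + 1, p s < j ∧ j ≤ q s

lemma good_of {I : Fin (k + 2) → Fin (k + 1) × Fin (k + 1)}
    (h1 : mlt I = fun j => if j = 0 then 0 else 1) (h2 : ∏ s, cf k s.1 (I s).1 (I s).2 ≠ 0) :
    Good (fun s => (xt I s).1) (fun s => (xt I s).2) := by
  have h3 := prod_ne_zero_iff.1 h2 0 (mem_univ _)
  have h4 := prod_ne_zero_iff.1 h2 (Fin.last _) (mem_univ _)
  simp [cf] at h3 h4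
  have h5 : ∀ j : Fin (k + 1), j ≠ 0 → ∃ s, ∀ s', (I s').1 < j ∧ j ≤ (I s').2 ↔ s' = s :=
    fun j hj => by simpa [hj, mlt, card_eq_one, Finset.ext_iff] using congrFun h1 j
  refine ⟨by simp [xt, h3], by simp [xt, h3], by simpa [xt] using! h4.1, by simpa [xt] using! h4.2,
    fun s hs s' hs' j e1 e2 e3 e4 => ?_, fun j e1 e2 => ?_⟩
  · simp only [xt, Nat.lt_succ_of_le hs, Nat.lt_succ_of_le hs', dif_pos] at e1 e2 e3 e4
    obtain ⟨r, hr⟩ := h5 ⟨j, by omega⟩ (by simp [Fin.ext_iff]; omega)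
    exact congrArg Fin.val (((hr _).1 ⟨e1, e2⟩).trans ((hr _).1 ⟨e3, e4⟩).symm)
  · obtain ⟨r, hr⟩ := h5 ⟨j, by omega⟩ (by simp [Fin.ext_iff]; omega)
    exact ⟨r, by omega, by simpa [xt] using! (hr r).2 rfl⟩

variable {p q : ℕ → Fin (k + 1)} {C : ℝ} {Ψ : Fn (CStarMatrix (Fin (k + 1)) (Fin (k + 1)) A)}

lemma Good.bal_long (h : Good p q) (hΨ : Co k C Ψ) {s : ℕ} (hs : s ≤ k + 1)
    (hl : (p s).1 + 2 ≤ q s) : Bal (p s + 1) fun a => Ψ (Z p q a) 0 (Fin.last k) := by
  intro a a' e1 e2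
  refine congrFun₂ (hΨ.dep _ _ fun r hr => congrArg (E _ _) ?_) _ _
  have := (q s).2
  unfold ent
  split_ifs with h1 h2
  · exact e1 _ (by omega) (by omega)
  · exact e1 _ (by omega) (by omega)
  · rcases eq_or_ne r s with rfl | h3
    · rw [iv, iv, show (q r).1 - p r = (q r).1 - p r - 1 + 1 by omega]
      exact pr_bal (i := 0) (by omega) _ _ (fun j _ _ => e1 _ (by omega) (by omega)) e2
    · refine pr_congr fun i hi => e1 _ (fun e => h3 ?_) fun e => h3 ?_
      · exact h.uniq r hr s hs (p s + 1) (by omega) (by omega) (by omega) (by omega)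
      · exact h.uniq r hr s hs (p s + 2) (by omega) (by omega) (by omega) (by omega)

lemma Good.short (h : Good p q) (hs : ∀ s ≤ k + 1, (q s).1 ≤ p s + 1) {s : ℕ} (h1 : 1 ≤ s)
    (h2 : s ≤ k) : (q s).1 = p s + 1 := by
  choose! σ e1 e2 e3 using h.cov
  obtain ⟨j, hj, rfl⟩ := Finset.surjOn_of_injOn_of_card_le (s := Icc 1 k) (t := Icc 1 k) σ
    (fun j hj => by
      simp only [coe_Icc, Set.mem_Icc] at hj ⊢
      have f1 := e1 j hj.1 hj.2; have f2 := e2 j hj.1 hj.2; have f3 := e3 j hj.1 hj.2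
      constructor <;> by_contra! h0
      · rw [show σ j = 0 by omega, h.q0] at f3; omega
      · rw [show σ j = k + 1 by omega, h.pk] at f2; omega)
    (fun j hj j' hj' e => by
      simp only [coe_Icc, Set.mem_Icc] at hj hj'
      have := e2 j hj.1 hj.2; have := e3 j hj.1 hj.2; have := hs _ (e1 j hj.1 hj.2)
      have := e2 j' hj'.1 hj'.2; have := e3 j' hj'.1 hj'.2
      rw [← e] at *; omega) le_rfl (by simpa using ⟨h1, h2⟩ : s ∈ (Icc 1 k : Set ℕ))
  simp only [coe_Icc, Set.mem_Icc] at hj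
  have := e2 j hj.1 hj.2; have := e3 j hj.1 hj.2; have := hs _ (e1 j hj.1 hj.2)
  omega

/-- The slot of the original tuple used in slot `s`. -/
def rho (q : ℕ → Fin (k + 1)) (s : ℕ) : ℕ := if s = k + 1 then k + 1 else q s

section short

variable (h : Good p q) (hs : ∀ s, 1 ≤ s → s ≤ k → (q s).1 = p s + 1)
include h hs

lemma Good.Z_eq (hΨ : Co k C Ψ) (a : ℕ → A) :
    Ψ (Z p q a) = Ψ fun s => if s ≤ k + 1 then E (p s) (q s) (a (rho q s)) else 0 := by
  refine hΨ.dep _ _ fun s h1 => ?_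
  rw [if_pos h1]
  refine congrArg (E _ _) ?_
  unfold ent rho
  split_ifs with h2 h3 h3
  · omega
  · rw [h2, h.q0]
  · rfl
  · simp [iv, hs s (by omega) (by omega), pr]

lemma Good.rho_inj {s s' : ℕ} (h1 : s ≤ k + 1) (h2 : s' ≤ k + 1) (e : rho q s = rho q s') :
    s = s' := by
  have := (q s).2; have := (q s').2; have := h.q0
  unfold rho at e
  split_ifs at e <;> try omega
  rcases Nat.eq_zero_or_pos s with rfl | h3 <;> rcases Nat.eq_zero_or_pos s' with rfl | h4
  · rfl
  · have := hs s' h4 (by omega); omega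
  · have := hs s h3 (by omega); omega
  · have := hs s' h4 (by omega); have := hs s h3 (by omega)
    exact h.uniq s h1 s' h2 (q s) (by omega) le_rfl (by omega) (by omega)

lemma Good.rho_surj {j : ℕ} (hj : j ≤ k + 1) : ∃ s ≤ k + 1, rho q s = j := by
  obtain rfl | h1 := Nat.eq_zero_or_pos j
  · exact ⟨0, by omega, by simp [rho, h.q0]⟩
  obtain rfl | h2 := hj.eq_or_lt
  · exact ⟨k + 1, le_rfl, by simp [rho]⟩
  obtain ⟨s, e1, e2, e3⟩ := h.cov j h1 (by omega)
  have e4 : s ≠ k + 1 := by rintro rfl; have := h.pk; omega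
  have := hs s (Nat.pos_of_ne_zero (by rintro rfl; have := h.q0; omega)) (by omega)
  exact ⟨s, e1, by simp only [rho, if_neg e4]; omega⟩

lemma Good.co (hΨ : Co k C Ψ) : Co k C fun a => Ψ (Z p q a) 0 (Fin.last k) := by
  have e0 : rho q 0 = 0 := by simp [rho, h.q0]
  have e1 : rho q (k + 1) = k + 1 := by simp [rho]
  have e2 : ∀ s, rho q s ≤ k + 1 := fun s => by unfold rho; split_ifs <;> omega
  have e3 : ∀ s ≤ k + 1, ∀ a a' : ℕ → A, (∀ j ≠ rho q s, a' j = a j) → ∀ r ≠ s,
      (if r ≤ k + 1 then E (p r) (q r) (a' (rho q r)) else 0) =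
        if r ≤ k + 1 then E (p r) (q r) (a (rho q r)) else 0 := fun s h1 a a' e r hr => by
    split_ifs with h2
    exacts [by rw [e _ fun e => hr (h.rho_inj hs h2 h1 e)], rfl]
  simp only [h.Z_eq hs hΨ]
  refine ⟨fun a a' e => by simp only [e _ (e2 _)], fun j hj a a' a'' c f1 f2 f3 => ?_,
    fun a a' b f1 f2 => ?_, fun a a' b f1 f2 => ?_, fun a ha =>
    CStarMatrix.norm_entry_le_norm.trans (hΨ.bd _ fun s h1 => ?_)⟩
  · obtain ⟨s, h1, rfl⟩ := h.rho_surj hs hj
    rw [hΨ.lin s h1 _ _ _ c (e3 s h1 a a' f1) (e3 s h1 a a'' f2) (by simp [h1, f3, E_add, E_smul])]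
    rfl
  · rw [hΨ.left _ _ (E 0 0 b) (e3 0 (by omega) a a' (e0.symm ▸ f1)) (by
      simp [e0, f2, E_mul_E, show p 0 = 0 from Fin.ext h.p0]), E_mul_apply, if_pos rfl]
  · rw [hΨ.right _ _ (E (Fin.last k) (Fin.last k) b) (e3 _ le_rfl a a' (e1.symm ▸ f1)) (by
      simp [e1, f2, E_mul_E, show q (k + 1) = Fin.last k from Fin.ext h.qk]), mul_E_apply, if_pos rfl]
  · rw [if_pos h1]
    exact (norm_E_le _ _ _).trans (ha _ (e2 _))

lemma Good.bal (hΨ : Co k C Ψ) {i : ℕ} (hi : i ≤ k) (hb : Bal i Ψ) :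
    Bal (q i) fun a => Ψ (Z p q a) 0 (Fin.last k) := by
  have e1 : rho q i = q i := if_neg (by omega)
  intro a a' f1 f2
  simp only [h.Z_eq hs hΨ]
  refine congrArg (fun x : CStarMatrix (Fin (k + 1)) (Fin (k + 1)) A => x 0 (Fin.last k)) ?_
  by_cases e : q i = p (i + 1)
  · have e2 : rho q (i + 1) = q i + 1 := by
      unfold rho
      split_ifs with h1
      · rw [e, h1, h.pk]
      · rw [hs _ (by omega) (by omega), e]
    refine hb _ _ (fun s h1 h2 => ?_) (by
      simp (disch := omega) only [if_pos, E_mul_E, e, e1, e2]; rw [← e, f2])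
    split_ifs with h3
    exacts [by rw [f1 _ (fun e => h1 (h.rho_inj hs h3 (by omega) (e.trans e1.symm)))
      fun e => h2 (h.rho_inj hs h3 (by omega) (e.trans e2.symm))], rfl]
  · have : ∀ a : ℕ → A, (Ψ fun s => if s ≤ k + 1 then E (p s) (q s) (a (rho q s)) else 0) = 0 :=
      fun a => (hb _ (Function.update _ i 0) (fun j h _ => (Function.update_of_ne h _ _).symm) (by
        simp (disch := omega) [if_pos, E_mul_E, e])).trans (hΨ.slot_zero (i := i) (by omega) (by simp))
    rw [this, this]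

lemma Good.chain (hc : ∀ i ≤ k, q i = p (i + 1)) {s : ℕ} (h1 : s ≤ k) : (q s).1 = s := by
  induction s with
  | zero => exact h.q0
  | succ s ih => rw [hs _ (by omega) h1, ← hc s (by omega), ih (by omega)]

end short

/-- The diagonal index choice. -/
def I0 (k : ℕ) (s : Fin (k + 2)) : Fin (k + 1) × Fin (k + 1) :=
  (⟨s - 1, by omega⟩, ⟨min s k, by omega⟩)

lemma mlt_I0 : mlt (I0 k) = fun j => if j = 0 then 0 else 1 := by
  ext j
  split_ifs with h
  · simp [h, mlt]
  · refine card_eq_one.2 ⟨j.castSucc, Finset.ext fun s => ?_⟩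
    simp only [Fin.ext_iff, Fin.val_zero] at h
    simp only [I0, mem_filter, mem_univ, true_and, mem_singleton, Fin.lt_def, Fin.le_def,
      Fin.ext_iff, Fin.val_castSucc]
    omega

lemma cf_I0 : ∏ s, cf k s.1 (I0 k s).1 (I0 k s).2 ≠ 0 := prod_ne_zero_iff.2 fun s _ => by
  simp only [cf, I0]
  split_ifs <;> first | omega | simp [*]

omit [PartialOrder A] [StarOrderedRing A] in
lemma DD_smul {m : ℕ} {F : Fn A} (h : F ∈ DD m k) (c : ℂ) : c • F ∈ DD m k := by
  induction h using AddSubgroup.closure_induction with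
  | mem F hF => exact hF.elim fun i h => (h.2.2.map (c • ·)).mem_DD h.1 h.2.1
  | zero => simp
  | add F G _ _ h1 h2 => exact smul_add c F G ▸ add_mem h1 h2
  | neg F _ h1 => exact (smul_neg c F).symm ▸ neg_mem h1

theorem extract {k : ℕ} {c c' C : ℝ} {φ : Fn A} (hφ : Co k c φ)
    {φ' G : Fn (CStarMatrix (Fin (k + 1)) (Fin (k + 1)) A)} (hφ' : Co k c' φ')
    (hE : ∀ (p q : ℕ → Fin (k + 1)) (a : ℕ → A), φ' (fun i => E (p i) (q i) (a i)) =
        if ∀ i ≤ k, q i = p (i + 1) then E (p 0) (q (k + 1)) (φ a) else 0)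
    (hG : Fc k C G) (h : ∀ g g', g * g' = 1 → g' * g = 1 → φ' (alt k g g') = G (alt k g g')) :
    ∃ c0 F0, Co k c0 F0 ∧ Bal 0 F0 ∧ φ - F0 ∈ DD 1 k := by
  classical
  obtain ⟨G, hG, rfl⟩ := hG
  let S := univ.filter fun I : Fin (k + 2) → Fin (k + 1) × Fin (k + 1) =>
    mlt I = fun j => if j = 0 then 0 else 1
  let γ := fun I : Fin (k + 2) → Fin (k + 1) × Fin (k + 1) => ∏ s, cf k s.1 (I s).1 (I s).2
  let T := fun (Ψ : Fn (CStarMatrix (Fin (k + 1)) (Fin (k + 1)) A)) I (a : ℕ → A) =>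
    Ψ (Z (fun s => (xt I s).1) (fun s => (xt I s).2) a) 0 (Fin.last k)
  let sh := fun I : Fin (k + 2) → Fin (k + 1) × Fin (k + 1) =>
    γ I ≠ 0 ∧ ∀ s ≤ k + 1, ((xt I s).2).1 ≤ (xt I s).1 + 1
  have h1 : ∑ I ∈ S, γ I • T φ' I = ∑ I ∈ S, ∑ i ∈ range (k + 1), γ I • T (G i) I := by
    ext a
    have := coeff_extract (fun I => γ I • T φ' I a - ∑ i ∈ range (k + 1), γ I • T (G i) I a) mlt
      (fun t => by
        have e1 := expand hφ' a t
        have e2 := sum_congr rfl fun i (hi : i ∈ range (k + 1)) =>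
          expand (hG i (by simpa [Nat.lt_succ_iff] using hi)).1 a t
        simp only at e1 e2
        rw [← sum_mul, ← mul_sum, ← Finset.sum_apply, ← h _ _ (tri_mul _) (tri_mul' _), e1,
          sum_comm] at e2
        simpa [sum_entry, smul_sub, smul_sum, sub_eq_zero] using congrFun₂ e2 0 (Fin.last k))
      fun j => if j = 0 then 0 else 1
    simpa [sub_eq_zero] using this
  have h2 : ∀ {C Ψ}, Co k C Ψ → ∀ I ∈ S, ¬sh I → γ I • T Ψ I ∈ DD 1 k := fun hΨ I hI hs => by
    by_cases h0 : γ I = 0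
    · simp [h0]
    · simp only [sh, not_and, not_forall, not_le] at hs
      obtain ⟨s, e1, e2⟩ := hs h0
      exact DD_smul (((good_of (mem_filter.1 hI).2 h0).bal_long hΨ e1 e2).mem_DD (by omega)
        (by omega)) _
  have h3 : ∀ I ∈ S, sh I → T φ' I = if I = I0 k then φ else 0 := fun I hI hs => by
    have hg := good_of (mem_filter.1 hI).2 hs.1
    have hs' := fun s => hg.short hs.2 (s := s)
    ext a
    simp only [T]
    rw [hg.Z_eq hs' hφ', hφ'.dep _ _ fun s hs => if_pos hs, hE]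
    by_cases hc : ∀ i ≤ k, (xt I i).2 = (xt I (i + 1)).1
    · have e1 := fun s => hg.chain hs' hc (s := s)
      rw [if_pos hc, if_pos (funext fun s => ?_), E_apply, if_pos ⟨Fin.ext hg.p0, Fin.ext hg.qk⟩]
      · exact hφ.dep _ _ fun s hs => congrArg a (by
          unfold rho; split_ifs with h; exacts [h.symm, e1 s (by omega)])
      · rw [show I s = xt I s by simp [xt]]
        refine Prod.ext (Fin.ext ?_) (Fin.ext ?_) <;> simp only [I0]
        · obtain h0 | h0 := Nat.eq_zero_or_pos s.1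
          · rw [h0, hg.p0]
          · rw [← e1 (s - 1) (by omega), hc _ (by omega), Nat.sub_add_cancel h0]
        · obtain h0 | h0 := (Nat.le_of_lt_succ s.2).eq_or_lt
          · rw [h0, hg.qk]; omega
          · rw [e1 s (by omega)]; omega
    · rw [if_neg hc, if_neg]
      · rfl
      · rintro rfl
        exact hc fun i hi => Fin.ext (by simp (disch := omega) [xt, I0, dif_pos])
  have h4 : sh (I0 k) := ⟨cf_I0, fun s hs => by simp (disch := omega) [xt, I0, dif_pos]; omega⟩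
  refine ⟨_, _, (Co.sum (S.filter sh) fun I hI => (((good_of (mem_filter.1 (mem_filter.1 hI).1).2
    (mem_filter.1 hI).2.1).co (fun s => Good.short (good_of (mem_filter.1 (mem_filter.1 hI).1).2
    (mem_filter.1 hI).2.1) (mem_filter.1 hI).2.2) (hG 0 k.zero_le).1).smul (γ I))).smul
    (γ (I0 k))⁻¹, fun a a' e1 e2 => ?_, ?_⟩
  · simp only [Pi.smul_apply, Finset.sum_apply]
    refine congrArg _ (sum_congr rfl fun I hI => congrArg _ ?_)
    have hg := good_of (mem_filter.1 (mem_filter.1 hI).1).2 (mem_filter.1 hI).2.1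
    exact (hg.q0 ▸ hg.bal (fun s => hg.short (mem_filter.1 hI).2.2) (hG 0 k.zero_le).1 k.zero_le
      (hG 0 k.zero_le).2) a a' e1 e2
  · rw [← inv_smul_smul₀ h4.1 φ, ← smul_sub]
    refine DD_smul ?_ _
    rw [← sum_filter_add_sum_filter_not S sh, ← sum_filter_add_sum_filter_not S sh,
      sum_congr rfl fun I hI => by rw [h3 I (mem_filter.1 hI).1 (mem_filter.1 hI).2]] at h1
    simp only [smul_ite, smul_zero, sum_ite_eq', mem_filter, S, mem_univ, mlt_I0, h4, and_self,
      if_true, sum_range_succ' _ k, sum_add_distrib] at h1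
    rw [eq_sub_of_add_eq h1, add_sub_assoc, add_right_comm, add_sub_cancel_right, ← add_sub_assoc]
    refine sub_mem (add_mem (sum_mem fun I hI => sum_mem fun i hi => ?_) (add_mem
      (sum_mem fun I hI => sum_mem fun i hi => h2 (hG _ (by simpa using hi)).1 I
        (mem_filter.1 hI).1 (mem_filter.1 hI).2)
      (sum_mem fun I hI => h2 (hG 0 k.zero_le).1 I (mem_filter.1 hI).1 (mem_filter.1 hI).2)))
      (sum_mem fun I hI => h2 hφ' I (mem_filter.1 hI).1 (mem_filter.1 hI).2)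
    have hg := good_of (mem_filter.1 (mem_filter.1 hI).1).2 (mem_filter.1 hI).2.1
    have hs' := fun s => hg.short (mem_filter.1 hI).2.2 (s := s)
    have hi' : i + 1 ≤ k := by simpa using hi
    exact DD_smul ((hg.bal hs' (hG _ hi').1 hi' (hG _ hi').2).mem_DD (by
      have := hs' (i + 1) (by omega) hi'; omega) (by omega)) _

end Vale.Agent.P082
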