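import Vale.Agent.P082.K
import Mathlib.Analysis.CStarAlgebra.Unitary.Span
import Mathlib.Analysis.SpecialFunctions.ContinuousFunctionalCalculus.ExpLog.Basic
import Mathlib.Analysis.Complex.CauchyIntegral

/-! Job FinA: the finite part, biharmonic argument. -/

namespace Vale.Agent.P082

open Filter NormedSpace
open scoped Topology

lemma biharm {G ι : Type*} [Monoid G] [Fintype ι] [Nonempty ι] (s : ι → G) {h d : G → ℝ} {M : ℝ}
    (hM : ∀ u, h u ≤ M) (hd : ∀ u, d u = ∑ i, h (u * s i) - Fintype.card ι * h u)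
    (hd' : ∀ u, Fintype.card ι * d u ≤ ∑ i, d (s i * u)) : d 1 ≤ 0 := by
  have hN : (0 : ℝ) < Fintype.card ι := by exact_mod_cast Fintype.card_pos
  set N : ℝ := (Fintype.card ι : ℝ) with hN'
  let w : ℕ → G → ℝ := fun n => Nat.rec h (fun _ v u => (∑ i, v (s i * u)) / N) n
  have e : ∀ n u, N * w (n + 1) u = ∑ i, w n (s i * u) := fun n u => mul_div_cancel₀ _ hN.ne'
  have h1 : ∀ n u, w n u ≤ M := fun n => by
    induction n with
    | zero => exact hM
    | succ n ih =>
      intro u
      refine le_of_mul_le_mul_left ?_ hN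
      rw [e]
      simpa [hN'] using Finset.sum_le_sum (s := Finset.univ) fun i _ => ih (s i * u)
  have h2 : ∀ n u, d u ≤ ∑ i, w n (u * s i) - N * w n u := fun n => by
    induction n with
    | zero => exact fun u => (hd u).le
    | succ n ih =>
      intro u
      refine le_of_mul_le_mul_left ((hd' u).trans ((Finset.sum_le_sum fun i _ =>
        ih (s i * u)).trans_eq ?_)) hN
      simp only [Finset.sum_sub_distrib, mul_sub, Finset.mul_sum, e, mul_assoc]
      rw [Finset.sum_comm]
  have h3 : ∀ n : ℕ, n * d 1 ≤ N * w n 1 - N * h 1 := fun n => by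
    induction n with
    | zero => simp [w]
    | succ n ih =>
      have := h2 n 1
      simp only [one_mul] at this
      rw [e]
      simp only [mul_one]
      push_cast
      linarith
  by_contra! h0
  obtain ⟨n, hn⟩ := exists_nat_gt ((N * M - N * h 1) / d 1)
  rw [div_lt_iff₀ h0] at hn
  nlinarith [h3 n, h1 n 1]

section alg

variable {B : Type*} [CStarAlgebra B] {k : ℕ} {c : ℝ}

lemma exists_fix (W : WL B) {K : Set (Fn B)} (hne : K.Nonempty) (hCo : ∀ F ∈ K, Co k c F)
    (havg : ∀ (n : ℕ) (ψ : Fin (n + 1) → Fn B), (∀ i, ψ i ∈ K) →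
      (Fintype.card (Fin (n + 1)) : ℂ)⁻¹ • ∑ i, ψ i ∈ K)
    (hlim : ∀ (U : Ultrafilter ℕ) (ψ : ℕ → Fn B) G, PL W U ψ G → (∀ i, ψ i ∈ K) → G ∈ K)
    (T : Module.End ℂ (Fn B)) (hT : ∀ F ∈ K, T F ∈ K)
    (hc : ∀ (U : Ultrafilter ℕ) (ψ : ℕ → Fn B) G, PL W U ψ G → PL W U (fun i => T (ψ i)) (T G)) :
    ∃ F ∈ K, T F = F := by
  obtain ⟨F, hF⟩ := hne
  have h1 : ∀ n : ℕ, (T ^ n) F ∈ K := fun n => by
    induction n with
    | zero => exact hF
    | succ n ih => rw [pow_succ']; exact hT _ ih
  have h2 := fun n => havg n (fun i => (T ^ i.1) F) fun _ => h1 _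
  obtain ⟨G, hG⟩ := exists_PL W (hyperfilter ℕ) (.of_forall fun n => hCo _ (h2 n))
  refine ⟨G, hlim _ _ _ hG h2, funext fun a => sub_eq_zero.1 (((hc _ _ _ hG a).sub (hG a)).eq_zero
    (squeeze_zero (fun _ => norm_nonneg _) (fun n => ?_)
      (((tendsto_one_div_add_atTop_nhds_zero_nat (𝕜 := ℝ)).mul_const
        (2 * (c * ∏ i ∈ Finset.range (k + 2), ‖a i‖))).mono_left
          Nat.hyperfilter_le_atTop |>.trans_eq (by simp))))⟩
  have e : T (∑ i : Fin (n + 1), (T ^ i.1) F) - ∑ i : Fin (n + 1), (T ^ i.1) F =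
      (T ^ (n + 1)) F - (T ^ 0) F := by
    rw [map_sum, ← Finset.sum_sub_distrib, ← Finset.sum_range_sub (fun i => (T ^ i) F),
      Finset.sum_range]
    simp only [pow_succ', Module.End.mul_apply]
  rw [← Pi.sub_apply, map_smul, ← smul_sub, e, Pi.smul_apply, norm_smul, Pi.sub_apply, two_mul]
  refine mul_le_mul (le_of_eq ?_) (norm_sub_le_of_le ((hCo _ (h1 _)).norm_le a)
    ((hCo _ (h1 _)).norm_le a)) (norm_nonneg _) (by positivity)
  rw [norm_inv, Complex.norm_natCast]
  simp

/-- Averages of ray operations. -/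
noncomputable def rayAvg (k : ℕ) {ι : Type*} [Fintype ι] (u : ι → ℕ → B) : Module.End ℂ (Fn B) :=
  (Fintype.card ι : ℂ)⁻¹ • ∑ i, LinearMap.funLeft ℂ B (ray k (u i))

variable {ι : Type*} [Fintype ι]

lemma rayAvg_apply (u : ι → ℕ → B) (F : Fn B) :
    rayAvg k u F = (Fintype.card ι : ℂ)⁻¹ • ∑ i, fun a => F (ray k (u i) a) := by
  simp only [rayAvg, LinearMap.smul_apply, LinearMap.sum_apply]
  rfl

lemma rayAvg_lim {W : WL B} {κ : Type*} {l : Filter κ} (u : ι → ℕ → B) {ψ : κ → Fn B} {G : Fn B}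
    (h : PL W l ψ G) : PL W l (fun i => rayAvg k u (ψ i)) (rayAvg k u G) := fun a => by
  simp only [rayAvg_apply, Pi.smul_apply, Finset.sum_apply]
  exact (WL.T.sum _ fun _ _ => h _).smul _

lemma rayAvg_comm {u v : ι → ℕ → B} (h : ∀ i j, u i * v j = v j * u i) (F : Fn B) :
    rayAvg k u (rayAvg k v F) = rayAvg k v (rayAvg k u F) := by
  funext a
  simp only [rayAvg_apply, Pi.smul_apply, Finset.sum_apply, ray_ray, ← Finset.smul_sum, h]
  rw [Finset.sum_comm]

lemma exists_fix2 [Nonempty ι] (W : WL B) {φ : Fn B} (hφ : Co k c φ) (hd : dd k φ = 0)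
    {u v : ι → ℕ → B} (hu : ∀ i j, star (u i j) * u i j = 1) (hv : ∀ i j, star (v i j) * v i j = 1)
    (h : ∀ i j, u i * v j = v j * u i) :
    ∃ F ∈ KK k c φ, rayAvg k u F = F ∧ rayAvg k v F = F := by
  obtain ⟨F, hF, h1⟩ := exists_fix W ⟨φ, self_mem_KK hφ hd⟩ (fun _ h => h.1)
    (fun _ _ => KK.avg) (fun _ _ _ hl h => KK.lim hl (.of_forall h)) (rayAvg k u)
    (fun F hF => by rw [rayAvg_apply]; exact KK.avg fun i => KK.ray hF (hu i))
    fun _ _ _ => rayAvg_lim u
  obtain ⟨F, hF, h2⟩ := exists_fix W (K := {F ∈ KK k c φ | rayAvg k u F = F}) ⟨F, hF, h1⟩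
    (fun _ h => h.1.1) (fun _ ψ h => ⟨KK.avg fun i => (h i).1, by
      simp only [map_smul, map_sum, fun i => (h i).2]⟩)
    (fun _ _ _ hl h => ⟨KK.lim hl (.of_forall fun i => (h i).1), funext fun a =>
      (rayAvg_lim u hl a).eq_of (hl a) (.of_forall fun i => congrFun (h i).2 a)⟩) (rayAvg k v)
    (fun F hF => ⟨by rw [rayAvg_apply]; exact KK.avg fun i => KK.ray hF.1 (hv i), by
      rw [rayAvg_comm h, hF.2]⟩) fun _ _ _ => rayAvg_lim v
  exact ⟨F, hF.1, hF.2, h2⟩

lemma Co.lr {F : Fn B} (hF : Co k c F) {a a' : ℕ → B} {x y : B} (h0 : a 0 = x * a' 0)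
    (h1 : a (k + 1) = a' (k + 1) * y) (h : ∀ i, i ≠ 0 → i ≤ k → a i = a' i) :
    F a = x * F a' * y := by
  rw [hF.right a (Function.update a (k + 1) (a' (k + 1))) y (by simp +contextual) (by simpa),
    hF.left _ (Function.update (Function.update a (k + 1) (a' (k + 1))) 0 (a' 0)) x
      (by simp +contextual) (by simpa)]
  congr 2
  refine hF.dep _ _ fun i hi => ?_
  by_cases h2 : i = 0
  · simp [h2]
  · by_cases h3 : i = k + 1
    · simp [h3]
    · simp [h2, h3, h i h2 (by omega)]

lemma Co.ray_left {F : Fn B} (hF : Co k c F) (g u : B) :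
    F (ray k (fun i => if Even i then g else 1) (alt k u (star u))) =
      star g * F (alt k (g * u) (star (g * u))) * if Even k then g else 1 :=
  hF.lr (by simp [ray, alt]) (by simp [ray, alt]) fun i h0 hi => by
    obtain ⟨i, rfl⟩ := Nat.exists_eq_succ_of_ne_zero h0
    by_cases h : Even i <;>
      simp [ray, alt, h, Nat.even_add_one, Nat.odd_add_one, show i + 1 ≤ k from hi,
        show ¬k < i + 1 by omega]

lemma Co.ray_right {F : Fn B} (hF : Co k c F) (g u : B) :
    F (ray k (fun i => if Even i then 1 else star g) (alt k u (star u))) =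
      1 * F (alt k (u * g) (star (u * g))) * if Even k then 1 else star g :=
  hF.lr (by simp [ray, alt]) (by simp [ray, alt]) fun i h0 hi => by
    obtain ⟨i, rfl⟩ := Nat.exists_eq_succ_of_ne_zero h0
    by_cases h : Even i <;>
      simp [ray, alt, h, Nat.even_add_one, Nat.odd_add_one, show i + 1 ≤ k from hi,
        show ¬k < i + 1 by omega]

lemma pr_alt {g g' : B} (h : g * g' = 1) :
    pr (alt k g g') (k + 2) = if Even k then 1 else g := by
  have : ∀ n ≤ k, pr (alt k g g') (n + 1) = if Even n then 1 else g := fun n hn => by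
    induction n with
    | zero => simp [pr, alt]
    | succ n ih =>
      rw [pr, ih (by omega)]
      by_cases h' : Even n <;>
        simp [alt, h, h', Nat.even_add_one, Nat.odd_add_one, show ¬k < n + 1 by omega]
  rw [pr, this k le_rfl]
  simp [alt]

lemma Co.differentiable {F : Fn B} (hF : Co k c F) {a : ℂ → ℕ → B}
    (ha : ∀ i, Differentiable ℂ fun t => a t i) : Differentiable ℂ fun t => F (a t) := by
  classical
  have hb : ∀ v, ‖hF.ml v‖ ≤ c * ∏ i, ‖v i‖ := fun v => by
    refine (hF.norm_le _).trans_eq ?_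
    rw [Finset.prod_range]
    simp
  intro t
  simpa only [Function.comp_def, MultilinearMap.coe_mkContinuous, hF.ml_apply] using
    ((hF.ml.mkContinuous c hb).hasFDerivAt _).differentiableAt.comp t
      (differentiable_pi.2 (fun i : Fin (k + 2) => ha i) t)

end alg

variable {B : Type*} [CStarAlgebra B] [PartialOrder B] [StarOrderedRing B]

lemma Co.alt_zero {k : ℕ} {c : ℝ} {F : Fn B} (hF : Co k c F)
    (h : ∀ u ∈ unitary B, F (alt k u (star u)) = 0) {g g' : B} (h1 : g * g' = 1)
    (h2 : g' * g = 1) : F (alt k g g') = 0 := by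
  let _ : NormedAlgebra ℚ B := .restrictScalars ℚ ℂ B
  have hg : IsUnit g := ⟨⟨g, g', h1, h2⟩, rfl⟩
  have h3 : exp (CFC.log (star g * g)) = star g * g :=
    CFC.exp_log _ ⟨star_mul_self_nonneg g, hg.star.mul hg⟩
  have h4 : IsSelfAdjoint (CFC.log (star g * g)) := IsSelfAdjoint.log
  set x := CFC.log (star g * g)
  have ee : ∀ s t : ℂ, exp (s • x) * exp (t • x) = exp ((s + t) • x) := fun s t => by
    rw [add_smul, exp_add_of_commute (((Commute.refl x).smul_left s).smul_right t)]
  have es : ∀ s : ℂ, star (exp (s • x)) = exp (star s • x) := fun s => by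
    rw [star_exp, star_smul, h4.star_eq]
  set u := g * exp ((-2⁻¹ : ℂ) • x) with hu
  have u1 : star u * u = 1 := by
    rw [hu, star_mul, es, mul_assoc, ← mul_assoc (star g), ← h3, ← one_smul ℂ x]
    simp only [smul_smul, ee]
    norm_num
  have u2 : u * exp ((2⁻¹ : ℂ) • x) = g := by rw [hu, mul_assoc, ee]; simp
  have u3 : star u = exp ((2⁻¹ : ℂ) • x) * g' := by
    rw [← mul_one (star u), ← h1, ← mul_assoc]
    nth_rw 1 [← u2]
    rw [← mul_assoc, u1, one_mul]
  have u4 : u * star u = 1 := by rw [u3, ← mul_assoc, u2, h1]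
  have u5 : exp (-(2⁻¹ : ℂ) • x) * star u = g' := by rw [u3, ← mul_assoc, ee]; simp
  have hd : Differentiable ℂ fun t : ℂ => F (alt k (u * exp (t • x)) (exp (-t • x) * star u)) := by
    have e1 : Differentiable ℂ fun t : ℂ => exp (t • x) := fun t =>
      (hasDerivAt_exp_smul_const x t).differentiableAt
    refine hF.differentiable fun i => ?_
    unfold alt
    split_ifs
    exacts [differentiable_const _, e1.const_mul _, (e1.comp differentiable_neg).mul_const _]
  have h5 := (hd.differentiableOn.analyticOnNhd isOpen_univ).eq_of_frequently_eq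
    (g := fun _ => 0) analyticOnNhd_const (z₀ := 0) (by
    have : Tendsto (fun t : ℝ => (t : ℂ) * Complex.I) (𝓝[≠] 0) (𝓝[≠] 0) :=
      tendsto_nhdsWithin_iff.2 ⟨by
        simpa using ((by fun_prop : Continuous fun t : ℝ => (t : ℂ) * Complex.I).tendsto
          0).mono_left nhdsWithin_le_nhds, eventually_mem_nhdsWithin.mono fun t ht => by simpa⟩
    refine this.frequently (Eventually.of_forall fun t => ?_).frequently
    have e : star (u * exp (((t : ℂ) * Complex.I) • x)) =
        exp (-((t : ℂ) * Complex.I) • x) * star u := by rw [star_mul, es]; simp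
    rw [← e]
    refine h _ ⟨?_, ?_⟩ <;> rw [e]
    · rw [mul_assoc, ← mul_assoc (star u), u1, one_mul, ee]; simp
    · rw [mul_assoc, ← mul_assoc (exp _), ee]; simp [u4])
  simpa only [u2, u5] using congrFun h5 2⁻¹

namespace TrF

variable {τ : B →ₗ[ℝ] ℝ}

lemma q_nonneg (h : TrF τ) (x : B) : 0 ≤ τ (Star.star x * x) := h.pos _ (star_mul_self_nonneg x)

lemma q_le (h : TrF τ) (x : B) : τ (Star.star x * x) ≤ ‖x‖ ^ 2 * τ 1 := by
  have := h.pos _ (sub_nonneg.2 (CStarAlgebra.star_mul_le_algebraMap_norm_sq (a := x)))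
  rw [map_sub, Algebra.algebraMap_eq_smul_one, map_smul, smul_eq_mul] at this
  linarith

omit [StarOrderedRing B] in
lemma q_inv (h : TrF τ) (x : B) {g g' : B} (hg : Star.star g * g = 1)
    (hg' : g' * Star.star g' = 1) :
    τ (Star.star (g * x * g') * (g * x * g')) = τ (Star.star x * x) := by
  have : Star.star (g * x * g') * (g * x * g') =
      Star.star g' * (Star.star x * (Star.star g * g) * x * g') := by
    simp only [star_mul, mul_assoc]
  rw [this, h.comm, hg, mul_one, mul_assoc, hg', mul_one]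

omit [StarOrderedRing B] in
lemma q_var (h : TrF τ) {ι : Type*} [Fintype ι] [Nonempty ι] {x : ι → B} {m : B}
    (hm : (Fintype.card ι : ℂ)⁻¹ • ∑ i, x i = m) :
    ∑ i, τ (Star.star (x i - m) * (x i - m)) =
      ∑ i, τ (Star.star (x i) * x i) - Fintype.card ι * τ (Star.star m * m) := by
  have h1 : ∑ i, x i = (Fintype.card ι : ℝ) • m := by
    rw [← hm, ← Complex.coe_smul, smul_smul]
    simp
  have h2 : ∀ i, τ (Star.star (x i - m) * (x i - m)) =
      τ (Star.star (x i) * x i) - 2 * τ (Star.star m * x i) + τ (Star.star m * m) := fun i => by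
    have := h.star (Star.star m * x i)
    simp only [star_mul, star_star] at this
    simp only [star_sub, sub_mul, mul_sub, map_sub, this]
    ring
  have h3 : ∑ i, τ (Star.star m * x i) = Fintype.card ι * τ (Star.star m * m) := by
    rw [← map_sum, ← Finset.mul_sum, h1, mul_smul_comm, map_smul, smul_eq_mul]
  simp only [h2, Finset.sum_add_distrib, Finset.sum_sub_distrib, ← Finset.mul_sum, h3,
    Finset.sum_const, Finset.card_univ, nsmul_eq_mul]
  ring

end TrF

lemma null_of_biharm {ι : Type*} [Fintype ι] [Nonempty ι] (s : ι → unitary B) {f : unitary B → B}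
    {c : ℝ} (hf : ∀ u, ‖f u‖ ≤ c) {p q : ι → B} (hp : ∀ i, p i * star (p i) = 1)
    (hq : ∀ i, q i * star (q i) = 1) (hpq : ∀ i j, p i * q j = q j * p i)
    (hP : ∀ u, (Fintype.card ι : ℂ)⁻¹ • ∑ i, star (s i : B) * f (s i * u) * p i = f u)
    (hQ : ∀ u, (Fintype.card ι : ℂ)⁻¹ • ∑ i, 1 * f (u * s i) * q i = f u) (i : ι) :
    Null (star (s i : B) * f (s i) * p i - f 1) ∧ Null (1 * f (s i) * q i - f 1) := by
  suffices ∀ τ : B →ₗ[ℝ] ℝ, TrF τ → _ ∧ _ from ⟨fun τ h => (this τ h).1, fun τ h => (this τ h).2⟩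
  intro τ h
  have hs : ∀ i, star (star (s i : B)) * star (s i : B) = 1 := fun i => by simp
  have h1 := fun u => h.q_var (hP u)
  have h2 := fun u => h.q_var (hQ u)
  simp only [h.q_inv _ (hs _) (hp _)] at h1
  simp only [h.q_inv _ (show star (1 : B) * 1 = 1 by simp) (hq _)] at h2
  have h3 := biharm s (h := fun u => τ (star (f u) * f u)) (M := c ^ 2 * τ 1)
    (fun u => (h.q_le _).trans (mul_le_mul_of_nonneg_right
      (pow_le_pow_left₀ (norm_nonneg _) (hf u) 2) (h.pos _ zero_le_one))) h2 fun u => by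
    rw [Finset.mul_sum, Finset.sum_comm]
    refine Finset.sum_le_sum fun j _ => ?_
    have h4 := h.q_var (x := fun i => star (s i : B) * (1 * f (s i * u * s j) * q j - f (s i * u)) *
      p i) (m := 1 * f (u * s j) * q j - f u) (by
      rw [← hP u, ← hP (u * s j)]
      simp only [one_mul, mul_sub, sub_mul, Finset.sum_sub_distrib, smul_sub, smul_mul_assoc,
        Finset.sum_mul, mul_assoc, hpq])
    simp only [h.q_inv _ (hs _) (hp _)] at h4
    rw [← sub_nonneg, ← h4]
    exact Finset.sum_nonneg fun _ _ => h.q_nonneg _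
  have h5 := h1 1
  have h6 := h2 1
  simp only [one_mul (s _), mul_one (s _)] at h3 h5 h6
  rw [← h6] at h5
  exact ⟨(Finset.sum_eq_zero_iff_of_nonneg fun _ _ => h.q_nonneg _).1
      ((h5.trans_le h3).antisymm (Finset.sum_nonneg fun _ _ => h.q_nonneg _)) i (Finset.mem_univ _),
    (Finset.sum_eq_zero_iff_of_nonneg fun _ _ => h.q_nonneg _).1
      (h3.antisymm (Finset.sum_nonneg fun _ _ => h.q_nonneg _)) i (Finset.mem_univ _)⟩

theorem finA (W : WL B) {k : ℕ} {c : ℝ} {φ : Fn B} (hφ : Co k c φ) (hd : dd k φ = 0) {z : B}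
    (hz : ∀ b, z * b = b * z) (hN : ∀ x, Null x → z * x = 0) :
    ∃ F ∈ KK k c φ, ∃ ζ : B, (∀ b, ζ * b = b * ζ) ∧ ∀ g g' : B, g * g' = 1 → g' * g = 1 →
      z * F (alt k g g') = ζ * pr (alt k g g') (k + 2) := by
  classical
  have h1 : ∀ S : Finset (unitary B), ∃ F ∈ KK k c φ, ∀ g ∈ S,
      z * (star (g : B) * F (alt k g (star g)) * if Even k then (g : B) else 1) =
        z * F (alt k 1 1) ∧ z * (1 * F (alt k g (star g)) * if Even k then 1 else star (g : B)) =
          z * F (alt k 1 1) := fun S => by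
    let s : Option S → unitary B := fun o => o.elim 1 Subtype.val
    obtain ⟨F, hF, hP, hQ⟩ := exists_fix2 W hφ hd
      (u := fun o i => if Even i then (s o : B) else 1)
      (v := fun o i => if Even i then 1 else star (s o : B))
      (fun o i => by split_ifs <;> simp) (fun o i => by split_ifs <;> simp [(s o).2.2])
      fun o o' => funext fun i => by by_cases h : Even i <;> simp [h]
    refine ⟨F, hF, fun g hg => ?_⟩
    have := null_of_biharm s (f := fun u => F (alt k u (star u))) (c := c)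
      (p := fun o => if Even k then (s o : B) else 1)
      (q := fun o => if Even k then 1 else star (s o : B))
      (fun u => hF.1.bd _ fun i _ => by
        unfold alt
        split_ifs
        exacts [norm_one_le, norm_le_one_of_iso u.2.1,
          (norm_star _).trans_le (norm_le_one_of_iso u.2.1)])
      (fun o => by split_ifs <;> simp [(s o).2.2]) (fun o => by split_ifs <;> simp)
      (fun o o' => by split_ifs <;> simp) (fun u => by
        simpa only [rayAvg_apply, Pi.smul_apply, Finset.sum_apply, hF.1.ray_left,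
          Submonoid.coe_mul] using
          congrFun hP (alt k u (star u))) (fun u => by
        simpa only [rayAvg_apply, Pi.smul_apply, Finset.sum_apply, hF.1.ray_right,
          Submonoid.coe_mul] using
          congrFun hQ (alt k u (star u))) (some ⟨g, hg⟩)
    have e1 := hN _ this.1
    have e2 := hN _ this.2
    rw [mul_sub, sub_eq_zero] at e1 e2
    simpa only [s, Option.elim_some, OneMemClass.coe_one, star_one] using And.intro e1 e2
  choose Φ hΦ h2 using h1
  obtain ⟨F, hl⟩ := exists_PL W (Ultrafilter.of atTop) (.of_forall fun S => (hΦ S).1)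
  have hF := KK.lim hl (.of_forall hΦ)
  have hS : ∀ g : unitary B, ∀ᶠ S : Finset (unitary B) in
      (Ultrafilter.of (atTop : Filter (Finset (unitary B))) : Filter _), g ∈ S :=
    fun g => ((eventually_ge_atTop ({g} : Finset (unitary B))).filter_mono
      (Ultrafilter.of_le _)).mono fun S h => h (Finset.mem_singleton_self g)
  have e1 := fun g : unitary B => ((((hl (alt k g (star g))).mul_left _).mul_right _).mul_left
    z).eq_of ((hl (alt k 1 1)).mul_left z) ((hS g).mono fun S h => (h2 S g h).1)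
  have e2 := fun g : unitary B => ((((hl (alt k g (star g))).mul_left _).mul_right _).mul_left
    z).eq_of ((hl (alt k 1 1)).mul_left z) ((hS g).mono fun S h => (h2 S g h).2)
  set ζ := z * F (alt k 1 1)
  have e3 : ∀ g : unitary B, z * F (alt k g (star g)) = ζ * if Even k then 1 else (g : B) :=
    fun g => by
    rw [← e2 g]
    split_ifs <;> simp [mul_assoc]
  have e4 : ∀ b, ζ * b = b * ζ := fun b => by
    obtain ⟨u, c, rfl, -⟩ := CStarAlgebra.exists_sum_four_unitary b
    simp only [Finset.mul_sum, Finset.sum_mul, mul_smul_comm, smul_mul_assoc]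
    refine Finset.sum_congr rfl fun i _ => congrArg _ ?_
    have := e1 (u i)
    rw [← mul_assoc, ← mul_assoc, hz, mul_assoc _ z, e3] at this
    conv_rhs => rw [← this]
    split_ifs <;> simp [← mul_assoc, (u i).2.2]
  refine ⟨F, hF, ζ, e4, fun g g' h1 h2 => sub_eq_zero.1 ?_⟩
  exact ((hF.1.cmul hz).sub ((pr_co k).cmul e4)).alt_zero (fun u hu => by
    simpa only [Pi.sub_apply, pr_alt hu.2, sub_eq_zero] using e3 ⟨u, hu⟩) h1 h2

end Vale.Agent.P082
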