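import Vale.Agent.P082.Cut
import Mathlib.Analysis.CStarAlgebra.Unitary.Span

/-! Job InfB: a minimal invariant set consists of right module maps. -/

namespace Vale.Agent.P082

open scoped Topology InnerProductSpace
open Filter

variable {A : Type*} [CStarAlgebra A] [PartialOrder A] [StarOrderedRing A] {H : Type*}
  [NormedAddCommGroup H] [InnerProductSpace ℂ H] [CompleteSpace H] {R : Rep A H} {k : ℕ} {C : ℝ}

section aux

omit [PartialOrder A] [StarOrderedRing A]

lemma Rep.col_sq {μ : Type*} [Fintype μ] {β : μ → A} (hβ : ∑ l, star (β l) * β l = 1) (v : H) :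
    ∑ l, ‖R.π (β l) v‖ ^ 2 = ‖v‖ ^ 2 := by
  simp only [R.norm_sq, ← Complex.re_sum, ← inner_sum, ← sum_apply,
    ← map_sum, hβ, map_one, one_apply_eq_self]
  exact inner_self_eq_norm_sq (𝕜 := ℂ) v

lemma Rep.row_sq {μ : Type*} [Fintype μ] {β : μ → A} (hβ : ∑ l, star (β l) * β l = 1)
    (ξ : μ → H) : ‖∑ l, R.π (star (β l)) (ξ l)‖ ^ 2 ≤ ∑ l, ‖ξ l‖ ^ 2 := by
  set v := ∑ l, R.π (star (β l)) (ξ l) with hv
  have h1 : ‖v‖ ^ 2 = ∑ l, (⟪ξ l, R.π (β l) v⟫_ℂ).re := by
    simp only [← R.inner_star_left, ← Complex.re_sum, ← sum_inner, ← hv]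
    exact (inner_self_eq_norm_sq (𝕜 := ℂ) v).symm
  have h2 : ∑ l, 2 * (⟪ξ l, R.π (β l) v⟫_ℂ).re ≤ ∑ l, (‖ξ l‖ ^ 2 + ‖R.π (β l) v‖ ^ 2) :=
    Finset.sum_le_sum fun l _ => by
      have := norm_sub_sq (𝕜 := ℂ) (ξ l) (R.π (β l) v)
      simp only [RCLike.re_to_complex] at this
      nlinarith [sq_nonneg ‖ξ l - R.π (β l) v‖]
  rw [← Finset.mul_sum, ← h1, Finset.sum_add_distrib, Rep.col_sq hβ] at h2
  linarith

/-- The last variable of a cochain. -/
noncomputable def Co.fl {F : Fn A} (hF : Co k C F) (x : ℕ → A) : A →ₗ[ℂ] A where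
  toFun y := F (up2 x k y 1)
  map_add' y y' := by
    simpa using hF.lin k (by omega) (up2 x k (y + y') 1) (up2 x k y 1) (up2 x k y' 1) 1
      (by simp +contextual [up2]) (by simp +contextual [up2]) (by simp [up2])
  map_smul' c y := by
    simpa [hF.slot_zero (a := up2 x k 0 1) (i := k) (by omega) (by simp [up2])] using
      hF.lin k (by omega) (up2 x k (c • y) 1) (up2 x k 0 1) (up2 x k y 1) c
      (by simp +contextual [up2]) (by simp +contextual [up2]) (by simp [up2])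

lemma Co.fl_apply {F : Fn A} (hF : Co k C F) (x : ℕ → A) (y : A) :
    hF.fl x y = F (up2 x k y 1) := rfl

lemma Co.up2_right {F : Fn A} (hF : Co k C F) (x : ℕ → A) (y b : A) :
    F (up2 x k y b) = F (up2 x k y 1) * b :=
  hF.right _ _ b (by simp +contextual [up2]) (by simp [up2])

lemma Co.col_apply {F : Fn A} (hF : Co k C F) {μ : Type} [Fintype μ] (β : μ → A) (x : ℕ → A)
    (y : A) : col k β F (up2 x k y 1) = ∑ l, F (up2 x k (y * star (β l)) 1) * β l := by
  refine Finset.sum_congr rfl fun l _ => ?_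
  rw [← hF.up2_right]
  congr 1
  funext j
  by_cases h1 : j = k
  · simp [up2, h1]
  · by_cases h2 : j = k + 1 <;> simp [up2, h1, h2]

lemma En.two {F : Fn A} {x : ℕ → A} {L : Set H} (hL : ∀ a, ∀ ξ ∈ L, R.π a ξ ∈ L)
    {t : ℝ} (h : En R k x L F t) {μ : Type} [Fintype μ] {β γ : μ → A}
    (hβ : ∑ l, star (β l) * β l = 1)
    (hγ : ∀ ξ : μ → H, ‖∑ l, R.π (star (β l)) (ξ l)‖ ^ 2 + ‖∑ l, R.π (star (γ l)) (ξ l)‖ ^ 2 ≤
      ∑ l, ‖ξ l‖ ^ 2) {ι ι' κ : Type} [Fintype ι] [Fintype ι'] [Fintype κ] {X : ι → κ → A}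
    {Y : ι' → κ → A} (hX : Contr R X) (hY : Contr R Y) {η : κ → H} (hη : ∀ j, η j ∈ L) :
    ∑ i, ‖∑ j, R.π (∑ l, F (up2 x k (X i j * star (β l)) 1) * β l) (η j)‖ ^ 2 +
      ∑ i, ‖∑ j, R.π (∑ l, F (up2 x k (Y i j * star (γ l)) 1) * β l) (η j)‖ ^ 2 ≤
        t * ∑ j, ‖η j‖ ^ 2 := by
  have := h (ι ⊕ ι') (κ × μ)
    (Sum.elim (fun i p => X i p.1 * star (β p.2)) fun i p => Y i p.1 * star (γ p.2))
    (fun p => R.π (β p.2) (η p.1)) (fun ξ => ?_) fun p => hL _ _ (hη _)
  · simpa only [Fintype.sum_sum_type, Sum.elim_inl, Sum.elim_inr, Fintype.sum_prod_type,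
      Rep.col_sq hβ, map_sum, sum_apply, R.mul_apply] using this
  · simp only [Fintype.sum_sum_type, Sum.elim_inl, Sum.elim_inr, Fintype.sum_prod_type,
      R.mul_apply, ← map_sum]
    refine (add_le_add (hX _) (hY _)).trans ?_
    rw [← Finset.sum_add_distrib]
    exact Finset.sum_le_sum fun j _ => hγ _

lemma contr_empty {κ : Type} [Fintype κ] (Y : Empty → κ → A) : Contr R Y := fun ξ => by
  simp only [Finset.univ_eq_empty, Finset.sum_empty]
  positivity

lemma Contr.mul_star {ι κ μ : Type} [Fintype ι] [Fintype κ] [Fintype μ] {X : ι → κ → A}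
    (hX : Contr R X) {β : μ → A} (hβ : ∑ l, star (β l) * β l = 1) :
    Contr R fun i (p : κ × μ) => X i p.1 * star (β p.2) := fun ξ => by
  simp only [Fintype.sum_prod_type, R.mul_apply, ← map_sum]
  exact (hX _).trans (Finset.sum_le_sum fun j _ => Rep.row_sq hβ _)

lemma contr_diag {κ : Type} [Fintype κ] [DecidableEq κ] {y : A} (hy : ‖y‖ ≤ 1) :
    Contr R fun i j : κ => if i = j then y else 0 := fun ξ => by
  refine Finset.sum_le_sum fun i _ => ?_
  rw [Finset.sum_eq_single i (by simp +contextual [eq_comm]) (by simp)]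
  simp only [if_true]
  have := (R.norm_apply_le y (ξ i)).trans (mul_le_of_le_one_left (norm_nonneg _) hy)
  gcongr

lemma En.col {F : Fn A} (hF : Co k C F) {x : ℕ → A} {L : Set H} (hL : ∀ a, ∀ ξ ∈ L, R.π a ξ ∈ L)
    {t : ℝ} (h : En R k x L F t) {ι : Type} [Fintype ι] {β : ι → A}
    (hβ : ∑ l, star (β l) * β l = 1) : En R k x L (col k β F) t := by
  intro ι' κ _ _ X η hX hη
  simpa only [hF.col_apply, Finset.univ_eq_empty, Finset.sum_empty, add_zero] using
    h.two hL (γ := 0) hβ (fun ξ => by simpa using Rep.row_sq hβ ξ) hX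
      (contr_empty Empty.elim) hη

lemma En.lim {ι : Type*} {l : Filter ι} [l.NeBot] {F : ι → Fn A} {G : Fn A} (hl : PL R.W l F G)
    {x : ℕ → A} {L : Set H} {t : ℝ} (h : ∀ᶠ i in l, En R k x L (F i) t) : En R k x L G t :=
  fun ι' κ _ _ X η hX hη => Rep.T_sum_sq_le (fun _ _ => hl _) η (h.mono fun _ h => h ι' κ X η hX hη)

/-- The doubling inequality. -/
lemma En.double {F : Fn A} (hF : Co k C F) {x : ℕ → A} {L : Set H}
    (hL : ∀ a, ∀ ξ ∈ L, R.π a ξ ∈ L) {u : A} (hu : star u * u = 1) {y : A} (hy : ‖y‖ ≤ 1) :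
    ∃ β : Bool → A, ∑ l, star (β l) * β l = 1 ∧ ∀ t, En R k x L F t →
      ∀ (ι κ : Type) [Fintype ι] [Fintype κ] (X : ι → κ → A) (η : κ → H), Contr R X →
        (∀ j, η j ∈ L) → ∑ i, ‖∑ j, R.π (P082.col k β F (up2 x k (X i j) 1)) (η j)‖ ^ 2 +
          ∑ j, ‖R.π (hF.fl x y - hF.fl x (y * star u) * u) (η j)‖ ^ 2 / 4 ≤
            t * ∑ j, ‖η j‖ ^ 2 := by
  classical
  obtain ⟨c, hs, hc', hc⟩ : ∃ c : ℂ, starRingEnd ℂ c = c ∧ c * c = 1 / 2 ∧ ‖c‖ ^ 2 = 1 / 2 :=
    ⟨√(1 / 2), Complex.conj_ofReal _, by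
      rw [← Complex.ofReal_mul, Real.mul_self_sqrt (by norm_num)]; simp, by
      rw [Complex.norm_real, Real.norm_eq_abs, sq_abs, Real.sq_sqrt (by norm_num)]⟩
  have hβ : ∑ l, star (cond l ((c : ℂ) • (1 : A)) ((c : ℂ) • u)) *
      cond l ((c : ℂ) • (1 : A)) ((c : ℂ) • u) = 1 := by
    simp [smul_smul, hs, hc', hu, ← add_smul]
    norm_num
  refine ⟨_, hβ, fun t h ι κ _ _ X η hX hη => ?_⟩
  have := h.two hL (γ := fun l => cond l ((c : ℂ) • (1 : A)) (-((c : ℂ) • u))) hβ (fun ξ => ?_) hX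
    (contr_diag hy) hη
  · simp only [hF.col_apply]
    refine le_trans (le_of_eq ?_) this
    congr 1
    refine Finset.sum_congr rfl fun i _ => ?_
    rw [Finset.sum_eq_single i (fun j _ hj => by simp [hj.symm, ← hF.fl_apply]) (by simp),
      if_pos rfl]
    have : ∑ l, F (up2 x k (y * star (cond l ((c : ℂ) • (1 : A)) (-((c : ℂ) • u)))) 1) *
        cond l ((c : ℂ) • (1 : A)) ((c : ℂ) • u) =
          (1 / 2 : ℂ) • (hF.fl x y - hF.fl x (y * star u) * u) := by
      simp [← hF.fl_apply, smul_smul, hs, hc', sub_eq_add_neg]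
    rw [this, map_smul, smul_apply, norm_smul]
    simp
    ring
  · have h1 := parallelogram_law_with_norm ℂ (ξ true) (R.π (star u) (ξ false))
    have h2 : ‖R.π (star u) (ξ false)‖ ^ 2 ≤ ‖ξ false‖ ^ 2 := by
      have := (R.norm_apply_le (star u) (ξ false)).trans (mul_le_of_le_one_left (norm_nonneg _)
        ((norm_star u).trans_le (norm_le_one_of_iso hu)))
      gcongr
    simp [← smul_add, ← sub_eq_add_neg, ← smul_sub, norm_smul, mul_pow, hs, hc]
    linarith

end aux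

/-- Columns that absorb the vectors of the invariant set generated by a projection. -/
lemma exists_absorb (R : Rep A H) {e : A} (he : IsStarProjection e) :
    ∃ (r : Finset A → A) (b : ∀ S : Finset A, Option (Fin S.card) → A),
      (∀ S, ∑ l, star (b S l) * b S l = 1) ∧ (∀ S, b S none = r S) ∧
      (∀ S l, e * b S (some l) = b S (some l)) ∧
      ∀ a ξ, Tendsto (fun S => ‖R.π (r S) (R.π a (R.π e ξ))‖) atTop (𝓝 0) := by
  have h0 : ∀ S : Finset A, algebraMap ℝ A 1 ≤ 1 + ∑ v ∈ S, star (e * v) * (e * v) := fun S => by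
    simpa using Finset.sum_nonneg fun v _ => star_mul_self_nonneg (e * v)
  choose r hr h1 _ using fun S => exists_isqrt one_pos (h0 S)
  have h2 : ∀ S : Finset A, ∑ l : Option (Fin S.card),
      star (l.elim (r S) fun i => e * S.equivFin.symm i * r S) *
        (l.elim (r S) fun i => e * S.equivFin.symm i * r S) = 1 := fun S => by
    rw [Fintype.sum_option, ← h1 S, mul_add, add_mul, Finset.mul_sum, Finset.sum_mul,
      ← Finset.sum_coe_sort S, ← S.equivFin.symm.sum_comp]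
    simp [(hr S).isSelfAdjoint.star_eq, mul_assoc]
  refine ⟨r, _, h2, fun _ => rfl, fun S l => by
    simp [← mul_assoc, he.isIdempotentElem.eq], fun a ξ => ?_⟩
  refine Metric.tendsto_nhds.2 fun ε hε => ?_
  obtain ⟨n, hn⟩ := exists_nat_gt (‖ξ‖ / ε)
  have hn0 : (0 : ℝ) < n := lt_of_le_of_lt (by positivity) hn
  filter_upwards [eventually_ge_atTop {(n : ℂ) • star a}] with S hS
  classical
  set i := S.equivFin ⟨_, hS (Finset.mem_singleton_self _)⟩
  have h3 := Rep.row_sq (R := R) (h2 S) (Pi.single (some i) ξ)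
  rw [Finset.sum_eq_single (some i) (by simp +contextual) (by simp),
    Finset.sum_eq_single (some i) (by simp +contextual) (by simp)] at h3
  simp [i, (hr S).isSelfAdjoint.star_eq, he.isSelfAdjoint.star_eq, norm_smul] at h3
  have h4 := (pow_le_pow_iff_left₀ (by positivity) (by positivity) two_ne_zero).1 h3
  rw [div_lt_iff₀ hε] at hn
  rw [dist_zero_right, norm_norm]
  nlinarith

theorem infB (Ω : Set (Fn A)) (hne : Ω.Nonempty) (hCo : ∀ F ∈ Ω, Co k C F)
    (hcol : ∀ F ∈ Ω, ∀ (ι : Type) [Fintype ι] (β : ι → A), ∑ l, star (β l) * β l = 1 →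
      col k β F ∈ Ω)
    (hcl : ∀ (U : Ultrafilter (Fn A)) (G : Fn A), Ω ∈ U → PL R.W U id G → G ∈ Ω)
    (hen : ∀ x, ∃ t, ∀ F ∈ Ω, En R k x Set.univ F t) : ∃ F ∈ Ω, Bal k F := by
  classical
  obtain ⟨O, -, ⟨hO, ⟨F, hF⟩, ocol, ocl⟩, hmin⟩ := zorn_superset_nonempty
    {O : Set (Fn A) | O ⊆ Ω ∧ O.Nonempty ∧ (∀ F ∈ O, ∀ (ι : Type) [Fintype ι] (β : ι → A),
      ∑ l, star (β l) * β l = 1 → col k β F ∈ O) ∧
      ∀ (U : Ultrafilter (Fn A)) (G : Fn A), O ∈ U → PL R.W U id G → G ∈ O}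
    (fun c hc hch ⟨s0, hs0⟩ => by
      have : Nonempty c := ⟨⟨s0, hs0⟩⟩
      have : (⨅ s : c, 𝓟 s.1).NeBot := iInf_neBot_of_directed'
        (fun s s' => by
          rcases hch.total s.2 s'.2 with h | h
          exacts [⟨s, le_rfl, principal_mono.2 h⟩, ⟨s', principal_mono.2 h, le_rfl⟩])
        fun s => principal_neBot_iff.2 (hc s.2).2.1
      have hU : ∀ s ∈ c, s ∈ Ultrafilter.of (⨅ s : c, 𝓟 s.1) := fun s hs =>
        Ultrafilter.of_le _ (mem_iInf_of_mem ⟨s, hs⟩ (mem_principal_self _))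
      obtain ⟨G, hG⟩ := exists_PL R.W (Ultrafilter.of (⨅ s : c, 𝓟 s.1)) (F := id)
        (mem_of_superset (hU s0 hs0) fun F hF => hCo F ((hc hs0).1 hF))
      exact ⟨⋂₀ c, ⟨(Set.sInter_subset_of_mem hs0).trans (hc hs0).1,
        ⟨G, fun s hs => (hc hs).2.2.2 _ G (hU s hs) hG⟩,
        fun F hF ι _ β hβ s hs => (hc hs).2.2.1 F (hF s hs) ι β hβ,
        fun U G hU hG s hs => (hc hs).2.2.2 U G
          (mem_of_superset hU (Set.sInter_subset_of_mem hs)) hG⟩,
        fun s hs => Set.sInter_subset_of_mem hs⟩) Ω ⟨le_rfl, hne, hcol, hcl⟩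
  have hall : ∀ x L t, (∀ a, ∀ ξ ∈ L, R.π a ξ ∈ L) → ∀ G ∈ O, En R k x L G t →
      ∀ G ∈ O, En R k x L G t := fun x L t hL G hG h G' hG' =>
    (hmin (y := {G ∈ O | En R k x L G t}) ⟨fun _ h => hO h.1, ⟨G, hG, h⟩,
      fun F hF ι _ β hβ => ⟨ocol F hF.1 ι β hβ, hF.2.col (hCo F (hO hF.1)) hL hβ⟩,
      fun U G hU hG => ⟨ocl U G (mem_of_superset hU fun _ h => h.1) hG,
        En.lim hG (mem_of_superset hU fun _ h => h.2)⟩⟩ (fun _ h => h.1) hG').2
  have hC := hCo F (hO hF)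
  have key : ∀ x u y, star u * u = 1 → ‖y‖ ≤ 1 → hC.fl x y - hC.fl x (y * star u) * u = 0 := by
    intro x u y hu hy
    by_contra hm
    obtain ⟨δ, e, hδ, he, h0, hle⟩ := exists_cut' R hm
    obtain ⟨r, b, hb, hr, heb, hlim⟩ := exists_absorb R he
    set L : Set H := {η | ∀ a, Tendsto (fun S => ‖R.π (r S) (R.π a η)‖) atTop (𝓝 0)}
    have hL : ∀ a, ∀ ξ ∈ L, R.π a ξ ∈ L := fun a ξ hξ a' => by
      simpa only [R.mul_apply] using hξ (a' * a)
    obtain ⟨β, hβ, hd⟩ := En.double hC (x := x) hL hu hy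
    have hG := ocol F hF _ β hβ
    have hG' := hCo _ (hO hG)
    have hm2 : ∀ v, δ * ‖R.π e v‖ ^ 2 ≤
        ‖R.π (hC.fl x y - hC.fl x (y * star u) * u) v‖ ^ 2 := fun v => by
      have := (Rep.nonneg_iff (R := R).1 (sub_nonneg.2 hle)).2 v
      rw [R.norm_sq, R.norm_sq, he.isSelfAdjoint.star_eq, he.isIdempotentElem.eq]
      rw [map_sub, sub_apply, inner_sub_right, Complex.sub_re,
        ← Complex.coe_smul, map_smul, smul_apply, inner_smul_right,
        Complex.re_ofReal_mul] at this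
      linarith
    have step : ∀ t, (∀ G ∈ O, En R k x L G t) → ∀ G ∈ O, En R k x L G (t - δ / 4) := by
      intro t ht
      set U := Ultrafilter.of (atTop : Filter (Finset A))
      obtain ⟨G, hl⟩ := exists_PL R.W U (F := fun S => col k (b S) (col k β F))
        (.of_forall fun S => hCo _ (hO (ocol _ hG _ _ (hb S))))
      refine hall x L _ hL G (ocl (U.map fun S => col k (b S) (col k β F)) G
        (Ultrafilter.mem_map.2 (univ_mem' fun S => ocol _ hG _ _ (hb S))) hl) fun ι κ _ _ X η hX hη => ?_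
      refine le_of_forall_pos_le_add fun ε hε => Rep.T_sum_sq_le (fun _ _ => hl _) η ?_
      have h1 : Tendsto (fun S => δ / 4 * ∑ j, ‖R.π (r S) (η j)‖ ^ 2) atTop (𝓝 0) := by
        simpa using (tendsto_finsetSum Finset.univ fun j _ => (hη j 1).pow 2).const_mul (δ / 4)
      refine ((h1.eventually (gt_mem_nhds hε)).filter_mono (Ultrafilter.of_le _)).mono
        fun S hS => ?_
      have h2 := hd t (ht F hF) ι _ _ (fun p => R.π (b S p.2) (η p.1)) (hX.mul_star (hb S))
        fun p => hL _ _ (hη _)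
      have h3 : δ / 4 * ∑ j, (‖η j‖ ^ 2 - ‖R.π (r S) (η j)‖ ^ 2) ≤ ∑ p : κ × Option (Fin S.card),
          ‖R.π (hC.fl x y - hC.fl x (y * star u) * u) (R.π (b S p.2) (η p.1))‖ ^ 2 / 4 := by
        rw [Fintype.sum_prod_type, Finset.mul_sum]
        refine Finset.sum_le_sum fun j _ => ?_
        rw [← Rep.col_sq (R := R) (hb S) (η j), Fintype.sum_option, Fintype.sum_option, hr,
          add_sub_cancel_left, Finset.mul_sum]
        refine le_add_of_nonneg_of_le (by positivity) (Finset.sum_le_sum fun l _ => ?_)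
        have := hm2 (R.π (b S (some l)) (η j))
        rw [← R.mul_apply, heb] at this
        linarith
      simp only [Fintype.sum_prod_type, Rep.col_sq (hb S)] at h2 h3
      simp only [hG'.col_apply, map_sum, sum_apply, R.mul_apply]
      rw [Finset.sum_sub_distrib] at h3
      nlinarith
    obtain ⟨t, ht⟩ := hen x
    have iter : ∀ n : ℕ, ∀ G ∈ O, En R k x L G (t - n * (δ / 4)) := fun n => by
      induction n with
      | zero =>
        intro G hG ι κ _ _ X η hX _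
        simpa using ht G (hO hG) ι κ X η hX fun _ => trivial
      | succ n ih => simpa only [sub_sub, Nat.cast_succ, add_mul, one_mul] using step _ ih
    refine h0 (R.ext' fun ξ => ?_)
    obtain ⟨n, hn⟩ := exists_nat_gt (t / (δ / 4))
    have := iter n F hF Empty Unit Empty.elim (fun _ => R.π e ξ) (contr_empty _)
      fun _ a => hlim a ξ
    rw [div_lt_iff₀ (by positivity)] at hn
    simp only [Finset.univ_eq_empty, Finset.sum_empty, Finset.univ_unique, Finset.sum_singleton]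
      at this
    have h5 : ‖R.π e ξ‖ ^ 2 ≤ 0 := by nlinarith
    simpa using h5
  have key2 : ∀ x y b, hC.fl x (y * b) = hC.fl x y * b := by
    intro x y b
    obtain ⟨u, c, rfl, -⟩ := CStarAlgebra.exists_sum_four_unitary b
    obtain ⟨w, c', rfl, -⟩ := CStarAlgebra.exists_sum_four_unitary y
    simp only [Finset.mul_sum, Finset.sum_mul, map_sum, mul_smul_comm, smul_mul_assoc, map_smul]
    refine Finset.sum_congr rfl fun i _ => congrArg _ (Finset.sum_congr rfl fun j _ => ?_)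
    have := key x (u i) (w j * u i) (Unitary.coe_star_mul_self _) (norm_le_one_of_iso
      (Unitary.coe_star_mul_self (w j * u i)))
    rw [mul_assoc, (u i).2.2, mul_one, sub_eq_zero] at this
    rw [this]
  have key3 : ∀ a, F a = hC.fl a (a k * a (k + 1)) := fun a => by
    rw [key2, hC.fl_apply, ← hC.up2_right]
    congr 1
    funext j
    simp only [up2]
    split_ifs <;> simp [*]
  refine ⟨F, hO hF, fun a a' h1 h2 => ?_⟩
  rw [key3, key3, h2, hC.fl_apply, hC.fl_apply]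
  congr 1
  funext j
  simp only [up2]
  split_ifs <;> simp [*]

end Vale.Agent.P082
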