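import Vale.Agent.P082.K
import Vale.Agent.P082.InfB

/-! Job InfA: the properly infinite part, column operations are ray operations. -/

namespace Vale.Agent.P082

open Filter

variable {A : Type*} [CStarAlgebra A] {k m : ℕ} {c : ℝ} {F φ : Fn A}

/-- Modularity at a junction. -/
def Mod (m : ℕ) (b : A) (F : Fn A) : Prop :=
  ∀ a x y, F (up2 a m (x * b) y) = F (up2 a m x (b * y))

lemma Mod.mul {b b' : A} (h : Mod m b F) (h' : Mod m b' F) : Mod m (b * b') F := fun a x y => by
  rw [← mul_assoc, h', h, mul_assoc]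

lemma Mod.lin (hF : Co k c F) (hm : m ≤ k) {b b' : A} (h : Mod m b F) (h' : Mod m b' F) (r : ℂ) :
    Mod m (b + r • b') F := fun a x y => by
  rw [hF.lin m (by omega) (up2 a m (x * (b + r • b')) y) (up2 a m (x * b) y)
      (up2 a m (x * b') y) r
      (by simp +contextual [up2]) (by simp +contextual [up2]) (by simp [up2, mul_add]),
    hF.lin (m + 1) (by omega) (up2 a m x ((b + r • b') * y)) (up2 a m x (b * y))
      (up2 a m x (b' * y)) r
      (by simp +contextual [up2]) (by simp +contextual [up2]) (by simp [up2, add_mul]), h, h']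

lemma mod_zero (hF : Co k c F) (hm : m ≤ k) : Mod m 0 F := fun a x y => by
  rw [hF.slot_zero (i := m) (by omega) (by simp [up2]),
    hF.slot_zero (i := m + 1) (by omega) (by simp [up2])]

lemma exists_mod (hφ : Co k c φ) (hd : dd k φ = 0) (Γ : Submonoid A) [Finite Γ]
    (hΓ : ∀ g ∈ Γ, g ∈ unitary A) : ∃ F ∈ KK k c φ, ∀ m ≤ k, ∀ g ∈ Γ, Mod m g F := by
  classical
  have := Fintype.ofFinite Γ
  let ex : (Fin (k + 1) → Γ) → ℕ → A := fun u i => if h : i < k + 1 then u ⟨i, h⟩ else 1
  refine ⟨_, KK.avg fun u => KK.ray (self_mem_KK hφ hd) (u := ex u) fun i => ?_,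
    fun m hm g hg a x y => ?_⟩
  · simp only [ex]
    split_ifs
    exacts [(hΓ _ (u _).2).1, by simp]
  have e1 : up2 a m x (g * y) = ray k (Function.update 1 m g) (up2 a m (x * g) y) := by
    funext j
    simp only [up2, ray, Function.update_apply]
    by_cases h1 : j = m
    · subst h1
      by_cases h0 : j = 0
      · simp [h0, mul_assoc, (hΓ g hg).2]
      · simp [hm, mul_assoc, (hΓ g hg).2, show j - 1 ≠ j by omega]
    · by_cases h2 : j = m + 1
      · simp [h2]
      · by_cases h0 : j = 0
        · subst h0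
          simp [h1]
        · simp [h1, h2, show j - 1 ≠ m by omega]
  set p : Fin (k + 1) → Γ := Pi.mulSingle ⟨m, by omega⟩ ⟨g, hg⟩ with hp
  have e2 : ∀ u, ex u * Function.update (1 : ℕ → A) m g = ex (u * p) := fun u => funext fun i => by
    simp only [ex, hp, Pi.mul_apply, Function.update_apply, Pi.mulSingle_apply, Fin.mk.injEq]
    split_ifs <;> first | omega | simp
  have e3 : Function.Injective fun u : Fin (k + 1) → Γ => u * p := fun u v h => funext fun i => by
    have := congrArg (fun w : Fin (k + 1) → Γ => (w i : A) * star (p i : A)) h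
    simpa [mul_assoc, (hΓ _ (p i).2).2] using this
  simp only [e1, Pi.smul_apply, Finset.sum_apply, ray_ray, e2]
  rw [(Finite.injective_iff_bijective.1 e3).sum_comp fun u => φ (ray k (ex u) (up2 a m (x * g) y))]

lemma tele {a a' b : ℕ → A} (hb : ∀ m < k, Mod m (b m) F)
    (h : ∀ l < k, a (l + 1) * b (l + 1) = b l * a' (l + 1)) :
    F (fun l => if l < k then a l else if l = k then a k * b k else a' l) =
      F fun l => if l = 0 then a 0 * b 0 else a' l := by
  induction k with
  | zero => simp
  | succ k ih =>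
    rw [← ih (fun m hm => hb m (by omega)) fun m hm => h m (by omega), h k (by omega)]
    convert (hb k (by omega) (fun l => if l < k then a l else a' l) (a k) (a' (k + 1))).symm
      using 2 <;> funext l <;> simp only [up2] <;> split_ifs <;> first | omega | simp [*]

section units

variable {ι : Type*} [Fintype ι] [DecidableEq ι] {z : A} {t : ι → A}

omit [Fintype ι] in
lemma mul_z (hz : IsStarProjection z) (ht : ∀ i j, star (t i) * t j = if i = j then z else 0)
    (i : ι) : t i * z = t i := by
  refine (sub_eq_zero.1 ((CStarRing.star_mul_self_eq_zero_iff _).1 ?_))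
  simp [mul_sub, sub_mul, mul_assoc, ← mul_assoc (star (t i)), ht, hz.isSelfAdjoint.star_eq,
    hz.isIdempotentElem.eq]

/-- Weighted permutations. -/
noncomputable def wp (t : ι → A) (σ : Equiv.Perm ι) (ε : ι → ℂ) : A :=
  ∑ i, ε i • (t (σ i) * star (t i)) + (1 - ∑ i, t i * star (t i))

variable (hz : IsStarProjection z) (ht : ∀ i j, star (t i) * t j = if i = j then z else 0)
include hz ht

lemma compl_mul (j : ι) : (1 - ∑ i, t i * star (t i)) * t j = 0 := by
  simp [sub_mul, Finset.sum_mul, mul_assoc, ht, mul_z hz ht]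

lemma mul_compl (j : ι) : star (t j) * (1 - ∑ i, t i * star (t i)) = 0 := by
  simpa using congrArg star (compl_mul hz ht j)

lemma compl_sq : (1 - ∑ i, t i * star (t i)) * (1 - ∑ i, t i * star (t i)) =
    1 - ∑ i, t i * star (t i) := by
  rw [mul_sub, Finset.mul_sum]
  simp only [← mul_assoc, compl_mul hz ht]
  simp

lemma wp_mul_t (σ : Equiv.Perm ι) (ε : ι → ℂ) (j : ι) : wp t σ ε * t j = ε j • t (σ j) := by
  simp [wp, add_mul, compl_mul hz ht, Finset.sum_mul, mul_assoc, ht, mul_z hz ht]

lemma wp_mul (σ τ : Equiv.Perm ι) (ε δ : ι → ℂ) :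
    wp t σ ε * wp t τ δ = wp t (σ * τ) fun i => ε (τ i) * δ i := by
  rw [wp.eq_1 t τ, mul_add, Finset.mul_sum]
  simp only [mul_smul_comm, ← mul_assoc, wp_mul_t hz ht]
  simp [wp, add_mul, compl_sq hz ht, Finset.sum_mul, mul_assoc, mul_compl hz ht, smul_smul,
    mul_comm]

omit hz ht [DecidableEq ι] in
lemma star_wp (σ : Equiv.Perm ι) (ε : ι → ℂ) :
    star (wp t σ ε) = wp t σ⁻¹ fun i => star (ε (σ⁻¹ i)) := by
  simp only [wp, star_add, star_sum, star_smul, star_mul, star_star, star_sub, star_one]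
  rw [← Equiv.sum_comp σ fun i => star (ε (σ⁻¹ i)) • (t (σ⁻¹ i) * star (t i))]
  simp

lemma exists_mod_units (hφ : Co k c φ) (hd : dd k φ = 0) :
    ∃ F ∈ KK k c φ, ∀ m ≤ k, ∀ i j, Mod m (t i * star (t j)) F := by
  have h1 : wp t 1 (fun _ => 1) = 1 := by simp [wp]
  let Γ : Submonoid A :=
    { carrier := (fun p : Equiv.Perm ι × (ι → ℂ) => wp t p.1 p.2) ''
        (Set.univ ×ˢ {ε | ∀ i, ε i ∈ ({1, -1} : Set ℂ)})
      mul_mem' := by
        rintro _ _ ⟨⟨σ, ε⟩, ⟨-, hε⟩, rfl⟩ ⟨⟨τ, δ⟩, ⟨-, hδ⟩, rfl⟩
        refine ⟨(_, _), ⟨trivial, fun i => ?_⟩, (wp_mul hz ht _ _ _ _).symm⟩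
        rcases hε (τ i) with h | h <;> rcases hδ i with h' | h' <;> simp_all
      one_mem' := ⟨(1, fun _ => 1), ⟨trivial, fun _ => Or.inl rfl⟩, h1⟩ }
  have : Finite Γ := ((Set.finite_univ.prod (Set.Finite.pi' fun _ => Set.toFinite _)).image _)
  obtain ⟨F, hF, h⟩ := exists_mod hφ hd Γ (by
    rintro _ ⟨⟨σ, ε⟩, ⟨-, hε⟩, rfl⟩
    have : ∀ i, starRingEnd ℂ (ε i) * ε i = 1 ∧ ε i * starRingEnd ℂ (ε i) = 1 := fun i => by
      rcases hε i with h | h <;> simp_all
    constructor <;> simp [star_wp, wp_mul hz ht, this, h1])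
  refine ⟨F, hF, fun m hm i j => ?_⟩
  have e1 : t j * star (t j) = 0 + (2⁻¹ : ℂ) • (1 + (-1 : ℂ) •
      wp t 1 (Function.update 1 j (-1))) := by
    nth_rw 1 [← h1]
    simp only [wp, neg_smul, one_smul, ← sub_eq_add_neg, add_sub_add_right_eq_sub,
      ← Finset.sum_sub_distrib]
    rw [Finset.sum_eq_single j (by simp +contextual) (by simp)]
    simp [← two_smul ℂ, smul_smul]
  have e2 : t i * star (t j) = wp t (Equiv.swap i j) (fun _ => 1) * (t j * star (t j)) := by
    rw [← mul_assoc, wp_mul_t hz ht]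
    simp
  rw [e2, e1]
  refine (h m hm _ ⟨(_, _), ⟨trivial, fun _ => Or.inl rfl⟩, rfl⟩).mul
    ((mod_zero hF.1 hm).lin hF.1 hm ((h m hm _ Γ.one_mem).lin hF.1 hm
      (h m hm _ ⟨(1, Function.update 1 j (-1)), ⟨trivial, fun l => ?_⟩, rfl⟩) _) _)
  by_cases hl : l = j <;> simp [hl]

variable {H : Type*} [NormedAddCommGroup H] [InnerProductSpace ℂ H] [CompleteSpace H] {R : Rep A H}

lemma unit_col : ∑ l : Option ι, star (l.elim (1 - ∑ i, t i * star (t i)) fun i => star (t i)) *
    (l.elim (1 - ∑ i, t i * star (t i)) fun i => star (t i)) = 1 := by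
  simp [compl_sq hz ht]

lemma bessel_col (v : H) : ∑ i, ‖R.π (star (t i)) v‖ ^ 2 ≤ ‖v‖ ^ 2 := by
  rw [← Rep.col_sq (R := R) (unit_col hz ht) v, Fintype.sum_option]
  exact le_add_of_nonneg_left (by positivity)

lemma bessel_row (v : ι → H) : ‖∑ i, R.π (t i) (v i)‖ ^ 2 ≤ ∑ i, ‖v i‖ ^ 2 := by
  simpa using Rep.row_sq (R := R) (unit_col hz ht) fun l => l.elim 0 v

end units

variable {H : Type*} [NormedAddCommGroup H] [InnerProductSpace ℂ H] [CompleteSpace H]

lemma norm_hat (R : Rep A H) {z : A} (hz : IsStarProjection z) {ι κ : Type} [Fintype ι]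
    [Fintype κ] [DecidableEq ι] [DecidableEq κ] {p : ι → A} {q : κ → A}
    (hp : ∀ i j, star (p i) * p j = if i = j then z else 0)
    (hq : ∀ i j, star (q i) * q j = if i = j then z else 0) {X : ι → κ → A} (hX : Contr R X) :
    ‖∑ i, ∑ j, p i * X i j * star (q j)‖ ≤ 1 := by
  rw [← R.norm_π]
  refine ContinuousLinearMap.opNorm_le_bound _ zero_le_one fun v => ?_
  rw [one_mul, ← sq_le_sq₀ (norm_nonneg _) (norm_nonneg _)]
  simp only [map_sum, sum_apply, R.mul_apply]
  simp only [← map_sum]
  exact (bessel_row hz hp _).trans ((hX _).trans (bessel_col hz hq v))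

lemma norm_hat' (R : Rep A H) {z : A} (hz : IsStarProjection z) {ι : Type} [Fintype ι]
    [DecidableEq ι] {p : ι → A} (hp : ∀ i j, star (p i) * p j = if i = j then z else 0) (x : A) :
    ‖∑ i, p i * x * star (p i)‖ ≤ ‖x‖ + 1 := by
  have h0 : (0 : ℝ) < ‖x‖ + 1 := by positivity
  have := norm_hat R hz hp hp (contr_diag (y := ((‖x‖ + 1 : ℝ) : ℂ)⁻¹ • x) (by
    rw [norm_smul, norm_inv, Complex.norm_real, Real.norm_of_nonneg h0.le]
    exact inv_mul_le_one_of_le₀ (by linarith) h0.le))
  simp only [mul_ite, ite_mul, mul_zero, zero_mul, Finset.sum_ite_eq, Finset.mem_univ, if_true,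
    mul_smul_comm, smul_mul_assoc, ← Finset.smul_sum] at this
  rwa [norm_smul, norm_inv, Complex.norm_real, Real.norm_of_nonneg h0.le, inv_mul_le_iff₀ h0,
    mul_one] at this

theorem infA [PartialOrder A] [StarOrderedRing A] (R : Rep A H) {k : ℕ} (hk : 1 ≤ k) {c : ℝ}
    {φ : Fn A} (hφ : Co k c φ)
    (hd : dd k φ = 0) {z : A} (hz : IsStarProjection z) (hc : ∀ b, z * b = b * z) {s : ℕ → A}
    (hs : ∀ i j, star (s i) * s j = if i = j then z else 0) :
    ∃ (C : ℝ) (ψ : Fn A), (∀ (ι : Type) [Fintype ι] (β : ι → A), ∑ l, star (β l) * β l = 1 →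
      Co k C (col k β ψ) ∧ Fc k C (col k β ψ - fun a => z * φ a)) ∧
      ∀ x, ∃ t, En R k x Set.univ ψ t := by
  classical
  choose Φ hΦ hm using fun n : ℕ => exists_mod_units (t := fun i : Fin n => s i) hz
    (fun i j => by simp only [hs, Fin.ext_iff]) hφ hd
  obtain ⟨G, hl⟩ := exists_PL R.W (hyperfilter ℕ) (.of_forall fun n => (hΦ n).1)
  have hG := KK.lim hl (.of_forall hΦ)
  set F : Fn A := fun a => z * G a with hF
  have hFc : Co k (‖z‖ * c) F := hG.1.cmul hc
  have hM : ∀ m ≤ k, ∀ i j, Mod m (s i * star (s j)) F := fun m h i j a x y =>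
    congrArg (z * ·) ((hl _).eq_of (hl _) (((eventually_gt_atTop (max i j)).filter_mono
      Nat.hyperfilter_le_atTop).mono fun n hn => hm n m h ⟨i, by omega⟩ ⟨j, by omega⟩ a x y))
  have zz := hz.isIdempotentElem.eq
  have sz := mul_z hz hs
  have zs : ∀ i, z * s i = s i := fun i => by rw [hc, sz]
  have zs' : ∀ i, z * star (s i) = star (s i) := fun i => by
    simpa [hz.isSelfAdjoint.star_eq] using congrArg star (sz i)
  have zc : ∀ a b, a * (z * b) = z * (a * b) := fun a b => by rw [← mul_assoc, ← hc, mul_assoc]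
  have hss : ∀ i j b, star (s i) * (s j * b) = if i = j then z * b else 0 := fun i j b => by
    rw [← mul_assoc, hs]; split_ifs <;> simp
  have zz' : ∀ b, z * (z * b) = z * b := fun b => by rw [← mul_assoc, zz]
  have zs2 : ∀ i b, z * (s i * b) = s i * b := fun i b => by rw [← mul_assoc, zs]
  have sz2 : ∀ i b, s i * (z * b) = s i * b := fun i b => by rw [← mul_assoc, sz]
  have zs3 : ∀ i b, z * (b * star (s i)) = b * star (s i) := fun i b => by rw [← zc, zs']
  have hlast : ∀ a y p q, F (up2 a k y ((p + (1 - z)) * q)) = F (up2 a k y (p * q)) :=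
    fun a y p q => by
    rw [hFc.up2_right, hFc.up2_right _ _ (p * q), hF]
    simp only [hc (G _), add_mul, mul_add, mul_assoc, sub_mul, mul_sub, one_mul, zz', sub_self,
      add_zero]
  set w := s 0 + (1 - z) with hw
  have ws : star w * s 0 = z := by simp [hw, add_mul, sub_mul, hs, hz.isSelfAdjoint.star_eq, zs]
  have hiso : ∀ {ι : Type} [Fintype ι] (e : ι → ℕ) (β : ι → A), Function.Injective e →
      ∀ l, star (∑ l, s (e l) * β l + (1 - z)) * s (e l) = star (β l) * z := fun e β he l => by
    simp [add_mul, sub_mul, Finset.sum_mul, mul_assoc, hs, he.eq_iff, hz.isSelfAdjoint.star_eq, zs]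
  have hw1 : star w * w = 1 := by
    nth_rw 2 [hw]
    rw [mul_add, ws, hw]
    simp [mul_add, mul_sub, hz.isSelfAdjoint.star_eq, ← hc, zs', zz]
  refine ⟨‖z‖ * ((k + 1) * c), fun a => F (ray k (fun _ => w) a), fun ι _ β hβ => ?_, fun x => ?_⟩
  · let e : ι → ℕ := fun l => Fintype.equivFin ι l
    have he : Function.Injective e := Fin.val_injective.comp (Fintype.equivFin ι).injective
    set B := ∑ l, s (e l) * β l + (1 - z) with hB
    have hB1 : star B * B = 1 := by
      nth_rw 2 [hB]
      rw [mul_add, Finset.mul_sum]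
      simp only [← mul_assoc, hB, hiso e β he]
      simp only [mul_assoc, zc, ← Finset.mul_sum, hβ]
      simp [mul_add, mul_sub, hz.isSelfAdjoint.star_eq, ← hc, zz, Finset.mul_sum, zs3]
    have hu : ∀ i, star (Function.update (fun _ => w) k B i) * Function.update (fun _ => w) k B i =
        1 := fun i => by by_cases h : i = k <;> simp [h, hB1, hw1]
    have key : col k β (fun a => F (ray k (fun _ => w) a)) =
        fun a => F (ray k (Function.update (fun _ => w) k B) a) := funext fun a => by
      have e1 : ray k (Function.update (fun _ => w) k B) a =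
          up2 (ray k (fun _ => w) a) k (w * a k * star B) (B * a (k + 1)) := funext fun j => by
        simp only [up2, ray, Function.update_apply]
        split_ifs <;> first | omega | simp [*]
      have e2 : ∀ x y, ray k (fun _ => w) (up2 a k x y) =
          up2 (ray k (fun _ => w) a) k (w * x * star w) (w * y) := fun x y => funext fun j => by
        simp only [up2, ray]
        split_ifs <;> first | omega | simp [*]
      rw [e1, hB, hlast, ← hB, hFc.slot_sum le_rfl Finset.univ (b := fun l => up2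
        (ray k (fun _ => w) a) k (w * a k * star B) (s (e l) * β l * a (k + 1)))
        (by simp +contextual [up2]) (by simp [up2, Finset.sum_mul])]
      refine Finset.sum_congr rfl fun l _ => ?_
      have h1 := hM k le_rfl 0 0 (ray k (fun _ => w) a) (w * (a k * star (β l)) * star w)
        (s 0 * (β l * a (k + 1)))
      have h2 := hM k le_rfl (e l) 0 (ray k (fun _ => w) a) (w * a k * star B)
        (s 0 * (β l * a (k + 1)))
      simp only [mul_assoc, hss, if_true, sz2] at h1 h2
      rw [← mul_assoc (star w), ws, zs'] at h1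
      rw [← mul_assoc (star B), hB, hiso e β he, ← hB, mul_assoc, zs'] at h2
      simp only [e2]
      nth_rw 3 [hw]
      rw [hlast]
      simp only [mul_assoc]
      rw [← h1, h2]
    rw [key]
    refine ⟨(hFc.comp_ray hu).mono (mul_le_mul_of_nonneg_left (le_mul_of_one_le_left hφ.nonneg
      (by simp)) (norm_nonneg _)), ?_⟩
    convert (hG.2 _ hu).cmul hc using 1
    funext a
    simp [hF, mul_sub]
  · refine ⟨(‖x 0‖ * (‖z‖ * c * ∏ l ∈ Finset.range (k + 2), (‖x l‖ + 1))) ^ 2,
      fun ι κ _ _ X η hX _ => ?_⟩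
    let e : ι → ℕ := fun l => Fintype.equivFin ι l
    have he : Function.Injective e := Fin.val_injective.comp (Fintype.equivFin ι).injective
    let e' : κ → ℕ := fun l => Fintype.equivFin κ l
    have he' : Function.Injective e' := Fin.val_injective.comp (Fintype.equivFin κ).injective
    have hp : ∀ i j, star (s (e i)) * s (e j) = if i = j then z else 0 := fun i j => by
      simp only [hs, he.eq_iff]
    have hq : ∀ i j, star (s (e' i)) * s (e' j) = if i = j then z else 0 := fun i j => by
      simp only [hs, he'.eq_iff]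
    set Y := ∑ i, ∑ j, s (e i) * X i j * star (s (e' j)) with hY
    set y : ℕ → A := fun l => if l = 0 then 1 else ∑ i, s (e i) * x l * star (s (e i)) with hy
    set T := F (up2 y k Y 1) with hT
    have hTn : ‖T‖ ≤ ‖z‖ * c * ∏ l ∈ Finset.range (k + 2), (‖x l‖ + 1) := by
      refine (hFc.norm_le _).trans (mul_le_mul_of_nonneg_left (Finset.prod_le_prod
        (fun _ _ => norm_nonneg _) fun l _ => ?_) hFc.nonneg)
      have h1 : (1 : ℝ) ≤ ‖x l‖ + 1 := by simp
      simp only [up2, hy]
      split_ifs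
      exacts [(norm_hat R hz hp hq hX).trans h1, norm_one_le.trans h1, norm_one_le.trans h1,
        norm_hat' R hz hp _]
    have wb : ∀ b i, w * (b * (star w * (s 0 * star (s i)))) = s 0 * (b * star (s i)) :=
      fun b i => by
      rw [← mul_assoc (star w), ws, zs', hw, add_mul, sub_mul, zs3, one_mul, sub_self, add_zero]
    have key : ∀ i j, F (ray k (fun _ => w) (up2 x k (X i j) 1)) =
        x 0 * (star (s (e i)) * (T * s (e' j))) := fun i j => by
      set a := ray k (fun _ => w) (up2 x k (X i j) 1) with ha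
      have e1 : a = up2 a k (a k) (w * 1) := funext fun l => by
        simp only [up2]
        split_ifs with h1 h2
        · rw [h1]
        · simp [h2, ha, ray, up2]
        · rfl
      have h1 := hM k le_rfl 0 (e' j) a (a k) (s (e' j))
      have h2 := hM k le_rfl (e' j) (e' j) y Y (s (e' j))
      rw [mul_assoc, hs, if_pos rfl, sz] at h1 h2
      have h3 := tele (F := F) (k := k) (a := a)
        (a' := up2 y k (Y * (s (e' j) * star (s (e' j)))) (s (e' j)))
        (b := fun l => s 0 * star (s (if l < k then e i else e' j)))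
        (fun m hm => hM m hm.le _ _) fun l hl => by
          by_cases h : l + 1 = k
          · simp [ha, ray, up2, h, hl, mul_assoc, wb, hY, Finset.sum_mul, Finset.mul_sum, hss,
              he.eq_iff, he'.eq_iff, sz2, zs', show k ≠ 0 by omega]
          · simp [ha, ray, up2, h, hl, mul_assoc, wb, hy, Finset.mul_sum, hss,
              he.eq_iff, sz2, show l + 1 < k by omega, show l ≠ k by omega,
              show l + 1 ≤ k by omega]
      rw [e1, hw, hlast, mul_one, ← h1, hT, ← hFc.up2_right, ← h2, ← mul_assoc (x 0)]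
      refine (hFc.dep _ _ fun l hl => ?_).trans (h3.trans ((hFc.left _ (up2 y k
        (Y * (s (e' j) * star (s (e' j)))) (s (e' j))) _ (fun l hl => (if_neg hl).symm) ?_)))
      · simp only [up2]
        split_ifs <;> first | omega | simp
      · simp [ha, ray, up2, hy, show 0 ≠ k by omega, show 0 < k from hk, mul_assoc,
          ← mul_assoc (star w), ws, zs']
    simp only [key, R.mul_apply, ← map_sum]
    set v := ∑ j, R.π (s (e' j)) (η j)
    have h1 : ∀ (b : A) (ξ : H), ‖R.π b ξ‖ ^ 2 ≤ ‖b‖ ^ 2 * ‖ξ‖ ^ 2 := fun b ξ => by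
      rw [← mul_pow]
      exact pow_le_pow_left₀ (norm_nonneg _) (R.norm_apply_le b ξ) 2
    refine (Finset.sum_le_sum fun i _ => h1 _ _).trans ?_
    rw [← Finset.mul_sum, mul_pow, mul_assoc]
    refine mul_le_mul_of_nonneg_left ((bessel_col hz hp _).trans ((h1 _ _).trans ?_))
      (by positivity)
    exact mul_le_mul (pow_le_pow_left₀ (norm_nonneg _) hTn 2) (bessel_row hz hq _)
      (by positivity) (by positivity)

end Vale.Agent.P082
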