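import Vale.Agent.P082.Cut
import Vale.Agent.P104.HB
import Vale.Agent.P104.Col

/-! Job StrB: a central projection that no trace sees has a subprojection with many almost
orthogonal copies. -/

namespace Vale.Agent.P082

open Filter
open scoped InnerProductSpace

variable {A : Type*} [CStarAlgebra A] [PartialOrder A] [StarOrderedRing A] {H : Type*}
  [NormedAddCommGroup H] [InnerProductSpace ℂ H] [CompleteSpace H]

lemma traceless_gap {c : A} (hc : IsStarProjection c) (hN : Null c) :
    ∃ (ι : Type) (_ : Fintype ι) (a : ι → A) (l r : ℝ), r < l ∧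
      l • c + ∑ i, (a i * star (a i) - star (a i) * a i) ≤ algebraMap ℝ A r := by
  by_contra! h
  obtain ⟨φ, h1, -, h2⟩ := P104.exists_pf {s : A × ℝ | ∃ (ι : Type) (_ : Fintype ι) (a : ι → A),
    s.1 = s.2 • c + ∑ i, (a i * star (a i) - star (a i) * a i)} ⟨Empty, inferInstance, 0, by simp⟩
    (by
      rintro s ⟨ι, _, a, e⟩ t ⟨κ, _, b, e'⟩
      refine ⟨ι ⊕ κ, inferInstance, Sum.elim a b, ?_⟩
      simp only [Prod.fst_add, Prod.snd_add, e, e', Fintype.sum_sum_type, Sum.elim_inl,
        Sum.elim_inr, add_smul]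
      abel)
    (by
      rintro r hr s ⟨ι, _, a, e⟩
      refine ⟨ι, inferInstance, fun i => √r • a i, ?_⟩
      simp only [Prod.smul_fst, Prod.smul_snd, e, star_smul, star_trivial, smul_mul_smul_comm,
        Real.mul_self_sqrt hr.le, smul_add, smul_eq_mul, mul_smul, Finset.smul_sum, smul_sub])
    (by
      rintro s ⟨ι, _, a, e⟩
      simp [e, IsSelfAdjoint, hc.isSelfAdjoint.star_eq])
    (by
      rintro s ⟨ι, _, a, e⟩ r - hr
      exact not_lt.1 fun h' => h ι _ a _ r h' (e ▸ hr))
  have h3 : ∀ a, φ (star a * a) ≤ φ (a * star a) := fun a => by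
    simpa using h2 (a * star a - star a * a, 0) ⟨Unit, inferInstance, fun _ => a, by simp⟩
  have h4 : ∀ a, φ (star a * a) = φ (a * star a) := fun a =>
    (h3 a).antisymm (by simpa using h3 (star a))
  have h5 := hN φ ⟨h1.pos, h1.star, fun a b => by
    have e1 := h4 (a + star b)
    have e2 := h1.star (a * b)
    have e3 := h1.star (b * a)
    have e4 := h4 a
    have e5 := h4 b
    simp only [star_add, star_star, add_mul, mul_add, map_add, star_mul] at e1 e2 e3
    linarith⟩
  have h6 := h2 (c, 1) ⟨Empty, inferInstance, 0, by simp⟩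
  rw [hc.isSelfAdjoint.star_eq, hc.isIdempotentElem.eq] at h5
  simp only [h5] at h6
  linarith

lemma traceless_one {c : A} (hc : IsStarProjection c) (hz : ∀ b, c * b = b * c) (hN : Null c) :
    ∃ θ : ℝ, 0 ≤ θ ∧ θ < 1 ∧ ∃ (ι : Type) (_ : Fintype ι) (x : ι → A),
      ∑ i, star (x i) * x i = c ∧ ∑ i, x i * star (x i) ≤ θ • c := by
  obtain ⟨ι, _, a, l, r, hr, h⟩ := traceless_gap hc hN
  have cc := hc.isIdempotentElem.eq
  have cs := hc.isSelfAdjoint.star_eq
  have e1 : ∀ x y, x * c * (c * y) = c * (x * y) * c := fun x y => by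
    rw [← hz x, mul_assoc, ← mul_assoc x, ← hz x, ← mul_assoc, ← mul_assoc, cc, ← hz, ← mul_assoc,
      ← mul_assoc, cc]
  have e2 : ∀ x y, c * x * (y * c) = c * (x * y) * c := fun x y => by simp only [mul_assoc]
  set P := ∑ i, c * (star (a i) * a i) * c with hP
  set Q := ∑ i, c * (a i * star (a i)) * c with hQ
  have h1 : (l - r) • c + Q ≤ P := by
    have := hc.isSelfAdjoint.conjugate_le_conjugate h
    simp only [Algebra.algebraMap_eq_smul_one, mul_add, add_mul, mul_smul_comm, smul_mul_assoc,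
      cc, mul_one, Finset.mul_sum, Finset.sum_mul, mul_sub, sub_mul, Finset.sum_sub_distrib] at this
    rw [← sub_nonneg] at this ⊢
    convert this using 1
    rw [sub_smul]
    abel
  set N := ‖∑ i, star (a i) * a i‖ + (l - r) with hN
  have hN0 : l - r ≤ N := le_add_of_nonneg_left (norm_nonneg _)
  have hN1 : 0 < N := (sub_pos.2 hr).trans_le hN0
  have h2 : 0 ≤ N • c - P := by
    have := hc.isSelfAdjoint.conjugate_le_conjugate (IsSelfAdjoint.le_algebraMap_norm_self
      (a := ∑ i, star (a i) * a i) (by simp [IsSelfAdjoint]))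
    simp only [Algebra.algebraMap_eq_smul_one, mul_smul_comm, smul_mul_assoc, cc, mul_one,
      Finset.mul_sum, Finset.sum_mul] at this
    exact sub_nonneg.2 (this.trans (smul_le_smul_of_nonneg_right (by linarith) hc.nonneg))
  have h3 : √N⁻¹ * √N⁻¹ = N⁻¹ := Real.mul_self_sqrt (by positivity)
  refine ⟨N⁻¹ * (N - (l - r)), mul_nonneg (by positivity) (sub_nonneg.2 hN0), ?_, Option ι, inferInstance,
    fun o => √N⁻¹ • o.elim (CFC.sqrt (N • c - P)) fun i => c * a i, ?_, ?_⟩
  · rw [inv_mul_lt_iff₀ hN1]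
    linarith
  · simp only [star_smul, star_trivial, smul_mul_smul_comm, h3, ← Finset.smul_sum,
      Fintype.sum_option, Option.elim, star_mul, cs, e1, ← hP,
      (CFC.sqrt_nonneg (N • c - P)).isSelfAdjoint.star_eq, CFC.sqrt_mul_sqrt_self _ h2]
    rw [sub_add_cancel, inv_smul_smul₀ hN1.ne']
  · simp only [star_smul, star_trivial, smul_mul_smul_comm, h3, ← Finset.smul_sum,
      Fintype.sum_option, Option.elim, star_mul, cs, e2, ← hQ, mul_smul,
      (CFC.sqrt_nonneg (N • c - P)).isSelfAdjoint.star_eq, CFC.sqrt_mul_sqrt_self _ h2]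
    refine smul_le_smul_of_nonneg_left ?_ (by positivity)
    rw [← sub_nonneg] at h1 ⊢
    convert h1 using 1
    rw [sub_smul N]
    abel

theorem traceless {c : A} (hc : IsStarProjection c) (hz : ∀ b, c * b = b * c) (hN : Null c)
    {ε : ℝ} (hε : 0 < ε) : ∃ (ι : Type) (_ : Fintype ι) (x : ι → A),
      ∑ i, star (x i) * x i = c ∧ ∑ i, x i * star (x i) ≤ ε • c := by
  obtain ⟨θ, h0, h1, ι, _, x, e1, e2⟩ := traceless_one hc hz hN
  have cc := hc.isIdempotentElem.eq
  have cs := hc.isSelfAdjoint.star_eq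
  have key : ∀ n : ℕ, ∃ (ι : Type) (_ : Fintype ι) (x : ι → A),
      ∑ i, star (x i) * x i = c ∧ ∑ i, x i * star (x i) ≤ θ ^ n • c := fun n => by
    induction n with
    | zero => exact ⟨Unit, inferInstance, fun _ => c, by simp [cc, cs], by simp [cc, cs]⟩
    | succ n ih =>
      obtain ⟨κ, _, y, e3, e4⟩ := ih
      refine ⟨ι × κ, inferInstance, fun p => x p.1 * y p.2, ?_, ?_⟩
      · rw [Fintype.sum_prod_type_right]
        simp only [star_mul, mul_assoc, ← Finset.mul_sum]
        simp only [← mul_assoc, ← Finset.sum_mul, e1]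
        simp only [← hz, mul_assoc, ← Finset.mul_sum, e3, cc]
      · have e5 : ∑ i, x i * c * star (x i) = c * (∑ i, x i * star (x i)) * c := by
          rw [← hz, ← mul_assoc, cc, Finset.mul_sum]
          simp only [← hz, mul_assoc]
        rw [Fintype.sum_prod_type]
        simp only [star_mul, mul_assoc, ← Finset.mul_sum]
        simp only [← mul_assoc, ← Finset.sum_mul]
        refine (Finset.sum_le_sum fun i _ => star_right_conjugate_le_conjugate e4 (x i)).trans ?_
        simp only [mul_smul_comm, smul_mul_assoc, ← Finset.smul_sum, e5, pow_succ, mul_smul]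
        refine smul_le_smul_of_nonneg_left ?_ (by positivity)
        simpa [cc] using hc.isSelfAdjoint.conjugate_le_conjugate e2
  obtain ⟨n, hn⟩ := exists_pow_lt_of_lt_one hε h1
  obtain ⟨κ, _, y, e3, e4⟩ := key n
  exact ⟨κ, inferInstance, y, e3, e4.trans (smul_le_smul_of_nonneg_right hn.le hc.nonneg)⟩

lemma exists_seq_rec {α : Type*} [Inhabited α] (P : ℕ → (ℕ → α) → α → Prop)
    (h : ∀ n y, ∃ x, P n y x) (hc : ∀ n y y' x, (∀ i < n, y i = y' i) → P n y x → P n y' x) :
    ∃ y, ∀ n, P n y (y n) := by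
  choose f hf using h
  let Y : ℕ → ℕ → α := fun n => Nat.rec default (fun n v => Function.update v n (f n v)) n
  have e : ∀ n, Y (n + 1) = Function.update (Y n) n (f n (Y n)) := fun _ => rfl
  have h1 : ∀ n, ∀ i < n, Y n i = f i (Y i) := fun n => by
    induction n with
    | zero => simp
    | succ n ih =>
      intro i hi
      rw [e]
      by_cases h : i = n
      · simp [h]
      · rw [Function.update_of_ne h, ih i (by omega)]
  exact ⟨fun n => f n (Y n), fun n => hc n _ _ _ (h1 n) (hf n (Y n))⟩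

/-- The defect of a new almost isometry. -/
def dfc (c : A) (n : ℕ) (y : ℕ → A) (x : A) : A :=
  star (star x * x - c) * (star x * x - c) +
    ∑ i ∈ Finset.range n, star (star x * y i) * (star x * y i)

lemma dfc_step {c : A} (hc : IsStarProjection c) (hz : ∀ b, c * b = b * c) (hN : Null c)
    {ω : A →ₗ[ℝ] ℝ} (hω : P104.PF ω) {κ : ℝ} (hκ : 0 < κ) (n : ℕ) (y : ℕ → A) :
    ∃ x, ω (dfc c n y x) ≤ κ := by
  classical
  set M := ω ((2 : ℝ) • c + ∑ i ∈ Finset.range n, star (y i) * c * y i) with hM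
  have hM0 : 0 ≤ M := hω.pos _ (add_nonneg (smul_nonneg zero_le_two hc.nonneg)
    (Finset.sum_nonneg fun _ _ => star_left_conjugate_nonneg hc.nonneg _))
  obtain ⟨ι, _, x, e1, e2⟩ := traceless hc hz hN (ε := κ / (M + 1)) (by positivity)
  have h1 : ∑ ε : ι → Bool, dfc c n y (∑ i, P104.sgn (ε i) • x i) ≤
      (2 ^ Fintype.card ι * (κ / (M + 1))) •
        ((2 : ℝ) • c + ∑ i ∈ Finset.range n, star (y i) * c * y i) := by
    have h2 := P104.sign_quartic x
    have h3 := P104.sum_sgn_mul Finset.univ x fun i => star (x i)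
    rw [e1] at h2
    simp only [dfc, Finset.sum_add_distrib, smul_add]
    refine add_le_add (h2.trans ?_) ?_
    · refine (smul_le_smul_of_nonneg_left (Finset.sum_le_sum fun j _ =>
        star_left_conjugate_le_conjugate e2 (x j)) (by positivity)).trans_eq ?_
      simp only [mul_smul_comm, smul_mul_assoc, ← hz, mul_assoc, ← Finset.smul_sum,
        ← Finset.mul_sum, e1, hc.isIdempotentElem.eq, smul_smul]
      congr 1
      ring
    · rw [Finset.sum_comm, Finset.smul_sum]
      refine Finset.sum_le_sum fun i _ => ?_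
      have : ∑ ε : ι → Bool, star (star (∑ i, P104.sgn (ε i) • x i) * y i) *
          (star (∑ i, P104.sgn (ε i) • x i) * y i) = (2 ^ Fintype.card ι : ℝ) •
            (star (y i) * (∑ i, x i * star (x i)) * y i) := by
        rw [← smul_mul_assoc, ← mul_smul_comm, ← h3, Finset.mul_sum, Finset.sum_mul]
        simp [mul_assoc]
      rw [this, mul_smul]
      refine smul_le_smul_of_nonneg_left ?_ (by positivity)
      simpa using star_left_conjugate_le_conjugate e2 (y i)
  have h4 := hω.mono h1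
  rw [map_sum, map_smul, ← hM, smul_eq_mul] at h4
  obtain ⟨ε, -, h⟩ := Finset.exists_le_of_sum_le (f := fun ε : ι → Bool =>
    ω (dfc c n y (∑ i, P104.sgn (ε i) • x i))) (g := fun _ => κ / (M + 1) * M)
    Finset.univ_nonempty (by simpa [mul_assoc] using h4)
  refine ⟨_, h.trans ?_⟩
  rw [div_mul_eq_mul_div, div_le_iff₀ (by positivity)]
  nlinarith

lemma exists_inv {S : A} (hS : 0 ≤ S) : ∃ r : A, 0 ≤ r ∧ r * (1 + S) = 1 ∧ (1 + S) * r = 1 := by
  obtain ⟨q, h0, h1, h2⟩ := exists_isqrt one_pos (b := 1 + S) (by simpa)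
  refine ⟨q * q, ?_, by rw [mul_assoc, ← h2 _ rfl, ← mul_assoc, h1],
    by rw [← mul_assoc, h2 _ rfl, h1]⟩
  nth_rw 1 [← h0.isSelfAdjoint.star_eq]
  exact star_mul_self_nonneg q

lemma le_inv_var {b r : A} (hb : 0 ≤ b) (hr : 0 ≤ r) (h1 : r * b = 1) (h2 : b * r = 1) {x : A}
    (hx : 0 ≤ x) : x + x - x * b * x ≤ r := by
  have := (hx.isSelfAdjoint.sub hr.isSelfAdjoint).conjugate_nonneg hb
  rw [← sub_nonneg]
  convert this using 1
  simp only [sub_mul, mul_sub, h1, mul_assoc x b r, h2, one_mul, mul_one]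
  abel

lemma inv_anti {b r b' r' : A} (hb : 0 ≤ b) (hr : 0 ≤ r) (h1 : r * b = 1) (h2 : b * r = 1)
    (hr' : 0 ≤ r') (h1' : r' * b' = 1) (h : b ≤ b') : r' ≤ r := by
  refine le_trans ?_ (le_inv_var hb hr h1 h2 hr')
  have := hr'.isSelfAdjoint.conjugate_le_conjugate h
  rw [h1', one_mul] at this
  rwa [le_sub_iff_add_le, add_le_add_iff_left]

theorem many (R : Rep A H) {c : A} (hc : IsStarProjection c) (hz : ∀ b, c * b = b * c)
    (h0 : c ≠ 0) (hN : Null c) : ∃ e, IsStarProjection e ∧ e ≠ 0 ∧ c * e = e ∧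
      ∀ (m : ℕ) (κ : ℝ), 0 < κ → ∃ v : Fin m → A, (∀ i, v i * e = v i) ∧
        ∀ i j, ‖star (v i) * v j - if i = j then e else 0‖ ≤ κ := by
  have cc := hc.isIdempotentElem.eq
  have cs := hc.isSelfAdjoint.star_eq
  obtain ⟨ξ, hξ, h1⟩ : ∃ ξ, R.π c ξ = ξ ∧ ‖ξ‖ = 1 := by
    obtain ⟨η, hη⟩ : ∃ η, R.π c η ≠ 0 := by
      by_contra! h
      exact h0 (R.ext' (by simpa))
    exact ⟨(‖R.π c η‖⁻¹ : ℂ) • R.π c η, by rw [map_smul, ← R.mul_apply, cc], by
      simp [norm_smul, hη]⟩
  let ω : A →ₗ[ℝ] ℝ :=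
    { toFun := fun a => (⟪ξ, R.π a ξ⟫_ℂ).re
      map_add' := by simp
      map_smul' := fun r a => by
        rw [← Complex.coe_smul, map_smul, smul_apply, inner_smul_right, Complex.re_ofReal_mul]
        rfl }
  have hω' : ∀ a, ω a = (⟪ξ, R.π a ξ⟫_ℂ).re := fun _ => rfl
  have hω : P104.PF ω := ⟨fun a ha => (Rep.nonneg_iff.1 ha).2 ξ, fun a => by
    rw [hω', hω', R.inner_star_right, ← inner_conj_symm, Complex.conj_re]⟩
  have ω1 : ω 1 = 1 := by simp [hω', h1]
  have := Inhabited.mk (0 : A)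
  obtain ⟨y, hy⟩ := exists_seq_rec (fun n y x => ω (dfc c n y x) ≤ (1 / 4) ^ n / 4)
    (fun n y => dfc_step hc hz hN hω (by positivity) n y) fun n y y' x e h => by
      rwa [dfc, Finset.sum_congr rfl fun i hi => by rw [e i (Finset.mem_range.1 hi)]] at h
  have d0 : ∀ n, 0 ≤ (2 : ℝ) ^ n • dfc c n y (y n) := fun n => smul_nonneg (by positivity)
    (add_nonneg (star_mul_self_nonneg _) (Finset.sum_nonneg fun _ _ => star_mul_self_nonneg _))
  have S0 : ∀ N, 0 ≤ ∑ n ∈ Finset.range N, (2 : ℝ) ^ n • dfc c n y (y n) := fun N =>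
    Finset.sum_nonneg fun n _ => d0 n
  choose r r0 r1 r2 using fun N => exists_inv (S0 N)
  obtain ⟨ρ, hρ⟩ := R.W.exists_T (hyperfilter ℕ) (x := r) (r := 1) (.of_forall fun N =>
    (CStarAlgebra.norm_le_one_iff_of_nonneg _ (r0 N)).2 (inv_anti zero_le_one zero_le_one
      (one_mul _) (one_mul _) (r0 N) (r1 N) (le_add_of_nonneg_right (S0 N))))
  have ρ0 : 0 ≤ ρ := Rep.T_nonneg hρ (.of_forall r0)
  have ρ1 : 1 / 2 ≤ ω ρ := ge_of_tendsto ((Complex.continuous_re.tendsto _).comp
    (Rep.W_T.1 hρ ξ ξ)) (.of_forall fun N => by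
      have h2 := hω.mono (le_inv_var (add_nonneg zero_le_one (S0 N)) (r0 N) (r1 N) (r2 N)
        zero_le_one)
      have h3 : ∑ n ∈ Finset.range N, 2 ^ n * ω (dfc c n y (y n)) ≤
          ∑ n ∈ Finset.range N, (1 / 2) ^ n / 4 := Finset.sum_le_sum fun n _ =>
        (mul_le_mul_of_nonneg_left (hy n) (by positivity)).trans_eq (by
          rw [← mul_div_assoc, ← mul_pow]; norm_num)
      have h4 := sum_geometric_two_le N
      rw [← Finset.sum_div] at h3
      simp only [one_mul, mul_one, map_sub, map_add, map_sum, map_smul, smul_eq_mul, ω1] at h2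
      change _ ≤ ω (r N)
      linarith)
  have cρ : c * ρ = c * ρ * c := by rw [← hz, ← mul_assoc, cc]
  obtain ⟨e, he, e0, h2⟩ := exists_cut R (a := c * ρ)
    (cρ ▸ hc.isSelfAdjoint.conjugate_nonneg ρ0) (δ := 1 / 4) (by norm_num) fun h => by
      have := hω.mono h
      rw [Algebra.algebraMap_eq_smul_one, map_smul, ω1, hω', R.mul_apply, ← R.inner_star_left, cs,
        hξ, ← hω', smul_eq_mul] at this
      linarith
  have ee := he.isIdempotentElem.eq
  have es := he.isSelfAdjoint.star_eq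
  have ce : c * e = e := by
    have := mul_eq_zero_of_le (by norm_num) he h2 (y := 1 - c) (by rw [mul_sub, mul_one, ← cρ,
      sub_self])
    rw [mul_sub, mul_one, sub_eq_zero] at this
    rw [hz, ← this]
  have h3 : c * ρ ≤ ρ := by
    have := hc.one_sub.isSelfAdjoint.conjugate_nonneg ρ0
    rw [← sub_nonneg]
    convert this using 1
    simp only [sub_mul, mul_sub, one_mul, mul_one, ← hz, ← mul_assoc, cc, sub_self, sub_zero]
  have h4 : ∀ n a, star a * a ≤ dfc c n y (y n) → ‖a * e‖ ^ 2 ≤ 4 * (1 / 2) ^ n := fun n a ha => by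
    obtain ⟨q, q0, q1, q2⟩ := exists_inv (d0 n)
    have b0 := add_nonneg zero_le_one (d0 n)
    have h5 : ρ ≤ q := Rep.T_le hρ (((eventually_gt_atTop n).filter_mono
      Nat.hyperfilter_le_atTop).mono fun N hN => inv_anti b0 q0 q1 q2 (r0 N) (r1 N)
        (add_le_add le_rfl (Finset.single_le_sum (fun n _ => d0 n) (Finset.mem_range.2 hN))))
    have h8 : (2 : ℝ) ^ n • (star a * a) ≤ 1 + (2 : ℝ) ^ n • dfc c n y (y n) :=
      le_add_of_nonneg_of_le zero_le_one (smul_le_smul_of_nonneg_left ha (by positivity))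
    set b := 1 + (2 : ℝ) ^ n • dfc c n y (y n)
    have h6 := star_left_conjugate_le_conjugate ((h2.trans h3).trans h5) (b * e)
    have T0 := he.isSelfAdjoint.conjugate_nonneg b0
    have e1 : star (b * e) * ((1 / 4 : ℝ) • e) * (b * e) =
        (1 / 4 : ℝ) • (star (e * b * e) * (e * b * e)) := by
      simp only [star_mul, es, mul_smul_comm, smul_mul_assoc, mul_assoc, ← mul_assoc e e, ee]
    rw [e1, star_mul b, es, b0.isSelfAdjoint.star_eq, mul_assoc e b q, q2, mul_one,
      ← mul_assoc e b e] at h6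
    have h7 := CStarAlgebra.norm_le_norm_of_nonneg_of_le
      (smul_nonneg (by norm_num) (star_mul_self_nonneg _)) h6
    have h9 := CStarAlgebra.norm_le_norm_of_nonneg_of_le (he.isSelfAdjoint.conjugate_nonneg
      (smul_nonneg (by positivity) (star_mul_self_nonneg _)))
        (he.isSelfAdjoint.conjugate_le_conjugate h8)
    have e2 : e * (star a * a) * e = star (a * e) * (a * e) := by simp [es, mul_assoc]
    rw [mul_smul_comm, smul_mul_assoc, e2, norm_smul, CStarRing.norm_star_mul_self,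
      Real.norm_of_nonneg (by positivity)] at h9
    rw [norm_smul, CStarRing.norm_star_mul_self, Real.norm_of_nonneg (by norm_num)] at h7
    have h10 : ‖e * b * e‖ ≤ 4 := by nlinarith
    rw [one_div, inv_pow, ← div_eq_mul_inv, le_div_iff₀ (by positivity)]
    linarith
  refine ⟨e, he, e0, ce, fun m κ hκ => ?_⟩
  obtain ⟨J, hJ⟩ := exists_pow_lt_of_lt_one (show 0 < κ ^ 2 / 4 by positivity)
    (show (1 / 2 : ℝ) < 1 by norm_num)
  have h5 : ∀ n a, star a * a ≤ dfc c (J + n) y (y (J + n)) → ‖e * a * e‖ ≤ κ := fun n a ha => by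
    have h6 : (1 / 2 : ℝ) ^ (J + n) ≤ (1 / 2) ^ J :=
      pow_le_pow_of_le_one (by norm_num) (by norm_num) (by omega)
    have h7 : ‖a * e‖ ≤ κ := abs_le_of_sq_le_sq' (by linarith [h4 _ a ha]) hκ.le |>.2
    rw [mul_assoc]
    exact (norm_mul_le _ _).trans ((mul_le_of_le_one_left (norm_nonneg _) he.norm_le).trans h7)
  have h6 : ∀ i j : Fin m, j < i → ‖star (y (J + i) * e) * (y (J + j) * e)‖ ≤ κ := fun i j h => by
    refine le_trans (le_of_eq ?_) (h5 i (star (y (J + i)) * y (J + j))
      (le_add_of_nonneg_of_le (star_mul_self_nonneg _) (Finset.single_le_sum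
        (f := fun l => star (star (y (J + i)) * y l) * (star (y (J + i)) * y l))
        (fun _ _ => star_mul_self_nonneg _) (Finset.mem_range.2 (by omega)))))
    simp only [star_mul, es, mul_assoc]
  refine ⟨fun i => y (J + i) * e, fun i => by rw [mul_assoc, ee], fun i j => ?_⟩
  rcases lt_trichotomy i j with h | rfl | h
  · rw [if_neg h.ne, sub_zero, ← norm_star, star_mul, star_star]
    exact h6 j i h
  · refine le_trans (le_of_eq ?_) (h5 i (star (y (J + i)) * y (J + i) - c)
      (le_add_of_nonneg_right (Finset.sum_nonneg fun _ _ => star_mul_self_nonneg _)))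
    simp only [star_mul, es, mul_assoc, if_true, mul_sub, sub_mul, ce, ee]
  · rw [if_neg h.ne', sub_zero]
    exact h6 i j h

end Vale.Agent.P082
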