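import Vale.Agent.P082.StrA
import Vale.Agent.P082.StrB

/-! Job StrC: the decomposition into a properly infinite part and a part separated by traces. -/

namespace Vale.Agent.P082

variable {A : Type*} [CStarAlgebra A] [PartialOrder A] [StarOrderedRing A] {H : Type*}
  [NormedAddCommGroup H] [InnerProductSpace ℂ H] [CompleteSpace H]

lemma normalize {c w : A} (hc : IsStarProjection c) (hz : ∀ b, c * b = b * c) (hw : w * c = w)
    (h : ‖star w * w - c‖ ≤ 1 / 2) : ∃ r, star (w * r) * (w * r) = c ∧ ‖r‖ ≤ 2 := by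
  have hs : IsSelfAdjoint (star w * w - c) := (IsSelfAdjoint.star_mul_self w).sub hc.isSelfAdjoint
  have h1 : algebraMap ℝ A (1 / 2) ≤ star w * w + (1 - c) := by
    have h2 := hs.neg_algebraMap_norm_le_self
    have h3 : algebraMap ℝ A ‖star w * w - c‖ ≤ algebraMap ℝ A (1 / 2) := by
      rw [← sub_nonneg, ← map_sub, Algebra.algebraMap_eq_smul_one]
      exact smul_nonneg (sub_nonneg.2 h) zero_le_one
    have h4 : algebraMap ℝ A (1 / 2) = 1 - algebraMap ℝ A (1 / 2) := by
      rw [eq_sub_iff_add_eq, ← map_add]; norm_num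
    calc algebraMap ℝ A (1 / 2) = 1 + -algebraMap ℝ A (1 / 2) := by rw [← sub_eq_add_neg, ← h4]
      _ ≤ 1 + (star w * w - c) := by gcongr; exact (neg_le_neg h3).trans h2
      _ = _ := by abel
  obtain ⟨r, hr, h2, -⟩ := exists_isqrt (by norm_num) h1
  refine ⟨r, ?_, ?_⟩
  · have : c * (star w * w + (1 - c)) = star w * w := by
      rw [mul_add, hc.isIdempotentElem.mul_one_sub_self, add_zero, hz, mul_assoc, hw]
    rw [star_mul, hr.isSelfAdjoint.star_eq, mul_assoc, ← mul_assoc (star w), ← this, ← mul_assoc,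
      ← mul_assoc, ← hz, mul_assoc c, mul_assoc c, h2, mul_one]
  · have h3 := hr.isSelfAdjoint.conjugate_le_conjugate h1
    rw [h2, Algebra.algebraMap_eq_smul_one, mul_smul_comm, smul_mul_assoc, mul_one] at h3
    have h4 := CStarAlgebra.norm_le_norm_of_nonneg_of_le
      (smul_nonneg (by norm_num) hr.isSelfAdjoint.mul_self_nonneg) h3
    have h5 := CStarRing.norm_star_mul_self (x := r)
    rw [hr.isSelfAdjoint.star_eq] at h5
    rw [norm_smul, h5, Real.norm_of_nonneg (by norm_num)] at h4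
    nlinarith [norm_one_le (A := A), norm_nonneg r]

theorem PI_of_approx {c s t : A} (hc : IsStarProjection c) (hz : ∀ b, c * b = b * c)
    (hs : s * c = s) (ht : t * c = t) (h1 : ‖star s * s - c‖ ≤ 1 / 10)
    (h2 : ‖star t * t - c‖ ≤ 1 / 10) (h3 : ‖star s * t‖ ≤ 1 / 10) : PI c := by
  obtain ⟨r, hr, hr'⟩ := normalize hc hz hs (h1.trans (by norm_num))
  have h4 : ‖star (s * r) * t‖ ≤ 1 / 5 := by
    rw [star_mul, mul_assoc]
    refine (norm_mul_le _ _).trans ?_
    rw [norm_star]
    nlinarith [norm_nonneg r, norm_nonneg (star s * t)]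
  generalize s * r = u at hr h4
  have hu : IsStarProjection (star u * u) := hr ▸ hc
  have hp := (piso_star hu).one_sub
  have h5 : star ((1 - u * star u) * t) * ((1 - u * star u) * t) - c =
      (star t * t - c) - star (star u * t) * (star u * t) := by
    rw [star_mul, hp.isSelfAdjoint.star_eq, mul_assoc, ← mul_assoc (1 - _),
      hp.isIdempotentElem.eq, star_mul, star_star]
    noncomm_ring
  obtain ⟨r', h6, -⟩ := normalize hc hz (w := (1 - u * star u) * t) (by rw [mul_assoc, ht]) (by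
    rw [h5]
    refine (norm_sub_le _ _).trans ?_
    rw [CStarRing.norm_star_mul_self]
    nlinarith [norm_nonneg (star u * t)])
  refine ⟨hc, hz, u, _, hr, h6, ?_⟩
  rw [← mul_assoc, ← mul_assoc, mul_sub, piso_star_mul hu, mul_one, sub_self, zero_mul, zero_mul]

lemma PI_of_approx' {c s t : A} (hc : IsStarProjection c) (hz : ∀ b, c * b = b * c)
    (h1 : ‖star s * s - c‖ ≤ 1 / 10) (h2 : ‖star t * t - c‖ ≤ 1 / 10)
    (h3 : ‖star s * t‖ ≤ 1 / 10) : PI c := by
  have cc := hc.isIdempotentElem.eq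
  have k : ∀ x y : A, star (x * c) * (y * c) = c * (star x * y) := fun x y => by
    rw [star_mul, hc.isSelfAdjoint.star_eq, ← hz y, mul_assoc, ← mul_assoc (star x), ← hz,
      mul_assoc, ← mul_assoc, cc]
  have k2 : ∀ x : A, ‖x‖ ≤ 1 / 10 → ‖c * x‖ ≤ 1 / 10 := fun x hx => (norm_mul_le _ _).trans (by
    nlinarith [hc.norm_le, norm_nonneg c, norm_nonneg x])
  refine PI_of_approx (s := s * c) (t := t * c) hc hz (by rw [mul_assoc, cc])
    (by rw [mul_assoc, cc]) ?_ ?_ (k _ _ ▸ k2 _ h3)
  · simpa only [k, mul_sub, cc] using k2 _ h1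
  · simpa only [k, mul_sub, cc] using k2 _ h2

lemma Null.mul_left {x : A} (h : Null x) (y : A) : Null (y * x) := fun τ hτ => by
  have h1 := hτ.pos _ (sub_nonneg.2 (CStarAlgebra.star_left_conjugate_le_norm_smul (a := x)
    (IsSelfAdjoint.star_mul_self y)))
  rw [map_sub, map_smul, h τ hτ, smul_zero, zero_sub, neg_nonneg] at h1
  refine le_antisymm ?_ (hτ.pos _ (star_mul_self_nonneg _))
  rwa [star_mul, mul_assoc, ← mul_assoc (star y), ← mul_assoc]

omit [StarOrderedRing A] in
lemma Null.star {x : A} (h : Null x) : Null (star x) := fun τ hτ => by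
  rw [star_star, hτ.comm, h τ hτ]

lemma Null.mul_right {x : A} (h : Null x) (y : A) : Null (x * y) := by
  simpa using (h.star.mul_left (Star.star y)).star

omit [PartialOrder A] [StarOrderedRing A] in
lemma PI.exists_seq {z : A} (h : PI z) :
    ∃ s : ℕ → A, ∀ i j, star (s i) * s j = if i = j then z else 0 := by
  obtain ⟨hp, hz, s, t, hs, ht, hst⟩ := h
  have e1 : s * z = s := by simpa only [hs] using piso_mul (v := s) (hs ▸ hp)
  refine ⟨fun i => t ^ i * s, fun i => ?_⟩
  induction i with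
  | zero =>
    rintro (_ | j)
    · simpa using hs
    · simp [pow_succ', ← mul_assoc, hst]
  | succ i ih =>
    rintro (_ | j)
    · have : star t * s = 0 := by simpa using congrArg star hst
      simp [pow_succ', mul_assoc, this]
    · have := ih j
      dsimp only at this ⊢
      rw [pow_succ', pow_succ', mul_assoc, mul_assoc, star_mul, mul_assoc, ← mul_assoc (star t),
        ht, hz, mul_assoc, e1, this]
      simp

theorem decomp (R : Rep A H) : ∃ (z : A) (s : ℕ → A), IsStarProjection z ∧ (∀ b, z * b = b * z) ∧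
    (∀ i j, star (s i) * s j = if i = j then z else 0) ∧ ∀ x, Null x → (1 - z) * x = 0 := by
  obtain ⟨z, hz, hmax⟩ := exists_max_PI R
  obtain ⟨s, hs⟩ := hz.exists_seq
  obtain ⟨hp, hc, -⟩ := hz
  refine ⟨z, s, hp, hc, hs, fun x hx => ?_⟩
  have hc' : ∀ b, (1 - z) * b = b * (1 - z) := fun b => by
    rw [sub_mul, mul_sub, hc, one_mul, mul_one]
  have key : ∀ c p, PI c → z * p = 0 → c * p = 0 := by
    rintro c p ⟨h1, h2, u, v, hu, hv, huv⟩ h0
    have k : ∀ x y : A, star (x * (1 - z)) * (y * (1 - z)) = star x * y * (1 - z) := fun x y => by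
      rw [star_mul, hp.one_sub.isSelfAdjoint.star_eq, hc', mul_assoc, ← mul_assoc (1 - z), hc' y,
        mul_assoc, hp.one_sub.isIdempotentElem.eq, mul_assoc]
    have := hmax (c * (1 - z)) ⟨h1.mul hp.one_sub (h2 _), fun b => by
      rw [mul_assoc, hc', ← mul_assoc, h2, mul_assoc], u * (1 - z), v * (1 - z), by rw [k, hu],
      by rw [k, hv], by rw [k, huv, zero_mul]⟩
      (by rw [mul_assoc, hp.isIdempotentElem.one_sub_mul_self, mul_zero])
    rw [mul_sub, mul_one, sub_eq_zero] at this
    rw [this, mul_assoc, h0, mul_zero]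
  have fin : ∀ p, IsStarProjection p → p ≠ 0 → z * p = 0 → ∃ (c : A) (n : ℕ) (y : Fin n → A),
      IsStarProjection c ∧ (∀ b, c * b = b * c) ∧ c ≠ 0 ∧ (∀ i, p * y i = y i) ∧
        c = ∑ i, star (y i) * y i ∧ z * c = 0 := fun p h1 h2 h3 => by
    obtain ⟨c, h4, h5⟩ | ⟨c, n, y, h4, h5, h6, h7, h8⟩ := copies R h1 h2
    · exact absurd (key c p h4 h3) h5
    refine ⟨c, n, y, h4, h5, h6, h7, h8, ?_⟩
    rw [h8, Finset.mul_sum]
    exact Finset.sum_eq_zero fun i _ => by
      rw [← mul_assoc, hc, mul_assoc, ← h7, ← mul_assoc z, h3, zero_mul, mul_zero]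
  by_contra h0
  obtain ⟨y, y0, y1, -⟩ := exists_piso R h0
  have y2 : Null ((1 - z) * x * y) := (hx.mul_left _).mul_right _
  have y3 : z * ((1 - z) * x * y) = 0 := by
    rw [← mul_assoc, ← mul_assoc, hp.isIdempotentElem.mul_one_sub_self, zero_mul, zero_mul]
  generalize (1 - z) * x * y = w at y0 y1 y2 y3
  obtain ⟨c, n, y, c1, c2, c3, c4, c5, c6⟩ := fin _ y1
    (fun h => y0 ((CStarRing.star_mul_self_eq_zero_iff _).1 h))
    (by rw [← mul_assoc, hc, mul_assoc, y3, mul_zero])
  obtain ⟨e, e1, e2, e3, e4⟩ := many R c1 c2 c3 fun τ hτ => by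
    rw [c1.isSelfAdjoint.star_eq, c1.isIdempotentElem.eq, c5, map_sum]
    exact Finset.sum_eq_zero fun i _ => c4 i ▸ (y2.mul_left _).mul_right (y i) τ hτ
  obtain ⟨d, m, u, d1, d2, d3, d4, d5, d6⟩ := fin e e1 e2
    (by rw [← e3, ← mul_assoc, c6, zero_mul])
  set M := ∑ i, ‖u i‖
  have hM : 0 ≤ M := Finset.sum_nonneg fun _ _ => norm_nonneg _
  obtain ⟨v, -, hv⟩ := e4 (m + m) (1 / (10 * (M * M + 1))) (by positivity)
  have k : ∀ f g : Fin m → Fin (m + m), ‖star (∑ a, v (f a) * u a) * ∑ a, v (g a) * u a -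
      ∑ a, ∑ b, star (u a) * (if f a = g b then e else 0) * u b‖ ≤ 1 / 10 := fun f g => by
    rw [star_sum, Finset.sum_mul_sum, ← Finset.sum_sub_distrib]
    simp only [← Finset.sum_sub_distrib]
    calc _ ≤ ∑ a, ∑ b, ‖u a‖ * ‖u b‖ * (1 / (10 * (M * M + 1))) := by
          refine norm_sum_le_of_le _ fun a _ => norm_sum_le_of_le _ fun b _ => ?_
          rw [star_mul, mul_assoc, ← mul_assoc (star (v _)), ← mul_assoc, ← sub_mul, ← mul_sub,
            mul_right_comm]
          refine (norm_mul₃_le).trans ?_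
          rw [norm_star]
          gcongr
          exact hv _ _
      _ = M * M * (1 / (10 * (M * M + 1))) := by
          simp only [← Finset.sum_mul, ← Finset.mul_sum, M]
      _ ≤ 1 / 10 := by
          rw [mul_one_div, div_le_div_iff₀ (by positivity) (by positivity)]
          linarith
  have k2 : ∀ f : Fin m → Fin (m + m), f.Injective →
      ‖star (∑ a, v (f a) * u a) * ∑ a, v (f a) * u a - d‖ ≤ 1 / 10 := fun f hf => by
    simpa [hf.eq_iff, mul_assoc, d4, ← d5] using k f f
  have := PI_of_approx' d1 d2 (k2 _ (Fin.castAdd_injective m m)) (k2 _ (Fin.natAdd_injective m m))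
    (by
      have h : ∀ a b, Fin.castAdd m a ≠ Fin.natAdd m b := fun a b h => by
        have := congrArg Fin.val h
        simp only [Fin.val_castAdd, Fin.val_natAdd] at this
        omega
      simpa only [h, if_false, mul_zero, zero_mul, Finset.sum_const_zero, sub_zero] using
        k (Fin.castAdd m) (Fin.natAdd m))
  exact d3 (d1.isIdempotentElem.eq.symm.trans (key d d this d6))

end Vale.Agent.P082
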