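import Vale.Agent.P082.Faces
import Vale.Agent.P082.Amp
import Vale.Agent.P082.FinA
import Vale.Agent.P082.Ext
import Vale.Agent.P082.InfA
import Vale.Agent.P082.InfB
import Vale.Agent.P082.StrC
import Vale.Agent.P082.Conv

/-! Vanishing of bounded Hochschild cohomology. -/

namespace Vale.Agent.P082

open Filter

variable {A : Type*} [CStarAlgebra A] [PartialOrder A] [StarOrderedRing A] {H : Type*}
  [NormedAddCommGroup H] [InnerProductSpace ℂ H] [CompleteSpace H] {k : ℕ} {c : ℝ} {φ : Fn A}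

theorem fin_part (W : WL A) (hφ : Co k c φ) (hd : dd k φ = 0) {z : A} (hz : ∀ b, z * b = b * z)
    (hN : ∀ x, Null x → z * x = 0) :
    ∃ c0 F0, Co k c0 F0 ∧ Bal 0 F0 ∧ (fun a => z * φ a) - F0 ∈ DD 1 k := by
  obtain ⟨c', φ', h1, h2, h3⟩ := exists_amp (n := Fin (k + 1)) hφ hd
  let Z : CStarMatrix (Fin (k + 1)) (Fin (k + 1)) A := CStarMatrix.ofMatrix (.diagonal fun _ => z)
  have hZ : ∀ (x : CStarMatrix (Fin (k + 1)) (Fin (k + 1)) A) p q, (Z * x) p q = z * x p q :=
    fun x p q => Matrix.diagonal_mul _ _ _ _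
  have hZ' : ∀ x, Z * x = x * Z := fun x => CStarMatrix.ext fun p q => by
    rw [hZ, hz]; exact (Matrix.mul_diagonal (fun _ => z) x p q).symm
  obtain ⟨F, hF, ζ, hζ, h4⟩ := finA (W.mat _) h1 h2 hZ' fun x hx =>
    CStarMatrix.ext fun p q => (hZ x p q).trans (hN _ (hx.entry p q))
  refine extract (hφ.cmul hz) (h1.cmul hZ') (fun p q a => ?_)
    ((Fc.of_bal ((pr_co k).cmul hζ) k.zero_le ((pr_bal (by omega)).map (ζ * ·))).add
      ((KK.fc hF).cmul hZ').neg) fun g g' e1 e2 => ?_
  · rw [h3]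
    split_ifs
    · ext i j
      simp [hZ, E_apply]
    · exact mul_zero _
  · simp [← h4 g g' e1 e2, mul_sub]

omit [PartialOrder A] [StarOrderedRing A] in
lemma col_col {F : Fn A} {ι κ : Type} [Fintype ι] [Fintype κ] (β : ι → A) (γ : κ → A) :
    col k γ (col k β F) = col k (fun p : κ × ι => β p.2 * γ p.1) F := by
  ext a
  simp only [col, Fintype.sum_prod_type]
  refine Finset.sum_congr rfl fun m _ => Finset.sum_congr rfl fun l _ => congrArg F ?_
  ext j
  simp only [up2]
  split_ifs <;> first | omega | simp [mul_assoc]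

omit [PartialOrder A] [StarOrderedRing A] in
lemma col_one {F : Fn A} : col k (fun _ : Unit => 1) F = F := by
  ext a
  simp only [col, Fintype.sum_unique]
  refine congrArg F (funext fun j => ?_)
  simp only [up2]
  split_ifs <;> simp [*]

theorem inf_part (R : Rep A H) (hk : 1 ≤ k) (hφ : Co k c φ) (hd : dd k φ = 0) {z : A}
    (hz : IsStarProjection z) (hc : ∀ b, z * b = b * z) {s : ℕ → A}
    (hs : ∀ i j, star (s i) * s j = if i = j then z else 0) : ∃ C, Fc k C fun a => z * φ a := by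
  obtain ⟨C, ψ, h1, h2⟩ := infA R hk hφ hd hz hc hs
  choose t ht using h2
  let Ω : Set (Fn A) := {F | (∀ (ι : Type) [Fintype ι] (β : ι → A), ∑ l, star (β l) * β l = 1 →
    Co k C (col k β F) ∧ Fc k C (col k β F - fun a => z * φ a)) ∧ ∀ x, En R k x Set.univ F (t x)}
  have h3 : ∀ F ∈ Ω, Co k C F ∧ Fc k C (F - fun a => z * φ a) := fun F hF => by
    simpa only [col_one] using hF.1 Unit (fun _ => 1) (by simp)
  obtain ⟨F, hF, hB⟩ := infB (R := R) Ω ⟨ψ, h1, ht⟩ (fun F hF => (h3 F hF).1)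
    (fun F hF ι _ β hβ => ⟨fun κ _ γ hγ => by
      rw [col_col]
      refine hF.1 _ _ ?_
      simp only [Fintype.sum_prod_type, star_mul, mul_assoc, ← Finset.mul_sum]
      simp only [← mul_assoc, ← Finset.sum_mul, hβ, one_mul, hγ],
      fun x => (hF.2 x).col (h3 F hF).1 (fun _ _ _ => Set.mem_univ _) hβ⟩)
    (fun U G hU hG => ⟨fun ι _ β hβ => by
      have : PL R.W U (fun F => col k β F) (col k β G) := fun a => .sum _ fun l _ => hG _
      exact ⟨.lim this (mem_of_superset hU fun F hF => (hF.1 ι β hβ).1), .lim (W := R.W)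
        (fun a => (this a).sub (.const _)) (mem_of_superset hU fun F hF => (hF.1 ι β hβ).2)⟩,
      fun x => .lim hG (mem_of_superset hU fun F hF => hF.2 x)⟩)
    fun x => ⟨t x, fun F hF => hF.2 x⟩
  exact ⟨_, by simpa using (Fc.of_bal (h3 F hF).1 le_rfl hB).add (h3 F hF).2.neg⟩

theorem vanish (R : Rep A H) (c : ℝ) (φ : Fn A) (hφ : Co (k + 1) c φ) (hd : dd (k + 1) φ = 0) :
    ∃ c' G, Co k c' G ∧ dd k G = φ := by
  obtain ⟨z, s, h1, h2, h3, h4⟩ := decomp R
  obtain ⟨C, h5⟩ := inf_part R (by omega) hφ hd h1 h2 h3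
  obtain ⟨F1, e1, e2, e3⟩ := h5.split
  obtain ⟨c0, F0, f1, f2, f3⟩ := fin_part R.W hφ hd (z := 1 - z) (fun b => by
    rw [sub_mul, mul_sub, h2, one_mul, mul_one]) h4
  refine faces hφ hd (e1.add f1) (e2.map₂ f2 (· + ·)) ?_
  convert add_mem e3 f3 using 1
  ext a
  simp only [Pi.sub_apply, Pi.add_apply, sub_mul, one_mul]
  abel

theorem vn_closed (M : VonNeumannAlgebra H) :
    IsClosed (M.toStarSubalgebra : Set (H →L[ℂ] H)) := by
  rw [M.coe_toStarSubalgebra, ← M.centralizer_centralizer]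
  exact Set.isClosed_centralizer _

attribute [local instance] vn_closed in
/-- The defining representation. -/
noncomputable def vnRep (M : VonNeumannAlgebra H) : Rep M.toStarSubalgebra H where
  π := M.toStarSubalgebra.subtype
  inj := Subtype.val_injective
  bic T h := ⟨⟨T, by
    change T ∈ M
    rw [← M.commutant_commutant, VonNeumannAlgebra.mem_commutant_iff]
    exact fun S hS => h S fun a => (VonNeumannAlgebra.mem_commutant_iff.1 hS _ a.2).symm⟩, rfl⟩

theorem kadison_ringrose (M : VonNeumannAlgebra H) (n : ℕ)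
    (f : ContinuousMultilinearMap ℂ (fun _ : Fin (n + 1) => M.toStarSubalgebra) M.toStarSubalgebra)
    (hf : ∀ a : Fin (n + 2) → M.toStarSubalgebra, a 0 * f (Fin.tail a) +
      ∑ j : Fin (n + 1), (-1 : ℂ) ^ (j.val + 1) • f (Fin.contractNth j.castSucc (· * ·) a) +
      (-1 : ℂ) ^ (n + 2) • (f (Fin.init a) * a (Fin.last (n + 1))) = 0) :
    ∃ g : ContinuousMultilinearMap ℂ (fun _ : Fin n => M.toStarSubalgebra) M.toStarSubalgebra,
      ∀ a : Fin (n + 1) → M.toStarSubalgebra, f a = a 0 * g (Fin.tail a) +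
        ∑ j : Fin n, (-1 : ℂ) ^ (j.val + 1) • g (Fin.contractNth j.castSucc (· * ·) a) +
        (-1 : ℂ) ^ (n + 1) • (g (Fin.init a) * a (Fin.last n)) := by
  have := vn_closed M
  let := CStarAlgebra.spectralOrder M.toStarSubalgebra
  have := CStarAlgebra.spectralOrderedRing M.toStarSubalgebra
  exact conv (vanish (vnRep M)) f hf

end Vale.Agent.P082
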