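import Vale.Agent.P082.W

/-! Bar form of bounded Hochschild cochains. -/

namespace Vale.Agent.P082

open Finset Filter

/-- Functions of sequences. -/
abbrev Fn (A : Type*) := (ℕ → A) → A

section defs

variable {A : Type*}

/-- Merge the slots `i` and `i + 1`. -/
def mg [Mul A] (i : ℕ) (a : ℕ → A) : ℕ → A :=
  fun j => if j < i then a j else if j = i then a i * a (i + 1) else a (j + 1)

/-- Insert `x` after slot `i`. -/
def ins (i : ℕ) (x : A) (a : ℕ → A) : ℕ → A :=
  fun j => if j ≤ i then a j else if j = i + 1 then x else a (j - 1)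

/-- Replace the slots `m` and `m + 1`. -/
def up2 (a : ℕ → A) (m : ℕ) (x y : A) : ℕ → A :=
  fun j => if j = m then x else if j = m + 1 then y else a j

/-- Ordered product of the first `n` slots. -/
def pr [Monoid A] (a : ℕ → A) : ℕ → A
  | 0 => 1
  | n + 1 => pr a n * a n

/-- The alternating tuple with ones at both ends. -/
def alt [One A] (k : ℕ) (g g' : A) : ℕ → A :=
  fun i => if i = 0 ∨ k < i then 1 else if Odd i then g else g'

/-- Balanced at the junction between the slots `i` and `i + 1`. -/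
def Bal [Mul A] (i : ℕ) (F : Fn A) : Prop :=
  ∀ a a', (∀ j, j ≠ i → j ≠ i + 1 → a j = a' j) → a i * a (i + 1) = a' i * a' (i + 1) → F a = F a'

/-- Sums of plain functions balanced at a junction in `[m, k]`. -/
def DD [Ring A] (m k : ℕ) : AddSubgroup (Fn A) :=
  AddSubgroup.closure {F | ∃ i, m ≤ i ∧ i ≤ k ∧ Bal i F}

lemma pr_mg [Monoid A] (a : ℕ → A) {i n : ℕ} (h : i < n) : pr (mg i a) n = pr a (n + 1) := by
  have h0 : ∀ m ≤ i, pr (mg i a) m = pr a m := fun m hm => by
    induction m with
    | zero => rfl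
    | succ m ih => simp [pr, ih (by omega), mg, show m < i by omega]
  induction n, h using Nat.le_induction with
  | base => simp [pr, h0 i le_rfl, mg, mul_assoc]
  | succ n hn ih => rw [pr, ih, pr.eq_2 a (n + 1)]; simp [mg, show ¬n < i by omega, show n ≠ i by omega]

lemma pr_congr [Monoid A] {a a' : ℕ → A} {n : ℕ} (h : ∀ i < n, a i = a' i) : pr a n = pr a' n := by
  induction n with
  | zero => rfl
  | succ n ih => rw [pr, pr, ih fun i hi => h i (by omega), h n (by omega)]

lemma bal_mg [Mul A] (i : ℕ) (F : Fn A) : Bal i fun a => F (mg i a) := fun a a' h1 h2 => by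
  refine congrArg F (funext fun j => ?_)
  unfold mg
  split_ifs
  exacts [h1 _ (by omega) (by omega), h2, h1 _ (by omega) (by omega)]

lemma Bal.mem_DD [Ring A] {i m k : ℕ} {F : Fn A} (h : Bal i F) (h1 : m ≤ i) (h2 : i ≤ k) :
    F ∈ DD m k := AddSubgroup.subset_closure ⟨i, h1, h2, h⟩

lemma Bal.map [Mul A] {i : ℕ} {F : Fn A} (h : Bal i F) (g : A → A) :
    Bal i fun a => g (F a) := fun a a' h1 h2 => congrArg g (h a a' h1 h2)

lemma Bal.map₂ [Mul A] {i : ℕ} {F G : Fn A} (h : Bal i F) (h' : Bal i G) (g : A → A → A) :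
    Bal i fun a => g (F a) (G a) := fun a a' h1 h2 => congrArg₂ g (h a a' h1 h2) (h' a a' h1 h2)

lemma bal_const [Mul A] (i : ℕ) (x : A) : Bal i fun _ => x := fun _ _ _ _ => rfl

end defs

variable {A : Type*} [CStarAlgebra A] {k : ℕ} {C C' : ℝ} {F G : Fn A}

/-- The differential in bar form. -/
noncomputable def dd (k : ℕ) (F : Fn A) : Fn A :=
  fun a => ∑ i ∈ range (k + 2), (-1 : ℂ) ^ i • F (mg i a)

/-- Bounded cochains of degree `k` in bar form: the slots are `0, ..., k + 1`. -/
structure Co (k : ℕ) (C : ℝ) (F : Fn A) : Prop where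
  dep : ∀ a a', (∀ i ≤ k + 1, a i = a' i) → F a = F a'
  lin : ∀ i ≤ k + 1, ∀ (a a' a'' : ℕ → A) (c : ℂ), (∀ j ≠ i, a' j = a j) → (∀ j ≠ i, a'' j = a j) →
    a i = a' i + c • a'' i → F a = F a' + c • F a''
  left : ∀ (a a' : ℕ → A) (b : A), (∀ j ≠ 0, a' j = a j) → a 0 = b * a' 0 → F a = b * F a'
  right : ∀ (a a' : ℕ → A) (b : A), (∀ j ≠ k + 1, a' j = a j) → a (k + 1) = a' (k + 1) * b →
    F a = F a' * b
  bd : ∀ a, (∀ i ≤ k + 1, ‖a i‖ ≤ 1) → ‖F a‖ ≤ C

/-- Sums of balanced cochains with a common bound. -/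
def Fc (k : ℕ) (C : ℝ) (G : Fn A) : Prop :=
  ∃ F : ℕ → Fn A, (∀ i ≤ k, Co k C (F i) ∧ Bal i (F i)) ∧ G = ∑ i ∈ range (k + 1), F i

/-- Insert `star (u i) * u i` at every junction `i`. -/
def ray (k : ℕ) (u a : ℕ → A) : ℕ → A :=
  fun i => (if i = 0 then 1 else u (i - 1)) * a i * if i ≤ k then star (u i) else 1

/-- Cochains all of whose isometric ray transforms differ from `φ` by balanced cochains. -/
def KK (k : ℕ) (c : ℝ) (φ : Fn A) : Set (Fn A) :=
  {ψ | Co k c ψ ∧ ∀ u : ℕ → A, (∀ i, star (u i) * u i = 1) →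
    Fc k ((k + 1) * c) ((fun a => ψ (ray k u a)) - φ)}

/-- Column operation at the last junction. -/
def col (k : ℕ) {ι : Type} [Fintype ι] (β : ι → A) (F : Fn A) : Fn A :=
  fun a => ∑ l, F (up2 a k (a k * star (β l)) (β l * a (k + 1)))

/-- Pointwise weak convergence. -/
def PL (W : WL A) {ι : Type*} (l : Filter ι) (F : ι → Fn A) (G : Fn A) : Prop :=
  ∀ a, W.T l (fun i => F i a) (G a)

namespace Co

lemma slot_zero (h : Co k C F) {a : ℕ → A} {i : ℕ} (hi : i ≤ k + 1) (ha : a i = 0) : F a = 0 := by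
  simpa using h.lin i hi a a a 1 (fun _ _ => rfl) (fun _ _ => rfl) (by simp [ha])

lemma nonneg (h : Co k C F) : 0 ≤ C := (norm_nonneg _).trans (h.bd 0 (by simp))

lemma upd_add (h : Co k C F) (a : ℕ → A) {i : ℕ} (hi : i ≤ k + 1) (x y : A) :
    F (Function.update a i (x + y)) = F (Function.update a i x) + F (Function.update a i y) := by
  simpa using h.lin i hi (Function.update a i (x + y)) (Function.update a i x)
    (Function.update a i y) 1 (by simp +contextual) (by simp +contextual) (by simp)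

lemma upd_smul (h : Co k C F) (a : ℕ → A) {i : ℕ} (hi : i ≤ k + 1) (c : ℂ) (x : A) :
    F (Function.update a i (c • x)) = c • F (Function.update a i x) := by
  simpa [h.slot_zero (a := Function.update a i 0) hi] using h.lin i hi
    (Function.update a i (c • x)) (Function.update a i 0) (Function.update a i x) c
    (by simp +contextual) (by simp +contextual) (by simp)

lemma slot_sum (h : Co k C F) {i : ℕ} (hi : i ≤ k + 1) {ι : Type*} (s : Finset ι) {a : ℕ → A}
    {b : ι → ℕ → A} (h1 : ∀ l ∈ s, ∀ j ≠ i, b l j = a j) (h2 : a i = ∑ l ∈ s, b l i) :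
    F a = ∑ l ∈ s, F (b l) := by
  classical
  induction s using Finset.induction_on generalizing a with
  | empty => exact h.slot_zero hi h2
  | insert l s hl ih =>
    rw [sum_insert hl, ← ih (a := Function.update a i (∑ l ∈ s, b l i))
      (fun l hl j hj => by simp [hj, h1 l (mem_insert_of_mem hl)]) (by simp)]
    simpa using h.lin i hi a _ _ 1 (h1 l (mem_insert_self _ _))
      (by simp +contextual) (by simpa [sum_insert hl] using h2)

/-- The multilinear map of a cochain. -/
noncomputable def ml (h : Co k C F) : MultilinearMap ℂ (fun _ : Fin (k + 2) => A) A :=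
  .mk' (fun v => F fun i => if hi : i < k + 2 then v ⟨i, hi⟩ else 0)
    (fun v i x y => by
      simpa using h.lin i (by omega) _ _ _ 1 (fun j hj => by
        split_ifs <;> simp [Fin.ext_iff, hj])
        (fun j hj => by split_ifs <;> simp [Fin.ext_iff, hj]) (by simp))
    (fun v i c x => by
      have := h.upd_smul (fun j => if hj : j < k + 2 then v ⟨j, hj⟩ else 0)
        (show i.1 ≤ k + 1 by omega) c x
      have e : ∀ x, (fun j => if hj : j < k + 2 then Function.update v i x ⟨j, hj⟩ else 0) =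
          Function.update (fun j => if hj : j < k + 2 then v ⟨j, hj⟩ else 0) i.1 x := fun x => by
        ext j
        by_cases hj : j = i.1
        · simp [hj]
        · split_ifs <;> simp [Fin.ext_iff, *]
      rw [e, e, this])

lemma ml_apply (h : Co k C F) (a : ℕ → A) : h.ml (fun i => a i) = F a :=
  h.dep _ _ fun i hi => dif_pos (by omega)

lemma map_sum (h : Co k C F) {P : Type*} [Fintype P] (y : ℕ → P → A) :
    F (fun i => ∑ p, y i p) =
      ∑ I : Fin (k + 2) → P, F fun i => if hi : i < k + 2 then y i (I ⟨i, hi⟩) else 0 :=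
  (h.ml_apply _).symm.trans (h.ml.map_sum fun i p => y i p)

lemma map_smul (h : Co k C F) (c : ℕ → ℂ) (a : ℕ → A) :
    F (fun i => c i • a i) = (∏ i ∈ range (k + 2), c i) • F a := by
  rw [← h.ml_apply, h.ml.map_smul_univ, h.ml_apply, Finset.prod_range]

lemma norm_le (h : Co k C F) (a : ℕ → A) : ‖F a‖ ≤ C * ∏ i ∈ range (k + 2), ‖a i‖ := by
  have e : a = fun i => (‖a i‖ : ℂ) • ((‖a i‖ : ℂ)⁻¹ • a i) := funext fun i => by
    rcases eq_or_ne (a i) 0 with h | h <;> simp [smul_smul, h]
  conv_lhs => rw [e, h.map_smul, norm_smul, norm_prod, mul_comm]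
  simp only [Complex.norm_real, norm_norm]
  refine mul_le_mul_of_nonneg_right (h.bd _ fun i _ => ?_) (by positivity)
  rw [norm_smul, norm_inv, Complex.norm_real, norm_norm]
  exact inv_mul_le_one_of_le₀ le_rfl (norm_nonneg _)

lemma mono (h : Co k C F) (hC : C ≤ C') : Co k C' F :=
  { h with bd := fun a ha => (h.bd a ha).trans hC }

lemma zero (hC : 0 ≤ C) : Co k C (0 : Fn A) := by constructor <;> simp [hC]

lemma add (h : Co k C F) (h' : Co k C' G) : Co k (C + C') (F + G) where
  dep a a' e := by simp [h.dep a a' e, h'.dep a a' e]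
  lin i hi a a' a'' c e1 e2 e3 := by
    simp only [Pi.add_apply, h.lin i hi a a' a'' c e1 e2 e3, h'.lin i hi a a' a'' c e1 e2 e3,
      smul_add]
    abel
  left a a' b e1 e2 := by simp [h.left a a' b e1 e2, h'.left a a' b e1 e2, mul_add]
  right a a' b e1 e2 := by simp [h.right a a' b e1 e2, h'.right a a' b e1 e2, add_mul]
  bd a ha := norm_add_le_of_le (h.bd a ha) (h'.bd a ha)

lemma cmul (h : Co k C F) {z : A} (hz : ∀ b, z * b = b * z) : Co k (‖z‖ * C) fun a => z * F a where
  dep a a' e := by rw [h.dep a a' e]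
  lin i hi a a' a'' c e1 e2 e3 := by rw [h.lin i hi a a' a'' c e1 e2 e3, mul_add, mul_smul_comm]
  left a a' b e1 e2 := by rw [h.left a a' b e1 e2, ← mul_assoc, hz, mul_assoc]
  right a a' b e1 e2 := by rw [h.right a a' b e1 e2, mul_assoc]
  bd a ha := norm_mul_le_of_le le_rfl (h.bd a ha)

lemma smul (h : Co k C F) (c : ℂ) : Co k (‖c‖ * C) (c • F) where
  dep a a' e := by simp [h.dep a a' e]
  lin i hi a a' a'' c e1 e2 e3 := by
    simp [h.lin i hi a a' a'' c e1 e2 e3, smul_smul, mul_comm]
  left a a' b e1 e2 := by simp [h.left a a' b e1 e2]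
  right a a' b e1 e2 := by simp [h.right a a' b e1 e2]
  bd a ha := by simpa [norm_smul] using mul_le_mul_of_nonneg_left (h.bd a ha) (norm_nonneg c)

lemma neg (h : Co k C F) : Co k C (-F) := by simpa using h.smul (-1)

lemma sub (h : Co k C F) (h' : Co k C' G) : Co k (C + C') (F - G) := by
  simpa only [sub_eq_add_neg] using h.add h'.neg

lemma sum {ι : Type*} (s : Finset ι) {F : ι → Fn A} {C : ι → ℝ} (h : ∀ i ∈ s, Co k (C i) (F i)) :
    Co k (∑ i ∈ s, C i) (∑ i ∈ s, F i) := by
  classical
  induction s using Finset.induction_on with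
  | empty => simpa using zero le_rfl
  | insert j s hj ih =>
    simpa only [sum_insert hj] using (h j (mem_insert_self _ _)).add
      (ih fun j hj => h j (mem_insert_of_mem hj))

lemma avg {ι : Type*} [Fintype ι] [Nonempty ι] {F : ι → Fn A} (h : ∀ i, Co k C (F i)) :
    Co k C ((Fintype.card ι : ℂ)⁻¹ • ∑ i, F i) := by
  simpa using (sum univ fun i _ => h i).smul (Fintype.card ι : ℂ)⁻¹

lemma comp_mg (h : Co k C F) {i : ℕ} (hi : i ≤ k + 1) : Co (k + 1) C fun a => F (mg i a) where
  dep a a' e := h.dep _ _ fun j hj => by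
    unfold mg
    split_ifs <;> simp (disch := omega) [e]
  lin j hj a a' a'' c e1 e2 e3 := by
    have e : ∀ a' : ℕ → A, (∀ l ≠ j, a' l = a l) → ∀ l ≠ (if j ≤ i then j else j - 1),
        mg i a' l = mg i a l := fun a' e l hl => by
      unfold mg
      split_ifs at hl ⊢ <;> simp (disch := omega) [e]
    refine h.lin (if j ≤ i then j else j - 1) (by split_ifs <;> omega) _ _ _ c (e _ e1) (e _ e2) ?_
    unfold mg
    split_ifs with h1 h2 h3 h4 h5
    · exact e3
    · subst h3; simp [e3, e1, e2, add_mul]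
    · omega
    · omega
    · obtain rfl : j = i + 1 := by omega
      simp [e3, e1, e2, mul_add]
    · rwa [Nat.sub_add_cancel (by omega)]
  left a a' b e1 e2 := h.left _ _ b (fun j hj => by
      unfold mg
      split_ifs <;> simp (disch := omega) [e1]) (by
      unfold mg
      split_ifs with h1 h2
      · exact e2
      · subst h2; simp [e2, e1, mul_assoc]
      · omega)
  right a a' b e1 e2 := h.right _ _ b (fun j hj => by
      unfold mg
      split_ifs <;> simp (disch := omega) [e1]) (by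
      unfold mg
      split_ifs with h1 h2
      · omega
      · subst h2; simp [e2, e1, mul_assoc]
      · exact e2)
  bd a ha := h.bd _ fun j hj => by
    unfold mg
    split_ifs
    exacts [ha _ (by omega), mul_one (1 : ℝ) ▸ norm_mul_le_of_le (ha _ (by omega))
      (ha _ (by omega)), ha _ (by omega)]

lemma comp_ins (h : Co (k + 1) C F) {i : ℕ} (hi : i ≤ k) {x : A} (hx : ‖x‖ ≤ 1) :
    Co k C fun a => F (ins i x a) where
  dep a a' e := h.dep _ _ fun j hj => by
    unfold ins
    split_ifs <;> simp (disch := omega) [e]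
  lin j hj a a' a'' c e1 e2 e3 := by
    have e : ∀ a' : ℕ → A, (∀ l ≠ j, a' l = a l) → ∀ l ≠ (if j ≤ i then j else j + 1),
        ins i x a' l = ins i x a l := fun a' e l hl => by
      unfold ins
      split_ifs at hl ⊢ <;> simp (disch := omega) [e]
    refine h.lin (if j ≤ i then j else j + 1) (by split_ifs <;> omega) _ _ _ c (e _ e1) (e _ e2) ?_
    unfold ins
    split_ifs <;> first | exact e3 | omega
  left a a' b e1 e2 := h.left _ _ b (fun j hj => by
      unfold ins
      split_ifs <;> simp (disch := omega) [e1]) e2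
  right a a' b e1 e2 := h.right _ _ b (fun j hj => by
      unfold ins
      split_ifs <;> simp (disch := omega) [e1]) (by
      unfold ins
      split_ifs <;> first | exact e2 | omega)
  bd a ha := h.bd _ fun j hj => by
    unfold ins
    split_ifs
    exacts [ha _ (by omega), hx, ha _ (by omega)]

lemma comp_lr (h : Co k C F) {L R : ℕ → A} (hL : ∀ i, ‖L i‖ ≤ 1) (hR : ∀ i, ‖R i‖ ≤ 1)
    (h0 : L 0 = 1) (h1 : R (k + 1) = 1) : Co k C fun a => F fun i => L i * a i * R i where
  dep a a' e := h.dep _ _ fun j hj => by rw [e j hj]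
  lin j hj a a' a'' c e1 e2 e3 := h.lin j hj _ _ _ c (fun l hl => by rw [e1 l hl])
    (fun l hl => by rw [e2 l hl]) (by simp [e3, mul_add, add_mul])
  left a a' b e1 e2 := h.left _ _ b (fun l hl => by rw [e1 l hl]) (by simp [h0, e2, mul_assoc])
  right a a' b e1 e2 := h.right _ _ b (fun l hl => by rw [e1 l hl]) (by simp [h1, e2, mul_assoc])
  bd a ha := h.bd _ fun j hj => by
    simpa using norm_mul_le_of_le (norm_mul_le_of_le (hL j) (ha j hj)) (hR j)

lemma comp_ray (h : Co k C F) {u : ℕ → A} (hu : ∀ i, star (u i) * u i = 1) :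
    Co k C fun a => F (ray k u a) :=
  h.comp_lr (fun i => by split_ifs; exacts [norm_one_le, norm_le_one_of_iso (hu _)])
    (fun i => by
      split_ifs; exacts [(norm_star _).trans_le (norm_le_one_of_iso (hu _)), norm_one_le])
    (by simp) (by simp)

lemma dd (h : Co k C F) : Co (k + 1) ((k + 2) * C) (dd k F) := by
  have := sum (range (k + 2)) fun i hi => (h.comp_mg (i := i) (by
    simpa [Nat.lt_succ_iff] using hi)).smul ((-1) ^ i)
  convert this using 1
  · simp
  · ext a; simp [P082.dd]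

lemma lim {W : WL A} {ι : Type*} {l : Filter ι} [l.NeBot] {F : ι → Fn A} (hl : PL W l F G)
    (h : ∀ᶠ i in l, Co k C (F i)) : Co k C G where
  dep a a' e := (hl a).eq_of (hl a') (h.mono fun _ h => h.dep a a' e)
  lin j hj a a' a'' c e1 e2 e3 := (hl a).eq_of ((hl a').add ((hl a'').smul c))
    (h.mono fun _ h => h.lin j hj a a' a'' c e1 e2 e3)
  left a a' b e1 e2 := (hl a).eq_of ((hl a').mul_left b) (h.mono fun _ h => h.left a a' b e1 e2)
  right a a' b e1 e2 := (hl a).eq_of ((hl a').mul_right b) (h.mono fun _ h => h.right a a' b e1 e2)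
  bd a ha := (hl a).norm_le (h.mono fun _ h => h.bd a ha)

end Co

lemma exists_PL (W : WL A) {ι : Type*} (U : Ultrafilter ι) {F : ι → Fn A}
    (h : ∀ᶠ i in U, Co k C (F i)) : ∃ G, PL W U F G := by
  choose G hG using fun a => W.exists_T U (h.mono fun _ h => h.norm_le a)
  exact ⟨G, hG⟩

lemma Bal.lim {W : WL A} {ι : Type*} {l : Filter ι} [l.NeBot] {F : ι → Fn A} (hl : PL W l F G)
    {j : ℕ} (h : ∀ᶠ i in l, Bal j (F i)) : Bal j G :=
  fun a a' e1 e2 => (hl a).eq_of (hl a') (h.mono fun _ h => h a a' e1 e2)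

lemma pr_co (k : ℕ) : Co k 1 fun a : ℕ → A => pr a (k + 2) := by
  have h0 : Co 0 1 fun a : ℕ → A => pr a 2 := by
    simp only [pr, one_mul]
    refine ⟨fun a a' e => by simp [e], fun i hi a a' a'' c e1 e2 e3 => ?_,
      fun a a' b e1 e2 => by simp [e1, e2, mul_assoc], fun a a' b e1 e2 => by
        simp [e1, show a 1 = _ from e2, mul_assoc], fun a ha => by
        simpa using norm_mul_le_of_le (ha 0 (by omega)) (ha 1 (by omega))⟩
    obtain rfl | rfl : i = 0 ∨ i = 1 := by omega
    · simp [e1, e2, e3, add_mul]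
    · simp [e1, e2, e3, mul_add]
  induction k with
  | zero => exact h0
  | succ k ih => simpa only [pr_mg _ (Nat.succ_pos _)] using ih.comp_mg (Nat.zero_le _)

lemma pr_bal {i n : ℕ} (h : i < n) : Bal i fun a : ℕ → A => pr a (n + 1) := by
  simpa only [pr_mg _ h] using bal_mg i fun a : ℕ → A => pr a n

section tr

variable [PartialOrder A]

/-- Positive real tracial functionals. -/
structure TrF (τ : A →ₗ[ℝ] ℝ) : Prop where
  pos : ∀ a, 0 ≤ a → 0 ≤ τ a
  star : ∀ a, τ (star a) = τ a
  comm : ∀ a b, τ (a * b) = τ (b * a)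

/-- Elements that no trace sees. -/
def Null (x : A) : Prop := ∀ τ : A →ₗ[ℝ] ℝ, TrF τ → τ (star x * x) = 0

end tr

/-- Properly infinite central projections (zero included). -/
def PI (c : A) : Prop := IsStarProjection c ∧ (∀ b, c * b = b * c) ∧
  ∃ s t : A, star s * s = c ∧ star t * t = c ∧ star s * t = 0

section rep

variable {H : Type*} [NormedAddCommGroup H] [InnerProductSpace ℂ H] [CompleteSpace H] (R : Rep A H)

/-- Contractive rectangular matrices. -/
def Contr {ι κ : Type} [Fintype ι] [Fintype κ] (X : ι → κ → A) : Prop :=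
  ∀ ξ : κ → H, ∑ i, ‖∑ j, R.π (X i j) (ξ j)‖ ^ 2 ≤ ∑ j, ‖ξ j‖ ^ 2

/-- Completely bounded energy of slot `k` on vectors from `L` is at most `t`. -/
def En (k : ℕ) (x : ℕ → A) (L : Set H) (F : Fn A) (t : ℝ) : Prop :=
  ∀ (ι κ : Type) [Fintype ι] [Fintype κ] (X : ι → κ → A) (η : κ → H), Contr R X →
    (∀ j, η j ∈ L) → ∑ i, ‖∑ j, R.π (F (up2 x k (X i j) 1)) (η j)‖ ^ 2 ≤ t * ∑ j, ‖η j‖ ^ 2

end rep

/-- Elementary matrices. -/
def E [PartialOrder A] [StarOrderedRing A] {n : Type*} [DecidableEq n] (p q : n) (a : A) :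
    CStarMatrix n n A := CStarMatrix.ofMatrix (Matrix.single p q a)

end Vale.Agent.P082
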