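import Vale.Agent.P082.Bar
import Mathlib.Analysis.CStarAlgebra.ContinuousFunctionalCalculus.Commute
import Mathlib.Analysis.SpecialFunctions.ContinuousFunctionalCalculus.PosPart.Basic

/-! Range projections, spectral cuts, inverse square roots, isometric pieces. -/

namespace Vale.Agent.P082

variable {A : Type*} [CStarAlgebra A] [PartialOrder A] [StarOrderedRing A] {H : Type*}
  [NormedAddCommGroup H] [InnerProductSpace ℂ H] [CompleteSpace H]

/-- Inverse square roots. -/
theorem exists_isqrt {b : A} {δ : ℝ} (hδ : 0 < δ) (hb : algebraMap ℝ A δ ≤ b) :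
    ∃ r : A, 0 ≤ r ∧ r * b * r = 1 ∧ ∀ y, y * b = b * y → y * r = r * y := by
  have h0 : 0 ≤ b := le_trans (by
    rw [Algebra.algebraMap_eq_smul_one]; exact smul_nonneg hδ.le zero_le_one) hb
  have hs : IsSelfAdjoint b := h0.isSelfAdjoint
  have hp : ∀ x ∈ spectrum ℝ b, 0 < x := fun x hx =>
    hδ.trans_le ((algebraMap_le_iff_le_spectrum hs).1 hb x hx)
  have hc : ContinuousOn (fun x : ℝ => (√x)⁻¹) (spectrum ℝ b) :=
    Real.continuous_sqrt.continuousOn.inv₀ fun x hx => (Real.sqrt_pos.2 (hp x hx)).ne'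
  refine ⟨cfc (fun x : ℝ => (√x)⁻¹) b, cfc_nonneg fun x _ => by positivity, ?_,
    fun y hy => (Commute.cfc_real hy.symm _).symm⟩
  nth_rw 2 [← cfc_id' ℝ b]
  rw [← cfc_mul _ _ b hc, ← cfc_mul _ _ b (hc.fun_mul (continuousOn_id' _)) hc, ← cfc_one ℝ b]
  refine cfc_congr fun x hx => ?_
  have := Real.sqrt_pos.2 (hp x hx)
  have h2 := Real.mul_self_sqrt (hp x hx).le
  simp only [Pi.one_apply]
  field_simp
  nlinarith

omit [PartialOrder A] [StarOrderedRing A] in
/-- Projections onto subspaces invariant under the commutant. -/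
theorem exists_proj (R : Rep A H) (K : Submodule ℂ H) (hK : IsClosed (K : Set H))
    (h : ∀ S : H →L[ℂ] H, (∀ a, S * R.π a = R.π a * S) → ∀ ξ ∈ K, S ξ ∈ K) :
    ∃ e, IsStarProjection e ∧ ∀ ξ, R.π e ξ = ξ ↔ ξ ∈ K := by
  have : CompleteSpace K := hK.completeSpace_coe
  have hP : IsStarProjection K.starProjection := isStarProjection_starProjection
  have h1 : ∀ S : H →L[ℂ] H, (∀ a, S * R.π a = R.π a * S) →
      K.starProjection * S * K.starProjection = S * K.starProjection := fun S hS =>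
    ContinuousLinearMap.ext fun ξ => Submodule.starProjection_eq_self_iff.2
      (h S hS _ (K.starProjection_apply_mem ξ))
  obtain ⟨e, he⟩ := R.bic K.starProjection fun S hS => by
    have h2 := congrArg star (h1 (star S) fun a => by
      simpa [map_star] using congrArg star (hS (star a)).symm)
    simp only [star_mul, star_star, hP.isSelfAdjoint.star_eq, ← mul_assoc] at h2
    rw [← h2, h1 S hS]
  refine ⟨e, ⟨R.inj ?_, R.inj ?_⟩, fun ξ => he ▸ Submodule.starProjection_eq_self_iff⟩
  · rw [map_mul, he, hP.isIdempotentElem.eq]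
  · rw [map_star, he, hP.isSelfAdjoint.star_eq]

omit [PartialOrder A] [StarOrderedRing A] in
/-- Range projections. -/
theorem exists_rp (R : Rep A H) {a : A} (ha : IsSelfAdjoint a) :
    ∃ e, IsStarProjection e ∧ ∀ y, y * a = 0 ↔ y * e = 0 := by
  obtain ⟨f, hf, h⟩ := exists_proj R (R.π a).ker (R.π a).isClosed_ker fun S hS ξ hξ => by
    have := congr($(hS a) ξ)
    simpa [show R.π a ξ = 0 from hξ] using this.symm
  have h2 : ∀ y, a * y = 0 ↔ f * y = y := fun y =>
    ⟨fun e => R.ext' fun ξ => by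
      rw [R.mul_apply, h]
      show R.π a (R.π y ξ) = 0
      rw [← R.mul_apply, e]; simp,
    fun e => R.ext' fun ξ => by
      rw [R.mul_apply, map_zero]
      exact (h _).1 (by rw [← R.mul_apply, e])⟩
  refine ⟨1 - f, hf.one_sub, fun y => ?_⟩
  rw [← star_eq_zero, star_mul, ha.star_eq, h2, ← star_inj, star_mul, star_star,
    hf.isSelfAdjoint.star_eq, mul_sub, mul_one, sub_eq_zero, eq_comm]

open scoped CStarAlgebra in
/-- Spectral cuts. -/
theorem exists_cut (R : Rep A H) {a : A} (ha : 0 ≤ a) {δ : ℝ} (_hδ : 0 < δ)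
    (h : ¬a ≤ algebraMap ℝ A δ) : ∃ e, IsStarProjection e ∧ e ≠ 0 ∧ δ • e ≤ a := by
  set b := a - algebraMap ℝ A δ with hb
  have hs : IsSelfAdjoint b := ha.isSelfAdjoint.sub (IsSelfAdjoint.algebraMap A (.all δ))
  obtain ⟨e, he, h1⟩ := exists_rp R (CFC.posPart_nonneg b).isSelfAdjoint
  have e1 : b⁻ * e = 0 := (h1 _).1 (CFC.negPart_mul_posPart b)
  have e2 : e * b⁺ = b⁺ := by
    have := (h1 (1 - e)).2 he.isIdempotentElem.one_sub_mul_self
    rwa [sub_mul, one_mul, sub_eq_zero, eq_comm] at this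
  have e3 : b⁺ * e = b⁺ := by
    simpa [he.isSelfAdjoint.star_eq, (CFC.posPart_nonneg b).isSelfAdjoint.star_eq] using
      congrArg star e2
  have e4 : e * b⁻ = 0 := by
    simpa [he.isSelfAdjoint.star_eq, (CFC.negPart_nonneg b).isSelfAdjoint.star_eq] using
      congrArg star e1
  have e5 := CFC.posPart_sub_negPart b hs
  refine ⟨e, he, fun h0 => h ?_, ?_⟩
  · rw [← sub_nonpos, ← hb, ← e5, ← e2, h0, zero_mul, zero_sub, neg_nonpos]
    exact CFC.negPart_nonneg b
  · have e6 : a = b⁺ - b⁻ + δ • 1 := by rw [e5, hb, Algebra.algebraMap_eq_smul_one]; abel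
    have e7 : a - δ • e = b⁺ + (1 - e) * a * (1 - e) := by
      rw [e6]
      simp only [mul_add, add_mul, mul_sub, sub_mul, one_mul, mul_one, e1, e2, e4, mul_smul_comm,
        smul_mul_assoc, he.isIdempotentElem.eq, zero_mul, sub_self, smul_sub]
      abel
    rw [← sub_nonneg, e7]
    exact add_nonneg (CFC.posPart_nonneg b) (he.one_sub.isSelfAdjoint.conjugate_nonneg ha)

lemma exists_cut' (R : Rep A H) {x : A} (hx : x ≠ 0) :
    ∃ (δ : ℝ) (e : A), 0 < δ ∧ IsStarProjection e ∧ e ≠ 0 ∧ δ • e ≤ star x * x := by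
  have h0 : 0 < ‖x‖ * ‖x‖ := by positivity
  obtain ⟨e, he⟩ := exists_cut R (star_mul_self_nonneg x) (half_pos h0) fun h => by
    have := (CStarAlgebra.norm_le_iff_le_algebraMap _ (half_pos h0).le
      (star_mul_self_nonneg x)).2 h
    rw [CStarRing.norm_star_mul_self] at this
    linarith
  exact ⟨_, e, half_pos h0, he⟩

lemma mul_eq_zero_of_le {δ : ℝ} (hδ : 0 < δ) {e a y : A} (he : IsStarProjection e)
    (h : δ • e ≤ a) (hy : a * y = 0) : e * y = 0 := by
  have h1 := star_left_conjugate_le_conjugate h y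
  rw [mul_assoc _ a, hy, mul_zero, mul_smul_comm, smul_mul_assoc] at h1
  have h2 : star (e * y) * (e * y) ≤ 0 := by
    have := smul_le_smul_of_nonneg_left h1 (inv_pos.2 hδ).le
    rwa [smul_zero, inv_smul_smul₀ hδ.ne', ← he.isIdempotentElem.eq, ← mul_assoc,
      mul_assoc _ e, ← he.isSelfAdjoint.star_eq, ← star_mul, he.isSelfAdjoint.star_eq] at this
  exact CStarRing.star_mul_self_eq_zero_iff _ |>.1 (h2.antisymm (star_mul_self_nonneg _))

/-- Nonzero isometric pieces below a nonzero element. -/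
theorem exists_piso (R : Rep A H) {x : A} (hx : x ≠ 0) :
    ∃ y, x * y ≠ 0 ∧ IsStarProjection (star (x * y) * (x * y)) ∧
      ∀ q, IsStarProjection q → x * q = x → x * y * q = x * y := by
  obtain ⟨δ, e, hδ, he, h0, h⟩ := exists_cut' R hx
  have ee := he.isIdempotentElem.eq
  have h1 := he.isSelfAdjoint.conjugate_le_conjugate h
  rw [mul_smul_comm, smul_mul_assoc, ee, ee] at h1
  obtain ⟨r, hr, h2, h3⟩ := exists_isqrt (b := e * (star x * x) * e + δ • (1 - e)) hδ (by
    rw [Algebra.algebraMap_eq_smul_one, smul_sub, ← sub_le_iff_le_add]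
    simpa using h1)
  have h4 : e * r = r * e := h3 e (by
    simp [mul_add, add_mul, mul_sub, sub_mul, ← mul_assoc, ee, mul_assoc _ e e])
  have h5 : star (x * (r * e)) * (x * (r * e)) = e := by
    have e1 : r * e * e = r * e := by rw [mul_assoc, ee]
    have e2 : e * (r * e) = r * e := by rw [← mul_assoc, h4, e1]
    calc _ = (r * e * e) * (star x * x) * (e * (r * e)) := by
          rw [e1, e2, star_mul, star_mul, hr.isSelfAdjoint.star_eq, he.isSelfAdjoint.star_eq, h4]
          noncomm_ring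
      _ = (r * e) * (e * (star x * x) * e + δ • (1 - e)) * (r * e) := by
          rw [mul_add, mul_smul_comm, mul_sub, mul_one, sub_eq_zero.2 e1.symm, smul_zero, add_zero]
          simp only [mul_assoc]
      _ = e * (r * (e * (star x * x) * e + δ • (1 - e)) * r) * e := by
          nth_rw 1 [← h4]
          simp only [mul_assoc]
      _ = e := by rw [h2, mul_one, ee]
  refine ⟨r * e, fun h6 => h0 (by rw [← h5, h6, mul_zero]), h5.symm ▸ he, fun q _ hq => ?_⟩
  have := mul_eq_zero_of_le hδ he h (y := 1 - q) (by simp [mul_sub, mul_assoc, hq])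
  rw [mul_sub, mul_one, sub_eq_zero] at this
  rw [mul_assoc, mul_assoc, ← this]

end Vale.Agent.P082
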