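import Vale.Agent.P082.Bar

/-! Elementary matrices. -/

namespace Vale.Agent.P082

variable {A : Type*} [CStarAlgebra A] [PartialOrder A] [StarOrderedRing A] {n : Type*}
  [DecidableEq n]

lemma E_apply (p q r s : n) (a : A) : E p q a r s = if p = r ∧ q = s then a else 0 := rfl

@[simp] lemma E_zero (p q : n) : E p q (0 : A) = 0 := by
  ext; simp [E_apply]

lemma E_add (p q : n) (a b : A) : E p q (a + b) = E p q a + E p q b := by
  ext; simp only [E_apply, CStarMatrix.add_apply]; split_ifs <;> simp

lemma E_smul (p q : n) (c : ℂ) (a : A) : E p q (c • a) = c • E p q a := by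
  ext; simp only [E_apply, CStarMatrix.smul_apply]; split_ifs <;> simp

variable [Fintype n]

omit [PartialOrder A] [StarOrderedRing A] [DecidableEq n] [Fintype n] in
lemma sum_entry {ι : Type*} (s : Finset ι) (x : ι → CStarMatrix n n A) (p q : n) :
    (∑ i ∈ s, x i) p q = ∑ i ∈ s, x i p q := Matrix.sum_apply p q s x

lemma E_mul_apply (p q r s : n) (a : A) (x : CStarMatrix n n A) :
    (E p q a * x) r s = if p = r then a * x q s else 0 := by
  simp only [CStarMatrix.mul_apply, E_apply]
  split_ifs <;> simp [*]

lemma mul_E_apply (p q r s : n) (a : A) (x : CStarMatrix n n A) :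
    (x * E p q a) r s = if q = s then x r p * a else 0 := by
  simp only [CStarMatrix.mul_apply, E_apply]
  split_ifs <;> simp [*]

lemma E_mul_E (p q r s : n) (a b : A) :
    E p q a * E r s b = if q = r then E p s (a * b) else 0 := by
  ext i j
  rw [E_mul_apply]
  split_ifs <;> simp [E_apply, *]
  aesop

lemma sum_E (x : CStarMatrix n n A) : ∑ p : n × n, E p.1 p.2 (x p.1 p.2) = x := by
  ext i j
  rw [sum_entry, Finset.sum_eq_single (i, j)] <;> simp +contextual [E_apply, Prod.ext_iff]

lemma norm_E_le (p q : n) (a : A) : ‖E p q a‖ ≤ ‖a‖ := by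
  refine CStarMatrix.norm_le_of_forall_inner_le (C := ‖a‖₊) fun v w => ?_
  have : inner A w (CStarMatrix.toCLM (E p q a) v) = v p * a * star (w q) := by
    simp only [WithCStarModule.pi_inner, WithCStarModule.inner_def]
    change ∑ j, (∑ i, v i * E p q a i j) * star (w j) = _
    rw [Finset.sum_eq_single q, Finset.sum_eq_single p] <;> simp +contextual [E_apply, eq_comm]
  rw [this, coe_nnnorm, mul_comm ‖a‖]
  exact norm_mul_le_of_le (norm_mul_le_of_le (WithCStarModule.norm_apply_le_norm v p) le_rfl)
    ((norm_star _).trans_le (WithCStarModule.norm_apply_le_norm w q))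

end Vale.Agent.P082
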