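import Vale.Agent.P082.Bar

/-! A cocycle that is a sum of balanced functions is a coboundary. -/

namespace Vale.Agent.P082

open Finset

variable {A : Type*} [CStarAlgebra A]

lemma mg_mg {i j : ℕ} (h : i ≤ j) (a : ℕ → A) : mg j (mg i a) = mg i (mg (j + 1) a) := by
  ext l
  simp only [mg]
  obtain h | rfl := h.lt_or_eq
  · split_ifs <;> first | omega | rfl
  · split_ifs <;> first | omega | rfl | exact mul_assoc _ _ _

lemma dd_dd (k : ℕ) (G : Fn A) : dd (k + 1) (dd k G) = 0 := by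
  ext a
  have h : ∀ n, ∑ i ∈ range (n + 1), ∑ j ∈ range n, (-1 : ℂ) ^ (i + j) • G (mg j (mg i a)) = 0 := by
    intro n
    induction n with
    | zero => simp
    | succ n ih =>
      simp only [sum_range_succ _ n, sum_add_distrib]
      rw [sum_range_succ, ih, zero_add, sum_range_succ, sum_range_succ, mg_mg le_rfl,
        sum_congr (s₁ := range n) (f := fun i => _ • G (mg n _)) rfl fun i hi => by
          rw [mg_mg (by simp at hi; omega)]]
      simp [pow_add, mul_comm]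
  simpa [dd, smul_sum, smul_smul, pow_add] using h (k + 2)

lemma dd_add (k : ℕ) (F G : Fn A) : dd k (F + G) = dd k F + dd k G := by
  ext a
  simp [dd, sum_add_distrib]

lemma dd_smul (k : ℕ) (c : ℂ) (F : Fn A) : dd k (c • F) = c • dd k F := by
  ext a
  simp [dd, smul_sum, smul_smul, mul_comm]

lemma dd_sub (k : ℕ) (F G : Fn A) : dd k (F - G) = dd k F - dd k G := by
  ext a
  simp [dd, smul_sub]

lemma mg_ins_lt {i n : ℕ} (h : i ≤ n) (a : ℕ → A) :
    mg i (ins (n + 1) 1 a) = ins n 1 (mg i a) := by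
  ext l
  simp only [mg, ins]
  split_ifs <;> first | omega | rfl | (congr 1; omega)

lemma mg_ins_self (m : ℕ) (a : ℕ → A) : mg m (ins m 1 a) = a := by
  ext l
  simp only [mg, ins]
  split_ifs <;> first | omega | rfl | simp [*]

lemma mg_succ_ins (m : ℕ) (a : ℕ → A) : mg (m + 1) (ins m 1 a) = a := by
  ext l
  simp only [mg, ins]
  split_ifs <;> first | omega | rfl | simp [*]

lemma mg_ins_gt {i m : ℕ} (h : m < i) (a : ℕ → A) :
    mg (i + 1) (ins m 1 a) = ins m 1 (mg i a) := by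
  ext l
  simp only [mg, ins]
  split_ifs <;> first | omega | rfl | (congr 1; omega)

lemma Bal.ins_mg {F : Fn A} {n : ℕ} (h : Bal n F) (a : ℕ → A) : F (ins n 1 (mg n a)) = F a :=
  h _ _ (fun j h1 h2 => by
    simp only [mg, ins]
    split_ifs <;> first | omega | rfl | (congr 1; omega)) (by simp [mg, ins])

lemma DD_step {K n : ℕ} {ψ : Fn A} (h : ψ ∈ DD (n + 1) K) :
    (ψ - fun a => ψ (ins n 1 (mg (n + 1) a))) ∈ DD (n + 2) K := by
  induction h using AddSubgroup.closure_induction with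
  | mem F hF =>
    obtain ⟨i, h1, h2, h3⟩ := hF
    obtain rfl | h1 := h1.eq_or_lt
    · rw [sub_eq_zero.2 (funext fun a => h3 a (ins n 1 (mg (n + 1) a)) (fun j j1 j2 => ?_)
        (by simp [mg, ins]))]
      · exact zero_mem _
      simp only [mg, ins]
      split_ifs <;> first | omega | rfl | (congr 1; omega)
    · refine sub_mem (h3.mem_DD h1 h2) (Bal.mem_DD (fun a a' e1 e2 => h3 _ _ (fun j j1 j2 => ?_) ?_)
        h1 h2)
      · simp only [mg, ins]
        split_ifs <;> simp (disch := omega) [e1, Nat.sub_add_cancel]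
      · obtain rfl | h4 := (Nat.succ_le_of_lt h1).eq_or_lt
        · simp (disch := omega) [mg, ins, if_neg, e1, e2, mul_assoc]
        · simp (disch := omega) [mg, ins, if_neg, e2, Nat.sub_add_cancel]
  | zero => exact (sub_self (0 : Fn A)).symm ▸ zero_mem (DD (n + 2) K)
  | add F G _ _ h1 h2 => convert add_mem h1 h2 using 1; ext; simp only [Pi.add_apply, Pi.sub_apply]; abel
  | neg F _ h1 => convert neg_mem h1 using 1; ext; simp only [Pi.neg_apply, Pi.sub_apply]; abel

lemma faces_step {k n : ℕ} (hn : n ≤ k) {ψ : Fn A} (hd : dd (k + 1) ψ = 0)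
    (h : ψ ∈ DD (n + 1) (k + 1)) :
    ψ - dd k ((-1 : ℂ) ^ (n + 1) • fun a => ψ (ins n 1 a)) ∈ DD (n + 2) (k + 1) := by
  obtain ⟨r, rfl⟩ := Nat.exists_eq_add_of_le hn
  have e : ψ - dd (n + r) ((-1 : ℂ) ^ (n + 1) • fun a => ψ (ins n 1 a)) =
      (ψ - fun a => ψ (ins n 1 (mg (n + 1) a))) + ∑ i ∈ range r, fun a => (-1 : ℂ) ^ i •
        (ψ (ins n 1 (mg (n + 2 + i) a)) + ψ (ins (n + 1) 1 (mg (n + 2 + i) a))) := by
    ext a
    have h1 := congrFun hd (ins (n + 1) 1 a)
    simp only [dd, show n + r + 1 + 2 = n + 1 + (r + 1 + 1) by ring] at h1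
    rw [sum_range_add, sum_range_succ' _ (r + 1), sum_range_succ' _ r,
      sum_congr (s₁ := range (n + 1)) rfl fun i hi => by rw [mg_ins_lt (by simp at hi; omega)]] at h1
    have e1 : ∀ i, mg (n + 1 + i + 1 + 1) (ins (n + 1) 1 a) = ins (n + 1) 1 (mg (n + 2 + i) a) :=
      fun i => by rw [← mg_ins_gt (by omega)]; congr 1; ring
    simp only [e1, zero_add, add_zero, mg_ins_self, ← add_assoc (n + 1), mg_succ_ins,
      pow_succ _ (n + 1), Pi.zero_apply, mul_neg, mul_one, neg_smul] at h1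
    rw [neg_add_cancel_right, add_eq_zero_iff_eq_neg] at h1
    rw [dd_smul]
    simp only [dd, Pi.sub_apply, Pi.smul_apply, Pi.add_apply, Finset.sum_apply,
      show n + r + 2 = n + 1 + (r + 1) by ring]
    rw [sum_range_add, h1, sum_range_succ' _ r]
    have e2 : ∀ i, n + 1 + (i + 1) = n + 2 + i := fun i => by ring
    have e5 : (-1 : ℂ) ^ (n + 1) * (-1) ^ (n + 1) = 1 := by simp [← mul_pow]
    have e3 : ∀ i, (-1 : ℂ) ^ (n + 1) * (-1) ^ (n + 1 + i + 1 + 1) = (-1) ^ i := fun i => by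
      simp [pow_add _ (n + 1), pow_succ _ (_ + _), ← mul_assoc, e5]
    have e4 : ∀ i, (-1 : ℂ) ^ (n + 1) * (-1) ^ (n + 2 + i) = -(-1) ^ i := fun i => by
      simp [pow_add _ (n + 2), pow_succ _ (n + 1), ← mul_assoc, e5]
    simp only [e2, smul_add, smul_neg, smul_sum, smul_smul, sum_add_distrib, add_zero,
      e3, e4, e5, neg_smul, sum_neg_distrib, one_smul]
    abel
  rw [e]
  refine add_mem (DD_step h) (sum_mem fun i hi => Bal.mem_DD (i := n + 2 + i) ?_ (by omega) (by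
    simp at hi; omega))
  exact bal_mg _ fun a => (-1 : ℂ) ^ i • (ψ (ins n 1 a) + ψ (ins (n + 1) 1 a))

theorem faces {k : ℕ} {c c0 : ℝ} {φ F0 : Fn A} (hφ : Co (k + 1) c φ) (hd : dd (k + 1) φ = 0)
    (h0 : Co (k + 1) c0 F0) (hb : Bal 0 F0) (hD : φ - F0 ∈ DD 1 (k + 1)) :
    ∃ c' G, Co k c' G ∧ dd k G = φ := by
  have key : ∀ n ≤ k + 1, ∃ c' G, Co k c' G ∧ φ - dd k G ∈ DD (n + 1) (k + 1) := fun n hn => by
    induction n with
    | zero =>
      refine ⟨_, _, h0.comp_ins k.zero_le norm_one_le, ?_⟩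
      have e : φ - dd k (fun a => F0 (ins 0 1 a)) = φ - F0 - ∑ i ∈ range (k + 1),
          fun a => (-1 : ℂ) ^ (i + 1) • F0 (ins 0 1 (mg (i + 1) a)) := by
        ext a
        simp [dd, sum_range_succ' _ (k + 1), hb.ins_mg, sub_sub, add_comm]
      rw [e]
      exact sub_mem hD (sum_mem fun i hi => (bal_mg (i + 1) fun a =>
        (-1 : ℂ) ^ (i + 1) • F0 (ins 0 1 a)).mem_DD (by omega) (by simp at hi; omega))
    | succ n ih =>
      obtain ⟨c', G, h1, h2⟩ := ih (by omega)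
      refine ⟨_, _, h1.add (((hφ.sub h1.dd).comp_ins (by omega : n ≤ k) norm_one_le).smul
        ((-1) ^ (n + 1))), ?_⟩
      rw [dd_add, ← sub_sub]
      exact faces_step (by omega) (by rw [dd_sub, hd, dd_dd, sub_zero]) h2
  obtain ⟨c', G, h1, h2⟩ := key _ le_rfl
  refine ⟨c', G, h1, (sub_eq_zero.1 ?_).symm⟩
  refine ((AddSubgroup.closure_le ⊥).2 ?_) h2
  rintro F ⟨i, h1, h2, -⟩
  omega

end Vale.Agent.P082
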