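import Vale.Agent.P082.Bar

/-! The invariant set of a cocycle. -/

namespace Vale.Agent.P082

open Finset Filter

variable {A : Type*} [CStarAlgebra A] {k : ℕ} {c C C' : ℝ} {φ ψ F G : Fn A}

lemma Fc.mono (h : Fc k C G) (hC : C ≤ C') : Fc k C' G := by
  obtain ⟨F, h, rfl⟩ := h
  exact ⟨F, fun i hi => ⟨(h i hi).1.mono hC, (h i hi).2⟩, rfl⟩

lemma Fc.zero (hC : 0 ≤ C) : Fc k C (0 : Fn A) :=
  ⟨0, fun i _ => ⟨.zero hC, bal_const i 0⟩, by simp⟩

lemma Fc.add (h : Fc k C F) (h' : Fc k C' G) : Fc k (C + C') (F + G) := by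
  obtain ⟨F, h, rfl⟩ := h
  obtain ⟨G, h', rfl⟩ := h'
  exact ⟨F + G, fun i hi => ⟨(h i hi).1.add (h' i hi).1, (h i hi).2.map₂ (h' i hi).2 (· + ·)⟩,
    by simp [sum_add_distrib]⟩

lemma Fc.smul (h : Fc k C F) (z : ℂ) : Fc k (‖z‖ * C) (z • F) := by
  obtain ⟨F, h, rfl⟩ := h
  exact ⟨z • F, fun i hi => ⟨(h i hi).1.smul z, (h i hi).2.map (z • ·)⟩, by simp [smul_sum]⟩

lemma Fc.neg (h : Fc k C F) : Fc k C (-F) := by simpa using h.smul (-1)

lemma Fc.sum {ι : Type*} (s : Finset ι) {F : ι → Fn A} {C : ι → ℝ} (h : ∀ i ∈ s, Fc k (C i) (F i)) :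
    Fc k (∑ i ∈ s, C i) (∑ i ∈ s, F i) := by
  classical
  induction s using Finset.induction_on with
  | empty => simpa using zero le_rfl
  | insert j s hj ih =>
    simpa only [sum_insert hj] using (h j (mem_insert_self _ _)).add
      (ih fun j hj => h j (mem_insert_of_mem hj))

lemma Fc.cmul (h : Fc k C F) {z : A} (hz : ∀ b, z * b = b * z) :
    Fc k (‖z‖ * C) fun a => z * F a := by
  obtain ⟨F, h, rfl⟩ := h
  exact ⟨fun i a => z * F i a, fun i hi => ⟨(h i hi).1.cmul hz, (h i hi).2.map (z * ·)⟩,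
    funext fun a => by simp [mul_sum]⟩

lemma Fc.of_bal (h : Co k C F) {i : ℕ} (hi : i ≤ k) (hb : Bal i F) : Fc k C F := by
  refine ⟨Pi.single i F, fun j _ => ?_, by simp [hi]⟩
  rcases eq_or_ne j i with rfl | hj
  · simpa using ⟨h, hb⟩
  · simpa [hj] using ⟨.zero h.nonneg, bal_const j 0⟩

lemma Fc.lim {W : WL A} {ι : Type*} {U : Ultrafilter ι} {F : ι → Fn A} (hl : PL W U F G)
    (h : ∀ᶠ i in U, Fc k C (F i)) : Fc k C G := by
  choose! P h1 h2 using fun i (hi : Fc k C (F i)) => hi
  choose! Q hQ using fun j (hj : j ≤ k) => exists_PL W U (F := fun i => P i j)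
    (h.mono fun i hi => (h1 i hi j hj).1)
  refine ⟨Q, fun j hj => ⟨.lim (hQ j hj) (h.mono fun i hi => (h1 i hi j hj).1),
    .lim (hQ j hj) (h.mono fun i hi => (h1 i hi j hj).2)⟩, funext fun a => ?_⟩
  rw [Finset.sum_apply]
  exact (hl a).eq_of (.sum _ fun j hj => hQ j (by simpa [Nat.lt_succ_iff] using hj) a)
    (h.mono fun i hi => by simp [h2 i hi])

lemma Fc.split (h : Fc k C F) : ∃ F0, Co k C F0 ∧ Bal 0 F0 ∧ F - F0 ∈ DD 1 k := by
  obtain ⟨F, h, rfl⟩ := h
  refine ⟨F 0, (h 0 k.zero_le).1, (h 0 k.zero_le).2, ?_⟩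
  rw [sum_range_succ', add_sub_cancel_right]
  exact sum_mem fun i hi => (h _ (by simpa using hi)).2.mem_DD (by omega) (by simpa using hi)

lemma ray_ray (u v a : ℕ → A) : ray k u (ray k v a) = ray k (u * v) a := by
  ext i
  unfold ray
  split_ifs <;> simp [mul_assoc]

lemma ray_one (a : ℕ → A) : ray k 1 a = a := by
  ext i
  simp [ray]

lemma Fc.ray (h : Fc k C F) {u : ℕ → A} (hu : ∀ i, star (u i) * u i = 1) :
    Fc k C fun a => F (ray k u a) := by
  obtain ⟨F, h, rfl⟩ := h
  refine ⟨fun i a => F i (P082.ray k u a), fun i hi => ⟨(h i hi).1.comp_ray hu,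
    fun a a' e1 e2 => (h i hi).2 _ _ (fun j h1 h2 => by simp [P082.ray, e1 j h1 h2]) ?_⟩,
    funext fun a => by simp⟩
  have : ∀ a : ℕ → A, P082.ray k u a i * P082.ray k u a (i + 1) =
      (if i = 0 then 1 else u (i - 1)) * (a i * a (i + 1)) *
        if i + 1 ≤ k then star (u (i + 1)) else 1 := fun a => by
    simp [P082.ray, hi, mul_assoc, ← mul_assoc (star (u i)), hu]
  rw [this, this, e2]

/-- The tuple used for the ray identity. -/
def rayT (m : ℕ) (u : A) (a : ℕ → A) : ℕ → A :=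
  ins m (star u) fun i => (if i = m + 1 then u else 1) * a i * 1

lemma mg_rayT {m : ℕ} (hm : m ≤ k) (u : A) (a : ℕ → A) :
    mg m (rayT m u a) = ray k (Function.update 1 m u) a := by
  ext j
  simp only [mg, rayT, ins, ray, Function.update_apply]
  obtain h | rfl | h := lt_trichotomy j m
  · simp (disch := omega) [if_pos, if_neg]
  · simp (disch := omega) [hm, if_neg]
  · obtain rfl | h := (Nat.succ_le_of_lt h).eq_or_lt <;> simp (disch := omega) [if_pos, if_neg]

lemma mg_succ_rayT (m : ℕ) {u : A} (hu : star u * u = 1) (a : ℕ → A) :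
    mg (m + 1) (rayT m u a) = a := by
  ext j
  simp only [mg, rayT, ins]
  obtain h | rfl | h := lt_trichotomy j (m + 1) <;>
    simp (disch := omega) [if_pos, if_neg, ← mul_assoc, hu]

lemma bal_rayT {m i : ℕ} (hi : i ≠ m) (u : A) :
    Bal i fun a => φ (mg (if i < m then i else i + 1) (rayT m u a)) := fun a a' e1 e2 => by
  refine congrArg φ (funext fun j => ?_)
  simp only [mg, rayT, ins]
  obtain h | h := hi.lt_or_gt
  · obtain h1 | rfl | h1 := lt_trichotomy j i
    · simp (disch := omega) [if_pos, e1]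
    · simp (disch := omega) [if_pos, if_neg, e2]
    · simp (disch := omega) only [if_pos, if_neg]
      split_ifs <;> simp (disch := omega) [e1]
  · obtain h1 | rfl | h1 := lt_trichotomy j (i + 1)
    · simp (disch := omega) only [if_pos, if_neg]
      split_ifs <;> simp (disch := omega) [e1]
    · simp (disch := omega) [if_neg, e2, mul_assoc]
    · simp (disch := omega) [if_neg, e1]

lemma fc_single (hφ : Co k c φ) (hd : dd k φ = 0) {m : ℕ} (hm : m ≤ k) {u : A}
    (hu : star u * u = 1) : Fc k c ((fun a => φ (ray k (Function.update 1 m u) a)) - φ) := by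
  let T : ℕ → Fn A := fun i a => φ (mg i (rayT m u a))
  have hT : ∀ i ≤ k + 1, Co k c (T i) := fun i hi =>
    ((hφ.comp_mg hi).comp_ins hm ((norm_star u).trans_le (norm_le_one_of_iso hu))).comp_lr
      (fun i => by split_ifs; exacts [norm_le_one_of_iso hu, norm_one_le]) (fun _ => norm_one_le)
      (by simp) rfl
  have h1 : T m = fun a => φ (ray k (Function.update 1 m u) a) := by simp only [T, mg_rayT hm]
  have h2 : T (m + 1) = φ := by simp only [T, mg_succ_rayT m hu]
  have h4 : ∑ i ∈ range (k + 2), (-1 : ℂ) ^ i • T i = 0 := funext fun a => by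
    simpa [dd] using congrFun hd (rayT m u a)
  refine ⟨fun i => if i = m then 0 else (-(-1 : ℂ) ^ m * (-1) ^ (if i < m then i else i + 1)) •
    T (if i < m then i else i + 1), fun i hi => ?_, ?_⟩
  · by_cases h : i = m
    · simpa [h] using ⟨.zero hφ.nonneg, bal_const m 0⟩
    · simp only [if_neg h]
      exact ⟨((hT _ (by split_ifs <;> omega)).smul _).mono (by split_ifs <;> simp),
        (bal_rayT h u).map _⟩
  · rw [← h1]
    clear_value T
    obtain ⟨n, rfl⟩ := Nat.exists_eq_add_of_le hm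
    rw [show m + n + 2 = m + (n + 1 + 1) by ring, sum_range_add, sum_range_succ',
      sum_range_succ'] at h4
    rw [add_assoc, sum_range_add, sum_range_succ', sum_congr rfl fun i hi => if_neg (by
      simp at hi; omega), sum_congr (s₁ := range n) rfl fun i hi => if_neg (by omega),
      sum_congr rfl fun i hi => by rw [if_pos (by simpa using hi)],
      sum_congr (s₁ := range n) rfl fun i hi => by rw [if_neg (by omega)]]
    simp only [mul_smul, ← smul_sum, add_zero, zero_add, if_true, h2, ← smul_add, add_assoc] at h4 ⊢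
    rw [← add_assoc, add_eq_zero_iff_eq_neg] at h4
    rw [h4, pow_succ]
    simp [smul_smul, ← mul_pow, sub_eq_add_neg, add_comm]

theorem self_mem_KK (hφ : Co k c φ) (hd : dd k φ = 0) : φ ∈ KK k c φ := by
  refine ⟨hφ, fun u hu => ?_⟩
  have key : ∀ m ≤ k + 1, Fc k (m * c)
      ((fun a => φ (ray k (fun i => if i < m then u i else 1) a)) - φ) := fun m hm => by
    induction m with
    | zero => simpa [← Pi.one_def, ray_one] using Fc.zero le_rfl
    | succ m ih =>
      have := ((fc_single hφ hd (by omega : m ≤ k) (hu m)).ray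
        (u := fun i => if i < m then u i else 1) fun i => by split_ifs <;> simp [hu]).add
        (ih (by omega))
      convert this using 1
      · push_cast; ring
      · ext a
        simp only [Pi.sub_apply, Pi.add_apply, ray_ray, sub_add_sub_cancel]
        congr 3
        ext i
        simp only [Pi.mul_apply, Function.update_apply]
        split_ifs <;> first | omega | simp [*]
  convert key (k + 1) le_rfl using 3
  · simp
  · refine hφ.dep _ _ fun i hi => ?_
    unfold ray
    split_ifs <;> first | omega | simp (disch := omega) [if_pos]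

lemma KK.ray (h : ψ ∈ KK k c φ) {u : ℕ → A} (hu : ∀ i, star (u i) * u i = 1) :
    (fun a => ψ (ray k u a)) ∈ KK k c φ :=
  ⟨h.1.comp_ray hu, fun v hv => by
    simpa only [ray_ray] using h.2 (u * v) fun i => by
      simp [mul_assoc, ← mul_assoc (star (u i)), hu, hv]⟩

lemma KK.avg {ι : Type*} [Fintype ι] [Nonempty ι] {ψ : ι → Fn A} (h : ∀ i, ψ i ∈ KK k c φ) :
    (Fintype.card ι : ℂ)⁻¹ • ∑ i, ψ i ∈ KK k c φ := by
  refine ⟨.avg fun i => (h i).1, fun u hu => ?_⟩
  convert (Fc.sum univ fun i _ => (h i).2 u hu).smul (Fintype.card ι : ℂ)⁻¹ using 1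
  · simp
  · ext a
    simp [smul_sub, ← Nat.cast_smul_eq_nsmul ℂ]

lemma KK.lim {W : WL A} {ι : Type*} {U : Ultrafilter ι} {ψ : ι → Fn A} (hl : PL W U ψ G)
    (h : ∀ᶠ i in U, ψ i ∈ KK k c φ) : G ∈ KK k c φ :=
  ⟨.lim hl (h.mono fun _ h => h.1), fun u hu => .lim (W := W)
    (fun a => (hl _).sub (.const (φ a))) (h.mono fun _ h => h.2 u hu)⟩

lemma KK.fc (h : ψ ∈ KK k c φ) : Fc k ((k + 1) * c) (ψ - φ) := by
  simpa only [ray_one] using h.2 1 (by simp)

end Vale.Agent.P082
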