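import Vale.Agent.P082.Cut
import Mathlib.SetTheory.Cardinal.Arithmetic

/-! Job StrA: projections, comparison, orthogonal copies. -/

namespace Vale.Agent.P082

open Filter

variable {A : Type*} [CStarAlgebra A] {H : Type*}
  [NormedAddCommGroup H] [InnerProductSpace ℂ H] [CompleteSpace H]

/-- Weak sums along a fixed ultrafilter. -/
def HS (R : Rep A H) {ι : Type*} (x : ι → A) (s : A) : Prop :=
  R.W.T (Ultrafilter.of (atTop : Filter (Finset ι))) (fun S => ∑ a ∈ S, x a) s

namespace HS

variable {R : Rep A H} {ι : Type*} {x x' : ι → A} {s s' : A}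

lemma congr (h : HS R x s) (e : ∀ a, x a = x' a) : HS R x' s := funext e ▸ h

lemma mul_left (h : HS R x s) (b : A) : HS R (fun a => b * x a) (b * s) :=
  (WL.T.mul_left h b).congr fun _ => Finset.mul_sum _ _ _

lemma mul_right (h : HS R x s) (b : A) : HS R (fun a => x a * b) (s * b) :=
  (WL.T.mul_right h b).congr fun _ => Finset.sum_mul _ _ _

lemma star (h : HS R x s) : HS R (fun a => star (x a)) (star s) :=
  (Rep.T_star h).congr fun _ => star_sum _ _

lemma unique (h : HS R x s) (h' : HS R x s') : s = s' := WL.T.unique h h'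

lemma zero (h : HS R x s) (e : ∀ a, x a = 0) : s = 0 :=
  WL.T.eq_const h (Eventually.of_forall fun _ => Finset.sum_eq_zero fun a _ => e a)

lemma single (h : HS R x s) (a : ι) (e : ∀ b, b ≠ a → x b = 0) : s = x a :=
  WL.T.eq_const h (((eventually_ge_atTop {a}).filter_mono (Ultrafilter.of_le _)).mono
    fun _ hS => Finset.sum_eq_single_of_mem a (Finset.singleton_subset_iff.1 hS) fun b _ => e b)

lemma fin [Fintype ι] (h : HS R x s) : s = ∑ a, x a :=
  WL.T.eq_const h (((eventually_ge_atTop Finset.univ).filter_mono (Ultrafilter.of_le _)).mono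
    fun _ hS => by rw [Finset.univ_subset_iff.1 hS])

lemma prod (h : HS R x s) (h' : HS R x' s') (e : ∀ a b, a ≠ b → Star.star (x a) * x' b = 0) :
    HS R (fun a => Star.star (x a) * x' a) (Star.star s * s') :=
  (h'.mul_left _).congr fun a => (h.star.mul_right (x' a)).single a fun b hb => e b a hb

lemma proj (h : HS R x s) (hx : ∀ a, IsStarProjection (x a))
    (e : ∀ a b, a ≠ b → x a * x b = 0) : IsStarProjection s := by
  have h1 : Star.star s = s := (h.star.congr fun a => (hx a).isSelfAdjoint.star_eq).unique h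
  have h2 := (h.prod h fun a b hab => by rw [(hx a).isSelfAdjoint.star_eq, e a b hab]).congr
    (x' := x) fun a => by rw [(hx a).isSelfAdjoint.star_eq, (hx a).isIdempotentElem.eq]
  rw [h1] at h2
  exact ⟨h2.unique h, h1⟩

end HS

lemma piso_mul {v : A} (h : IsStarProjection (star v * v)) : v * (star v * v) = v := by
  have ee := h.isIdempotentElem.eq
  rw [← sub_eq_zero, ← CStarRing.star_mul_self_eq_zero_iff, star_sub, star_mul,
    h.isSelfAdjoint.star_eq]
  calc _ = (star v * v) * (star v * v) * (star v * v) - (star v * v) * (star v * v)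
        - (star v * v) * (star v * v) + star v * v := by noncomm_ring
    _ = 0 := by rw [ee, ee]; abel

lemma piso_star {v : A} (h : IsStarProjection (star v * v)) : IsStarProjection (v * star v) :=
  ⟨by rw [IsIdempotentElem, mul_assoc, ← mul_assoc (star v), ← mul_assoc, piso_mul h],
    IsSelfAdjoint.mul_star_self v⟩

lemma piso_star_mul {v : A} (h : IsStarProjection (star v * v)) :
    star v * (v * star v) = star v := by
  simpa [mul_assoc] using congrArg star (piso_mul h)

/-- Orthogonal families of isometric pieces have weak sums. -/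
lemma exists_HS (R : Rep A H) {ι : Type*} {x : ι → A}
    (hp : ∀ a, IsStarProjection (star (x a) * x a)) (hl : ∀ a b, a ≠ b → star (x a) * x b = 0)
    (hr : ∀ a b, a ≠ b → x a * star (x b) = 0) : ∃ s, HS R x s := by
  refine R.W.exists_T _ (r := 1) (Eventually.of_forall fun S => ?_)
  have h1 : star (∑ a ∈ S, x a) * ∑ a ∈ S, x a = ∑ a ∈ S, star (x a) * x a := by
    rw [star_sum, Finset.sum_mul_sum]
    exact Finset.sum_congr rfl fun a ha =>
      Finset.sum_eq_single_of_mem a ha fun b _ hb => hl a b hb.symm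
  have h2 : IsStarProjection (∑ a ∈ S, star (x a) * x a) := by
    refine ⟨?_, by simp [IsSelfAdjoint, star_sum]⟩
    rw [IsIdempotentElem, Finset.sum_mul_sum]
    refine Finset.sum_congr rfl fun a ha => ?_
    rw [Finset.sum_eq_single_of_mem a ha fun b _ hb => by
      rw [mul_assoc, ← mul_assoc (x a), hr a b hb.symm, zero_mul, mul_zero]]
    exact (hp a).isIdempotentElem.eq
  have h3 := h2.norm_le
  rw [← h1, CStarRing.norm_star_mul_self] at h3
  nlinarith [norm_nonneg (∑ a ∈ S, x a)]

lemma exists_HS_proj (R : Rep A H) {ι : Type*} {x : ι → A} (hx : ∀ a, IsStarProjection (x a))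
    (e : ∀ a b, a ≠ b → x a * x b = 0) : ∃ s, HS R x s :=
  exists_HS R (fun a => by rw [(hx a).isSelfAdjoint.star_eq, (hx a).isIdempotentElem.eq]; exact hx a)
    (fun a b h => by rw [(hx a).isSelfAdjoint.star_eq, e a b h])
    (fun a b h => by rw [(hx b).isSelfAdjoint.star_eq, e a b h])

lemma exists_max_fam {α : Type*} (P : α → Prop) (Q : α → α → Prop) (hQ : ∀ x y, Q x y → Q y x) :
    ∃ S : Set α, (∀ x : S, P x) ∧ (∀ x y : S, x ≠ y → Q x y) ∧
      ∀ y, P y → (∀ x : S, Q x y) → y ∈ S := by
  obtain ⟨S, hS⟩ := zorn_subset {S : Set α | (∀ x ∈ S, P x) ∧ S.Pairwise Q} fun c hc hch =>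
    ⟨⋃₀ c, ⟨fun x ⟨T, hT, hx⟩ => (hc hT).1 x hx,
      (Set.pairwise_sUnion hch.directedOn).2 fun T hT => (hc hT).2⟩,
      fun T hT => Set.subset_sUnion_of_mem hT⟩
  refine ⟨S, fun x => hS.prop.1 x x.2, fun x y h => hS.prop.2 x.2 y.2 (Subtype.coe_ne_coe.2 h),
    fun y hy h => hS.le_of_ge (y := insert y S) ⟨?_, ?_⟩ (Set.subset_insert _ _)
      (Set.mem_insert _ _)⟩
  · rintro x (rfl | hx)
    exacts [hy, hS.prop.1 x hx]
  · exact hS.prop.2.insert fun x hx _ => ⟨hQ _ _ (h ⟨x, hx⟩), h ⟨x, hx⟩⟩

theorem exists_max_PI (R : Rep A H) : ∃ z : A, PI z ∧ ∀ c, PI c → c * z = 0 → c = 0 := by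
  obtain ⟨S, h1, h2, h3⟩ := exists_max_fam (fun c : A => PI c) (fun c d => c * d = 0 ∧ d * c = 0)
    fun _ _ => And.symm
  choose hp hc s t hs ht hst using h1
  have key : ∀ (u w : S → A), (∀ a, star (u a) * u a = a) → (∀ a, star (w a) * w a = a) →
      ∀ a b, a ≠ b → star (u a) * w b = 0 ∧ u a * star (w b) = 0 := fun u w hu hw a b hab => by
    have e1 : u a * a = u a := by simpa only [hu] using piso_mul (v := u a) (hu a ▸ hp a)
    have e2 : w b * b = w b := by simpa only [hw] using piso_mul (v := w b) (hw b ▸ hp b)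
    have e3 : (a : A) * star (u a) = star (u a) := by
      simpa [(hp a).isSelfAdjoint.star_eq] using congrArg star e1
    have e4 : (b : A) * star (w b) = star (w b) := by
      simpa [(hp b).isSelfAdjoint.star_eq] using congrArg star e2
    constructor
    · rw [← e3, ← e2, mul_assoc, ← mul_assoc (star (u a)), ← hc b, ← mul_assoc, (h2 a b hab).1,
        zero_mul]
    · rw [← e1, ← e4, mul_assoc, ← mul_assoc (a : A), (h2 a b hab).1, zero_mul, mul_zero]
  obtain ⟨z, hz⟩ := exists_HS_proj R hp fun a b h => (h2 a b h).1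
  obtain ⟨s', hs'⟩ := exists_HS R (x := s) (fun a => hs a ▸ hp a)
    (fun a b h => (key s s hs hs a b h).1) fun a b h => (key s s hs hs a b h).2
  obtain ⟨t', ht'⟩ := exists_HS R (x := t) (fun a => ht a ▸ hp a)
    (fun a b h => (key t t ht ht a b h).1) fun a b h => (key t t ht ht a b h).2
  have hzc : ∀ b, z * b = b * z := fun b =>
    ((hz.mul_right b).congr fun a => hc a b).unique (hz.mul_left b)
  have haz : ∀ a : S, a * z = a := fun a => ((hz.mul_left a).single a fun b hb =>
    (h2 b a hb).2).trans (hp a).isIdempotentElem.eq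
  refine ⟨z, ⟨hz.proj hp fun a b h => (h2 a b h).1, hzc, s', t',
    ((hs'.prod hs' fun a b h => (key s s hs hs a b h).1).congr hs).unique hz,
    ((ht'.prod ht' fun a b h => (key t t ht ht a b h).1).congr ht).unique hz,
    (hs'.prod ht' fun a b h => (key s t hs ht a b h).1).zero hst⟩, fun c hc' h0 => ?_⟩
  have : ∀ a : S, a * c = 0 := fun a => by rw [← haz a, mul_assoc, hzc, h0, mul_zero]
  exact (haz ⟨c, h3 c hc' fun a => ⟨this a, (hc'.2.1 a).trans (this a)⟩⟩).symm.trans h0

lemma exists_central (R : Rep A H) {p q : A} (h : ∀ a, p * a * q = 0) :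
    ∃ c, IsStarProjection c ∧ (∀ b, c * b = b * c) ∧ p * c = p ∧ c * q = 0 := by
  let K : Submodule ℂ H := ⨅ a, (R.π (p * a)).ker
  have hK : ∀ ξ, ξ ∈ K ↔ ∀ a, R.π (p * a) ξ = 0 := fun ξ => by simp [K]
  obtain ⟨f, hf, h1⟩ := exists_proj R K (by
    simp only [K, Submodule.coe_iInf]
    exact isClosed_iInter fun a => (R.π (p * a)).isClosed_ker) fun S hS ξ hξ => (hK _).2 fun a => by
      have := congr($(hS (p * a)) ξ)
      simp only [mul_apply_eq_comp, (hK ξ).1 hξ a, map_zero] at this
      exact this.symm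
  have h2 : ∀ ξ, R.π f ξ ∈ K := fun ξ =>
    (h1 _).1 (by rw [← R.mul_apply, hf.isIdempotentElem.eq])
  have h3 : ∀ b, f * b * f = b * f := fun b => R.ext' fun ξ => by
    rw [mul_assoc, R.mul_apply, h1, hK]
    intro a
    rw [← R.mul_apply, ← mul_assoc, R.mul_apply, mul_assoc]
    exact (hK _).1 (h2 ξ) _
  have h4 : ∀ b, f * b = b * f := fun b => by
    have := congrArg star (h3 (star b))
    simp only [star_mul, star_star, hf.isSelfAdjoint.star_eq, ← mul_assoc] at this
    rw [← this, h3]
  refine ⟨1 - f, hf.one_sub, fun b => by rw [sub_mul, mul_sub, h4, one_mul, mul_one], ?_, ?_⟩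
  · rw [mul_sub, mul_one, sub_eq_self]
    exact R.ext' fun ξ => by simpa [R.mul_apply] using (hK _).1 (h2 ξ) 1
  · rw [sub_mul, one_mul, sub_eq_zero, eq_comm]
    exact R.ext' fun ξ => by
      rw [R.mul_apply, h1, hK]
      intro a
      rw [← R.mul_apply, h]; simp

variable [PartialOrder A] [StarOrderedRing A]

/-- Comparison of projections. -/
theorem comparison (R : Rep A H) {p q : A} (hp : IsStarProjection p) (hq : IsStarProjection q)
    (h : ∀ v, star v * v = p → q * v ≠ v) : ∃ c w, IsStarProjection c ∧ (∀ b, c * b = b * c) ∧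
      c * p ≠ 0 ∧ star w * w = c * q ∧ p * w = w := by
  obtain ⟨S, h1, h2, h3⟩ := exists_max_fam
    (fun v : A => IsStarProjection (star v * v) ∧ p * v = v ∧ v * q = v)
    (fun v w => star v * w = 0 ∧ v * star w = 0) fun x y h =>
      ⟨by simpa using congrArg star h.1, by simpa using congrArg star h.2⟩
  obtain ⟨v, hv⟩ := exists_HS R (x := fun a : S => (a : A)) (fun a => (h1 a).1)
    (fun a b h => (h2 a b h).1) fun a b h => (h2 a b h).2
  have pv : p * v = v := ((hv.mul_left p).congr fun a => (h1 a).2.1).unique hv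
  have vq : v * q = v := ((hv.mul_right q).congr fun a => (h1 a).2.2).unique hv
  have vp : star v * p = star v := by simpa [hp.isSelfAdjoint.star_eq] using congrArg star pv
  have qv : q * star v = star v := by simpa [hq.isSelfAdjoint.star_eq] using congrArg star vq
  have e1 : ∀ a : S, star (a : A) * v = star (a : A) * a := fun a =>
    (hv.mul_left _).single a fun b hb => (h2 a b hb.symm).1
  have e2 : ∀ a : S, (a : A) * star v = a * star (a : A) := fun a =>
    (hv.star.mul_left _).single a fun b hb => (h2 a b hb.symm).2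
  have hvv : IsStarProjection (star v * v) := (hv.prod hv fun a b h => (h2 a b h).1).proj
    (fun a => (h1 a).1) fun a b h => by
      rw [mul_assoc, ← mul_assoc (a : A), (h2 a b h).2, zero_mul, mul_zero]
  have e3 : ∀ a : S, star (a : A) * (p - v * star v) = 0 := fun a => by
    have : star (a : A) * p = star (a : A) := by
      simpa [hp.isSelfAdjoint.star_eq] using congrArg star (h1 a).2.1
    rw [mul_sub, this, ← mul_assoc, e1, mul_assoc, e2, piso_star_mul (h1 a).1, sub_self]
  have e4 : ∀ a : S, (a : A) * (q - star v * v) = 0 := fun a => by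
    rw [mul_sub, (h1 a).2.2, ← mul_assoc, e2, mul_assoc, e1, piso_mul (h1 a).1, sub_self]
  have hq' : IsStarProjection (q - star v * v) :=
    hvv.sub_of_mul_eq_right hq (by rw [← mul_assoc, qv])
  have hp' : IsStarProjection (p - v * star v) :=
    (piso_star hvv).sub_of_mul_eq_right hp (by rw [← mul_assoc, pv])
  have e5 : p * (p - v * star v) = p - v * star v := by
    rw [mul_sub, ← mul_assoc, pv, hp.isIdempotentElem.eq]
  have e6 : (q - star v * v) * q = q - star v * v := by
    rw [sub_mul, mul_assoc, vq, hq.isIdempotentElem.eq]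
  have e7 : ∀ a, (p - v * star v) * a * (q - star v * v) = 0 := fun a => by
    by_contra h0
    obtain ⟨y, y0, y1, y2⟩ := exists_piso R h0
    have y3 := y2 _ hq' (by rw [mul_assoc, hq'.isIdempotentElem.eq])
    have y4 : (p - v * star v) * ((p - v * star v) * a * (q - star v * v) * y) =
        (p - v * star v) * a * (q - star v * v) * y := by
      simp only [← mul_assoc, hp'.isIdempotentElem.eq]
    generalize (p - v * star v) * a * (q - star v * v) * y = u at y0 y1 y3 y4
    have y5 : (q - star v * v) * star u = star u := by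
      have := congrArg star y3
      rwa [star_mul, hq'.isSelfAdjoint.star_eq] at this
    have := e4 ⟨u, h3 u ⟨y1, by rw [← y4, ← mul_assoc, e5], by rw [← y3, mul_assoc, e6]⟩
      fun b => ⟨by rw [← y4, ← mul_assoc, e3, zero_mul], by rw [← y5, ← mul_assoc, e4, zero_mul]⟩⟩
    exact y0 (y3.symm.trans this)
  obtain ⟨c, hc, hz, c1, c2⟩ := exists_central R e7
  refine ⟨c, c * v, hc, hz, fun h0 => h (star v) ?_ qv, ?_, by rw [← mul_assoc, ← hz, mul_assoc, pv]⟩
  · have : p - v * star v = 0 := by rw [← c1, ← hz, ← e5, ← mul_assoc, h0, zero_mul]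
    rw [star_star, ← sub_eq_zero.1 this]
  · rw [mul_sub, sub_eq_zero] at c2
    rw [c2, star_mul, hc.isSelfAdjoint.star_eq, ← hz, mul_assoc, ← mul_assoc (star v), ← hz,
      mul_assoc, ← mul_assoc, hc.isIdempotentElem.eq]

theorem copies (R : Rep A H) {p : A} (hp : IsStarProjection p) (h0 : p ≠ 0) :
    (∃ c, PI c ∧ c * p ≠ 0) ∨ ∃ (c : A) (n : ℕ) (y : Fin n → A), IsStarProjection c ∧
      (∀ b, c * b = b * c) ∧ c ≠ 0 ∧ (∀ i, p * y i = y i) ∧ c = ∑ i, star (y i) * y i := by
  obtain ⟨S, h1, h2, h3⟩ := exists_max_fam (fun v : A => star v * v = p)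
    (fun v w => star v * w = 0) fun x y h => by simpa using congrArg star h
  have h4 : ∀ a : S, IsStarProjection (star (a : A) * a) := fun a => h1 a ▸ hp
  have h5 : ∀ a b : S, a ≠ b → (a : A) * star (a : A) * (b * star (b : A)) = 0 := fun a b h => by
    rw [mul_assoc, ← mul_assoc (star (a : A)), h2 a b h, zero_mul, mul_zero]
  obtain ⟨Q, hQ⟩ := exists_HS_proj R (fun a => piso_star (h4 a)) h5
  have hQp := hQ.proj (fun a => piso_star (h4 a)) h5
  have e1 : ∀ a : S, star (a : A) * (1 - Q) = 0 := fun a => by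
    rw [mul_sub, (hQ.mul_left (star (a : A))).single a fun b hb => by
      rw [← mul_assoc, h2 a b hb.symm, zero_mul], piso_star_mul (h4 a), mul_one, sub_self]
  obtain ⟨c, w, hc, hz, c0, w1, w2⟩ := comparison R hp hQp.one_sub fun v hv hv' => by
    have := e1 ⟨v, h3 v hv fun a => by rw [← hv', ← mul_assoc, e1, zero_mul]⟩
    exact h0 (by rw [← hv, ← hv', ← mul_assoc, hv', this, zero_mul])
  have cc := hc.isIdempotentElem.eq
  have hw : IsStarProjection (star w * w) := w1 ▸ hc.mul hQp.one_sub (hz _)
  let y : Option S → A := fun a => a.elim w fun a => c * star (a : A)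
  have y0 : ∀ a : S, star (y (some a)) * y (some a) = c * (a * star (a : A)) := fun a => by
    simp only [y, Option.elim, star_mul, star_star, hc.isSelfAdjoint.star_eq]
    rw [← hz, mul_assoc, ← mul_assoc (a : A), ← hz, mul_assoc, ← mul_assoc, cc]
  have y1 : ∀ a, p * y a = y a := by
    rintro (_ | a)
    · exact w2
    · simp only [y, Option.elim]
      rw [← mul_assoc, ← hz, mul_assoc, ← h1 a, mul_assoc, piso_star_mul (h4 a)]
  have y2 : ∀ a, IsStarProjection (star (y a) * y a) := by
    rintro (_ | a)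
    exacts [hw, y0 a ▸ hc.mul (piso_star (h4 a)) (hz _)]
  have y3' : ∀ a : S, y (some a) * star w = 0 := fun a => by
    simp only [y, Option.elim]
    rw [← piso_star_mul hw, ← mul_assoc (star w), w1, hz (1 - Q), mul_assoc, ← mul_assoc (star _),
      ← mul_assoc (star _), e1, zero_mul, zero_mul, mul_zero]
  have y3 : ∀ a b, a ≠ b → y a * star (y b) = 0 := by
    rintro (_ | a) (_ | b) h
    · exact absurd rfl h
    · have := congrArg star (y3' b)
      rwa [star_mul, star_star, star_zero] at this
    · exact y3' a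
    · simp only [y, Option.elim, star_mul, star_star]
      rw [mul_assoc, ← mul_assoc (star _), h2 a b fun e => h (e ▸ rfl), zero_mul, mul_zero]
  have y4 : ∀ a b, a ≠ b → star (y a) * y a * (star (y b) * y b) = 0 := fun a b h => by
    rw [mul_assoc, ← mul_assoc (y a), y3 a b h, zero_mul, mul_zero]
  obtain ⟨c', hc'⟩ := exists_HS_proj R y2 y4
  have y5 : ∀ a, (1 - c') * (star (y a) * y a) = 0 := fun a => by
    rw [sub_mul, (hc'.mul_right _).single a fun b hb => y4 b a hb, (y2 a).isIdempotentElem.eq,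
      one_mul, sub_self]
  have y6 : (1 - c') * c * Q = 0 := (hQ.mul_left _).zero fun a => by rw [mul_assoc, ← y0, y5]
  have y7 : (1 - c) * c' = 0 := (hc'.mul_left _).zero (by
    rintro (_ | a)
    · rw [show star (y none) * y none = _ from w1, ← mul_assoc, sub_mul, cc, one_mul, sub_self,
        zero_mul]
    · rw [y0, ← mul_assoc, sub_mul, cc, one_mul, sub_self, zero_mul])
  obtain rfl : c' = c := by
    have := y5 none
    rw [show star (y none) * y none = _ from w1, ← mul_assoc, mul_sub, y6, mul_one, sub_zero,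
      sub_mul, ← hz c', one_mul, sub_eq_zero] at this
    rw [sub_mul, one_mul, sub_eq_zero] at y7
    exact y7.trans this.symm
  rcases finite_or_infinite S with hS | hS
  · have := Fintype.ofFinite S
    let e := Fintype.equivFin (Option S)
    refine Or.inr ⟨c', _, fun i => y (e.symm i), hc, hz, fun h => c0 (by rw [h, zero_mul]),
      fun i => y1 _, hc'.fin.trans (e.symm.sum_comp fun a => star (y a) * y a).symm⟩
  obtain ⟨σ⟩ : Nonempty (Option S ⊕ Option S ↪ S) := by
    rw [← Cardinal.le_def]
    simp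
  have k1 : ∀ (i j : S) (a b), star ((i : A) * y a) * (j * y b) =
      star (y a) * (star (i : A) * j) * y b := fun i j a b => by simp [mul_assoc]
  have k2 : ∀ (i : S) a, star ((i : A) * y a) * (i * y a) = star (y a) * y a := fun i a => by
    rw [k1, h1, mul_assoc, y1]
  have k3 : ∀ (i j : S) a b, i ≠ j → star ((i : A) * y a) * (j * y b) = 0 := fun i j a b h => by
    rw [k1, h2 i j h, mul_zero, zero_mul]
  have k4 : ∀ f : Option S → S, f.Injective → ∃ s, HS R (fun a => (f a : A) * y a) s ∧
      star s * s = c' := fun f hf => by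
    obtain ⟨s, hs⟩ := exists_HS R (x := fun a => (f a : A) * y a) (fun a => k2 _ a ▸ y2 a)
      (fun a b h => k3 _ _ a b (hf.ne h)) fun a b h => by
        rw [star_mul, mul_assoc, ← mul_assoc (y a), y3 a b h, zero_mul, mul_zero]
    exact ⟨s, hs, ((hs.prod hs fun a b h => k3 _ _ a b (hf.ne h)).congr fun a => k2 _ a).unique hc'⟩
  obtain ⟨s, hs, hs'⟩ := k4 _ (σ.injective.comp Sum.inl_injective)
  obtain ⟨t, ht, ht'⟩ := k4 _ (σ.injective.comp Sum.inr_injective)
  have k5 : ∀ a b, star ((σ (.inl a) : A) * y a) * (σ (.inr b) * y b) = 0 := fun a b =>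
    k3 _ _ a b (σ.injective.ne Sum.inl_ne_inr)
  exact Or.inl ⟨c', ⟨hc, hz, s, t, hs', ht', (hs.prod ht fun a b _ => k5 a b).zero
    fun a => k5 a a⟩, c0⟩

end Vale.Agent.P082
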