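import Mathlib.Analysis.VonNeumannAlgebra.Basic
import Mathlib.Analysis.CStarAlgebra.ContinuousLinearMap
import Mathlib.Analysis.CStarAlgebra.CStarMatrix
import Mathlib.Analysis.CStarAlgebra.Hom
import Mathlib.Analysis.CStarAlgebra.ContinuousFunctionalCalculus.Order
import Mathlib.Analysis.InnerProductSpace.StarOrder

/-! Weak limit structures on C*-algebras and faithful representations with the bicommutant
property. -/

namespace Vale.Agent.P082

open scoped Topology InnerProductSpace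
open Filter

/-- A weak topology with compact balls and separately continuous multiplication. -/
structure WL (A : Type*) [CStarAlgebra A] where
  τ : TopologicalSpace A
  t2 : @T2Space A τ
  add : @Continuous (A × A) A (@instTopologicalSpaceProd A A τ τ) τ fun p => p.1 + p.2
  mulL : ∀ a, @Continuous A A τ τ (a * ·)
  mulR : ∀ a, @Continuous A A τ τ (· * a)
  cpt : ∀ r, @IsCompact A τ (Metric.closedBall 0 r)

section WL

variable {A : Type*} [CStarAlgebra A] {ι : Type*} {l : Filter ι} {x x' : ι → A} {y y' : A}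

lemma norm_le_one_of_iso {u : A} (h : star u * u = 1) : ‖u‖ ≤ 1 := by
  rcases subsingleton_or_nontrivial A with _ | _
  · simp [Subsingleton.elim u 0]
  · have := CStarRing.norm_star_mul_self (x := u)
    rw [h, norm_one] at this
    nlinarith [norm_nonneg u]

lemma norm_one_le : ‖(1 : A)‖ ≤ 1 := norm_le_one_of_iso (by simp)

/-- Weak convergence along a filter. -/
def WL.T (W : WL A) (l : Filter ι) (x : ι → A) (y : A) : Prop := Tendsto x l (@nhds A W.τ y)

namespace WL.T

variable {W : WL A}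

lemma const (y : A) : W.T l (fun _ => y) y := @tendsto_const_nhds _ W.τ _ _ _

lemma congr' (h : W.T l x y) (h' : x =ᶠ[l] x') : W.T l x' y := Tendsto.congr' h' h

lemma congr (h : W.T l x y) (h' : ∀ i, x i = x' i) : W.T l x' y := Tendsto.congr h' h

lemma mono {l' : Filter ι} (h : W.T l x y) (h' : l' ≤ l) : W.T l' x y := Tendsto.mono_left h h'

lemma comp {κ : Type*} {l' : Filter κ} {g : κ → ι} (h : W.T l x y) (hg : Tendsto g l' l) :
    W.T l' (fun j => x (g j)) y := Tendsto.comp h hg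

lemma add (h : W.T l x y) (h' : W.T l x' y') : W.T l (fun i => x i + x' i) (y + y') := by
  let := W.τ
  exact (W.add.tendsto (y, y')).comp (Tendsto.prodMk_nhds h h')

lemma mul_left (h : W.T l x y) (a : A) : W.T l (fun i => a * x i) (a * y) := by
  let := W.τ
  exact ((W.mulL a).tendsto y).comp h

lemma mul_right (h : W.T l x y) (a : A) : W.T l (fun i => x i * a) (y * a) := by
  let := W.τ
  exact ((W.mulR a).tendsto y).comp h

lemma smul (h : W.T l x y) (c : ℂ) : W.T l (fun i => c • x i) (c • y) := by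
  simpa only [Algebra.smul_def] using h.mul_left (algebraMap ℂ A c)

lemma neg (h : W.T l x y) : W.T l (fun i => -x i) (-y) := by simpa using h.smul (-1)

lemma sub (h : W.T l x y) (h' : W.T l x' y') : W.T l (fun i => x i - x' i) (y - y') := by
  simpa only [sub_eq_add_neg] using h.add h'.neg

lemma sum {κ : Type*} (s : Finset κ) {x : κ → ι → A} {y : κ → A}
    (h : ∀ j ∈ s, W.T l (x j) (y j)) : W.T l (fun i => ∑ j ∈ s, x j i) (∑ j ∈ s, y j) := by
  classical
  induction s using Finset.induction_on with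
  | empty => simpa using const 0
  | insert j s hj ih =>
    simpa only [Finset.sum_insert hj] using (h j (Finset.mem_insert_self _ _)).add
      (ih fun j hj => h j (Finset.mem_insert_of_mem hj))

lemma unique [l.NeBot] (h : W.T l x y) (h' : W.T l x y') : y = y' := by
  let := W.τ
  have := W.t2
  exact tendsto_nhds_unique h h'

lemma eq_of [l.NeBot] (h : W.T l x y) (h' : W.T l x' y') (e : x =ᶠ[l] x') : y = y' :=
  (h.congr' e).unique h'

lemma eq_const [l.NeBot] (h : W.T l x y) (e : ∀ᶠ i in l, x i = y') : y = y' :=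
  h.eq_of (const y') e

lemma norm_le [l.NeBot] (h : W.T l x y) {r : ℝ} (hx : ∀ᶠ i in l, ‖x i‖ ≤ r) : ‖y‖ ≤ r := by
  let := W.τ
  have := W.t2
  have := (W.cpt r).isClosed.mem_of_tendsto h (hx.mono fun i hi => mem_closedBall_zero_iff.2 hi)
  exact mem_closedBall_zero_iff.1 this

lemma eq_zero [l.NeBot] (h : W.T l x y) (hx : Tendsto (fun i => ‖x i‖) l (𝓝 0)) : y = 0 :=
  norm_le_zero_iff.1 (le_of_forall_pos_le_add fun _ hε => (zero_add _).ge.trans' <|
    h.norm_le ((hx.eventually (gt_mem_nhds hε)).mono fun _ => le_of_lt))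

end WL.T

lemma WL.exists_T (W : WL A) (U : Ultrafilter ι) {r : ℝ} (hx : ∀ᶠ i in U, ‖x i‖ ≤ r) :
    ∃ y, W.T U x y := by
  let := W.τ
  obtain ⟨y, -, hy⟩ := (W.cpt r).ultrafilter_le_nhds (U.map x) (by
    rw [Ultrafilter.coe_map, le_principal_iff, mem_map]
    exact hx.mono fun i hi => mem_closedBall_zero_iff.2 hi)
  exact ⟨y, hy⟩

end WL

section mat

variable {A : Type*} [CStarAlgebra A] [PartialOrder A] [StarOrderedRing A] {n : Type*} [Fintype n]
  [DecidableEq n]

/-- The entrywise weak topology on matrices. -/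
noncomputable def WL.mat (W : WL A) (n : Type*) [Fintype n] [DecidableEq n] :
    WL (CStarMatrix n n A) where
  τ := @Pi.topologicalSpace n _ fun _ => @Pi.topologicalSpace n _ fun _ => W.τ
  t2 := by
    let := W.τ
    have := W.t2
    exact inferInstanceAs (T2Space (n → n → A))
  add := by
    let := W.τ
    have : ContinuousAdd A := ⟨W.add⟩
    exact continuous_add (M := n → n → A)
  mulL a := by
    let := W.τ
    have : ContinuousAdd A := ⟨W.add⟩
    exact continuous_pi (X := n → n → A) fun i => continuous_pi fun j =>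
      continuous_finsetSum _ fun k _ => (W.mulL (a i k)).comp
        ((continuous_apply j).comp (continuous_apply k))
  mulR a := by
    let := W.τ
    have : ContinuousAdd A := ⟨W.add⟩
    exact continuous_pi (X := n → n → A) fun i => continuous_pi fun j =>
      continuous_finsetSum _ fun k _ => (W.mulR (a k j)).comp
        ((continuous_apply k).comp (continuous_apply i))
  cpt r := by
    let := W.τ
    refine (@isCompact_iff_ultrafilter_le_nhds _ (_) _).2 fun U hU => ?_
    have h1 : ∀ᶠ x : CStarMatrix n n A in U, ‖x‖ ≤ r :=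
      mem_of_superset (le_principal_iff.1 hU) fun x hx => mem_closedBall_zero_iff.1 hx
    choose y hy using fun i j => W.exists_T U (x := fun x => x i j)
      (h1.mono fun x hx => CStarMatrix.norm_entry_le_norm.trans hx)
    refine ⟨CStarMatrix.ofMatrix (Matrix.of y), mem_closedBall_zero_iff.2 ?_,
      tendsto_pi_nhds.2 fun i => tendsto_pi_nhds.2 fun j => hy i j⟩
    have hr : 0 ≤ r := by
      obtain ⟨x, hx⟩ := h1.exists
      exact (norm_nonneg _).trans hx
    refine CStarMatrix.norm_le_of_forall_inner_le (C := ⟨r, hr⟩) fun v w => ?_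
    have key : ∀ x : CStarMatrix n n A, inner A w (CStarMatrix.toCLM x v) =
        ∑ j, ∑ i, v i * x i j * star (w j) := fun x => by
      simp only [WithCStarModule.pi_inner, WithCStarModule.inner_def, ← Finset.sum_mul]
      rfl
    rw [key]
    refine (WL.T.sum _ fun j _ => WL.T.sum _ fun i _ =>
      ((hy i j).mul_left (v i)).mul_right (star (w j))).norm_le (h1.mono fun x hx => ?_)
    rw [← key]
    refine (CStarModule.norm_inner_le _).trans ?_
    rw [mul_comm]
    gcongr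
    exact (CStarMatrix.toCLM x).le_of_opNorm_le hx v

lemma WL.mat_T {W : WL A} {ι : Type*} {l : Filter ι} {x : ι → CStarMatrix n n A}
    {y : CStarMatrix n n A} :
    (W.mat n).T l x y ↔ ∀ p q, W.T l (fun i => x i p q) (y p q) := by
  let := W.τ
  exact tendsto_pi_nhds.trans (forall_congr' fun p => tendsto_pi_nhds)

end mat

/-- A faithful representation whose range has the bicommutant property. -/
structure Rep (A : Type*) [CStarAlgebra A] (H : Type*) [NormedAddCommGroup H]
    [InnerProductSpace ℂ H] [CompleteSpace H] where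
  π : A →⋆ₐ[ℂ] (H →L[ℂ] H)
  inj : Function.Injective π
  bic : ∀ T : H →L[ℂ] H, (∀ S, (∀ a, S * π a = π a * S) → S * T = T * S) → ∃ a, π a = T

namespace Rep

variable {A : Type*} [CStarAlgebra A] {H : Type*} [NormedAddCommGroup H] [InnerProductSpace ℂ H]
  [CompleteSpace H] (R : Rep A H)

lemma norm_π (a : A) : ‖R.π a‖ = ‖a‖ := NonUnitalStarAlgHom.norm_map R.π R.inj a

lemma norm_apply_le (a : A) (ξ : H) : ‖R.π a ξ‖ ≤ ‖a‖ * ‖ξ‖ :=
  R.norm_π a ▸ (R.π a).le_opNorm ξ

lemma mul_apply (a b : A) (ξ : H) : R.π (a * b) ξ = R.π a (R.π b ξ) := by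
  rw [map_mul]; rfl

lemma inner_star_left (a : A) (ξ η : H) : ⟪R.π (star a) ξ, η⟫_ℂ = ⟪ξ, R.π a η⟫_ℂ := by
  rw [map_star, ContinuousLinearMap.star_eq_adjoint, ContinuousLinearMap.adjoint_inner_left]

lemma inner_star_right (a : A) (ξ η : H) : ⟪ξ, R.π (star a) η⟫_ℂ = ⟪R.π a ξ, η⟫_ℂ := by
  rw [map_star, ContinuousLinearMap.star_eq_adjoint, ContinuousLinearMap.adjoint_inner_right]

lemma norm_sq (a : A) (ξ : H) : ‖R.π a ξ‖ ^ 2 = (⟪ξ, R.π (star a * a) ξ⟫_ℂ).re := by
  rw [mul_apply, inner_star_right, inner_self_eq_norm_sq_to_K]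
  norm_cast

lemma ext' {a b : A} (h : ∀ ξ, R.π a ξ = R.π b ξ) : a = b := R.inj (ContinuousLinearMap.ext h)

lemma norm_inner_le {a : A} {r : ℝ} (ha : ‖a‖ ≤ r) (ξ η : H) :
    ‖⟪η, R.π a ξ⟫_ℂ‖ ≤ r * ‖η‖ * ‖ξ‖ := by
  refine (norm_inner_le_norm _ _).trans ?_
  rw [mul_comm r, mul_assoc]
  gcongr
  exact (R.norm_apply_le a ξ).trans (by gcongr)

lemma exists_lim (U : Ultrafilter A) {r : ℝ} (hx : ∀ᶠ x : A in U, ‖x‖ ≤ r) :
    ∃ y, ‖y‖ ≤ r ∧ ∀ ξ η, Tendsto (fun x => ⟪η, R.π x ξ⟫_ℂ) U (𝓝 ⟪η, R.π y ξ⟫_ℂ) := by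
  have hr : 0 ≤ r := by
    obtain ⟨x, hx⟩ := hx.exists
    exact (norm_nonneg _).trans hx
  have : ∀ ξ η, ∃ c, Tendsto (fun x => ⟪R.π x ξ, η⟫_ℂ) U (𝓝 c) ∧ ‖c‖ ≤ r * ‖ξ‖ * ‖η‖ :=
    fun ξ η => by
    obtain ⟨c, hc, hc'⟩ := (isCompact_closedBall (0 : ℂ) (r * ‖ξ‖ * ‖η‖)).ultrafilter_le_nhds
      (U.map fun x => ⟪R.π x ξ, η⟫_ℂ) (by
        simp only [Ultrafilter.coe_map, le_principal_iff, mem_map]
        refine hx.mono fun x hx => ?_
        simpa [norm_inner_symm (R.π x ξ), mul_right_comm] using R.norm_inner_le hx ξ η)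
    exact ⟨c, hc', by simpa using hc⟩
  choose B hB hB' using this
  let B' : H →ₗ⋆[ℂ] H →ₗ[ℂ] ℂ := LinearMap.mk₂'ₛₗ _ _ B
    (fun a b c => tendsto_nhds_unique (hB _ _) (by
      simpa [inner_add_left] using (hB a c).add (hB b c)))
    (fun a b c => tendsto_nhds_unique (hB _ _) (by
      simpa only [map_smul, inner_smul_left, smul_eq_mul] using
        (hB b c).const_mul (starRingEnd ℂ a)))
    (fun a b c => tendsto_nhds_unique (hB _ _) (by
      simpa [inner_add_right] using (hB a b).add (hB a c)))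
    (fun a b c => tendsto_nhds_unique (hB _ _) (by
      simpa [inner_smul_right] using (hB b c).const_mul a))
  set T := InnerProductSpace.continuousLinearMapOfBilin (B'.mkContinuous₂ r hB')
  have hT : ∀ ξ η, Tendsto (fun x => ⟪η, R.π x ξ⟫_ℂ) U (𝓝 ⟪η, T ξ⟫_ℂ) := fun ξ η => by
    rw [← inner_conj_symm, InnerProductSpace.continuousLinearMapOfBilin_apply]
    exact ((Complex.continuous_conj.tendsto _).comp (hB ξ η)).congr fun i => inner_conj_symm _ _
  obtain ⟨y, hy⟩ := R.bic T fun S hS => ContinuousLinearMap.ext fun ξ => ext_inner_left ℂ fun η => by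
    have h1 := hT ξ (ContinuousLinearMap.adjoint S η)
    simp only [ContinuousLinearMap.adjoint_inner_left] at h1
    exact tendsto_nhds_unique (h1.congr fun x => congr(⟪η, $((hS x)) ξ⟫_ℂ)) (hT (S ξ) η)
  rw [← hy] at hT
  refine ⟨y, R.norm_π y ▸ (R.π y).opNorm_le_bound hr fun ξ => ?_, hT⟩
  have := le_of_tendsto (hT ξ (R.π y ξ)).norm (hx.mono fun x hx => R.norm_inner_le hx ξ (R.π y ξ))
  rw [inner_self_eq_norm_sq_to_K, norm_pow, RCLike.norm_ofReal, abs_norm] at this
  by_contra! h0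
  have : 0 < ‖R.π y ξ‖ := lt_of_le_of_lt (by positivity) h0
  nlinarith

/-- The weak operator topology. -/
noncomputable def W : WL A where
  τ := .induced (fun a (p : H × H) => ⟪p.2, R.π a p.1⟫_ℂ) inferInstance
  t2 := by
    let : TopologicalSpace A := .induced (fun a (p : H × H) => ⟪p.2, R.π a p.1⟫_ℂ) inferInstance
    refine Topology.IsEmbedding.t2Space (f := fun a (p : H × H) => ⟪p.2, R.π a p.1⟫_ℂ) ⟨⟨rfl⟩, ?_⟩
    exact fun a b h => R.ext' fun ξ => ext_inner_left ℂ fun η => congr_fun h (ξ, η)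
  add := by
    let : TopologicalSpace A := .induced (fun a (p : H × H) => ⟪p.2, R.π a p.1⟫_ℂ) inferInstance
    have h : ∀ p : H × H, Continuous fun a : A => ⟪p.2, R.π a p.1⟫_ℂ := fun p =>
      (continuous_apply p).comp
        (continuous_induced_dom (f := fun a (p : H × H) => ⟪p.2, R.π a p.1⟫_ℂ))
    refine continuous_induced_rng.2 (continuous_pi fun p => ?_)
    simp only [Function.comp_def, map_add, add_apply, inner_add_right]
    exact ((h p).comp continuous_fst).add ((h p).comp continuous_snd)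
  mulL a := by
    let : TopologicalSpace A := .induced (fun a (p : H × H) => ⟪p.2, R.π a p.1⟫_ℂ) inferInstance
    refine continuous_induced_rng.2 (continuous_pi fun p => ?_)
    simpa only [Function.comp_def, mul_apply, ← R.inner_star_left a] using
      (continuous_apply (p.1, R.π (star a) p.2)).comp
        (continuous_induced_dom (f := fun a (p : H × H) => ⟪p.2, R.π a p.1⟫_ℂ))
  mulR a := by
    let : TopologicalSpace A := .induced (fun a (p : H × H) => ⟪p.2, R.π a p.1⟫_ℂ) inferInstance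
    refine continuous_induced_rng.2 (continuous_pi fun p => ?_)
    simpa only [Function.comp_def, mul_apply] using (continuous_apply (R.π a p.1, p.2)).comp
      (continuous_induced_dom (f := fun a (p : H × H) => ⟪p.2, R.π a p.1⟫_ℂ))
  cpt r := by
    refine (@isCompact_iff_ultrafilter_le_nhds _ (_) _).2 fun U hU => ?_
    obtain ⟨y, h1, h2⟩ := R.exists_lim U (r := r)
      (mem_of_superset (le_principal_iff.1 hU) fun x hx => mem_closedBall_zero_iff.1 hx)
    refine ⟨y, mem_closedBall_zero_iff.2 h1, ?_⟩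
    rw [nhds_induced, ← tendsto_iff_comap]
    exact tendsto_pi_nhds.2 fun p => h2 p.1 p.2

variable {R} {ι : Type*} {l : Filter ι} {x : ι → A} {y : A}

lemma W_T : R.W.T l x y ↔ ∀ ξ η, Tendsto (fun i => ⟪η, R.π (x i) ξ⟫_ℂ) l (𝓝 ⟪η, R.π y ξ⟫_ℂ) := by
  rw [WL.T, W, nhds_induced, tendsto_comap_iff, tendsto_pi_nhds]
  exact Prod.forall

lemma T_star (h : R.W.T l x y) : R.W.T l (fun i => star (x i)) (star y) := W_T.2 fun ξ η => by
  simp only [inner_star_right, ← inner_conj_symm (R.π _ η)]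
  exact (Complex.continuous_conj.tendsto _).comp (W_T.1 h η ξ)

/-- Lower semicontinuity of vector norms. -/
lemma T_sum_sq_le [l.NeBot] {κ μ : Type*} [Fintype κ] [Fintype μ] {x : κ → μ → ι → A}
    {y : κ → μ → A} (h : ∀ i j, R.W.T l (x i j) (y i j)) (η : μ → H) {r : ℝ}
    (hx : ∀ᶠ t in l, ∑ i, ‖∑ j, R.π (x i j t) (η j)‖ ^ 2 ≤ r) :
    ∑ i, ‖∑ j, R.π (y i j) (η j)‖ ^ 2 ≤ r := by
  set ζ := fun i => ∑ j, R.π (y i j) (η j)
  have h1 : Tendsto (fun t => ∑ i, (2 * (⟪ζ i, ∑ j, R.π (x i j t) (η j)⟫_ℂ).re - ‖ζ i‖ ^ 2)) l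
      (𝓝 (∑ i, (2 * (⟪ζ i, ζ i⟫_ℂ).re - ‖ζ i‖ ^ 2))) := by
    refine tendsto_finsetSum _ fun i _ => (((Complex.continuous_re.tendsto _).comp ?_).const_mul
      2).sub_const _
    simp only [ζ, inner_sum (𝕜 := ℂ) _ _ (∑ j, R.π (y i j) (η j))]
    exact tendsto_finsetSum _ fun j _ => W_T.1 (h i j) _ _
  have h2 := le_of_tendsto h1 (hx.mono fun t ht => (Finset.sum_le_sum fun i _ => by
    have := norm_sub_sq (𝕜 := ℂ) (ζ i) (∑ j, R.π (x i j t) (η j))
    simp only [RCLike.re_to_complex] at this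
    nlinarith [sq_nonneg ‖ζ i - ∑ j, R.π (x i j t) (η j)‖]).trans ht)
  refine le_trans (le_of_eq (Finset.sum_congr rfl fun i _ => ?_)) h2
  have := inner_self_eq_norm_sq (𝕜 := ℂ) (ζ i)
  simp only [RCLike.re_to_complex] at this
  linarith

variable [PartialOrder A] [StarOrderedRing A]

lemma nonneg_iff {a : A} : 0 ≤ a ↔ IsSelfAdjoint a ∧ ∀ ξ, 0 ≤ (⟪ξ, R.π a ξ⟫_ℂ).re := by
  refine ⟨fun h => ⟨h.isSelfAdjoint, fun ξ => ?_⟩, fun ⟨h1, h2⟩ => ?_⟩
  · obtain ⟨b, rfl⟩ : ∃ b, a = star b * b :=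
      ⟨CFC.sqrt a, by rw [(CFC.sqrt_nonneg a).isSelfAdjoint.star_eq, CFC.sqrt_mul_sqrt_self a h]⟩
    rw [← norm_sq]
    positivity
  · have h3 : 0 ≤ R.π a := (ContinuousLinearMap.nonneg_iff_isPositive _).2
      ⟨ContinuousLinearMap.isSelfAdjoint_iff_isSymmetric.1 (h1.map R.π), fun ξ => by
        rw [ContinuousLinearMap.reApplyInnerSelf, inner_re_symm]
        exact h2 ξ⟩
    rw [StarOrderedRing.nonneg_iff_spectrum_nonneg (R := ℝ) _ h1, ← h1.map_spectrum_real R.π R.inj]
    exact (StarOrderedRing.nonneg_iff_spectrum_nonneg (R := ℝ) _ (h1.map R.π)).1 h3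

lemma T_nonneg [l.NeBot] (h : R.W.T l x y) (hx : ∀ᶠ i in l, 0 ≤ x i) : 0 ≤ y :=
  (nonneg_iff (R := R)).2 ⟨(T_star h).eq_of h (hx.mono fun _ hi => hi.isSelfAdjoint.star_eq),
    fun ξ => ge_of_tendsto ((Complex.continuous_re.tendsto _).comp (W_T.1 h ξ ξ))
      (hx.mono fun _ hi => (nonneg_iff.1 hi).2 ξ)⟩

lemma T_le [l.NeBot] (h : R.W.T l x y) {b : A} (hx : ∀ᶠ i in l, x i ≤ b) : y ≤ b :=
  sub_nonneg.1 (T_nonneg ((WL.T.const b).sub h) (hx.mono fun _ hi => sub_nonneg.2 hi))

end Rep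

end Vale.Agent.P082
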